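import Mathlib

/-!
# P335: splitting a double sum over ordered vertex pairs

For `c` symmetric in each of its two pairs, the sum over ordered pairs `(a,b)`, `(u,w)` with
`a ≠ b`, `u ≠ w` splits according to how the two pairs meet:
* same unordered pair (`2` orderings): the term `c a b a b`;
* exactly one common vertex (`4` patterns): the term `c a b a e`;
* disjoint pairs.
-/

namespace Vale.Agent.P335

open Finset

lemma sum_first {I : Type*} [Fintype I] [DecidableEq I] (a : I) (P : I → Prop) [DecidablePred P]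
    (g : I → I → ℝ) :
    (∑ x, ∑ y, if x = a ∧ P y then g x y else 0) = ∑ y, if P y then g a y else 0 := by
  rw [Finset.sum_eq_single a]
  · simp
  · intro b _ hb
    simp [hb]
  · simp

lemma sum_second {I : Type*} [Fintype I] [DecidableEq I] (a : I) (P : I → Prop) [DecidablePred P]
    (g : I → I → ℝ) :
    (∑ x, ∑ y, if y = a ∧ P x then g x y else 0) = ∑ x, if P x then g x a else 0 := by
  refine Finset.sum_congr rfl (fun x _ => ?_)
  rw [Finset.sum_eq_single a]
  · simp
  · intro b _ hb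
    simp [hb]
  · simp

theorem pair_split {I : Type*} [Fintype I] [DecidableEq I] (c : I → I → I → I → ℝ)
    (h1 : ∀ a b u w, c a b u w = c b a u w) (h2 : ∀ a b u w, c a b u w = c a b w u) :
    (∑ a, ∑ b, ∑ u, ∑ w, if a ≠ b ∧ u ≠ w then c a b u w else 0) =
      2 * (∑ a, ∑ b, if a ≠ b then c a b a b else 0) +
      4 * (∑ a, ∑ b, ∑ e, if a ≠ b ∧ a ≠ e ∧ b ≠ e then c a b a e else 0) +
      (∑ a, ∑ b, ∑ u, ∑ w,
        if a ≠ b ∧ u ≠ w ∧ a ≠ u ∧ a ≠ w ∧ b ≠ u ∧ b ≠ w then c a b u w else 0) := by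
  have key : ∀ a b u w,
      (if a ≠ b ∧ u ≠ w then c a b u w else 0) =
        (if a ≠ b ∧ u = a ∧ w = b then c a b u w else 0) +
        (if a ≠ b ∧ u = b ∧ w = a then c a b u w else 0) +
        (if a ≠ b ∧ u = a ∧ a ≠ w ∧ b ≠ w then c a b u w else 0) +
        (if a ≠ b ∧ u = b ∧ a ≠ w ∧ b ≠ w then c a b u w else 0) +
        (if a ≠ b ∧ w = a ∧ a ≠ u ∧ b ≠ u then c a b u w else 0) +
        (if a ≠ b ∧ w = b ∧ a ≠ u ∧ b ≠ u then c a b u w else 0) +
        (if a ≠ b ∧ u ≠ w ∧ a ≠ u ∧ a ≠ w ∧ b ≠ u ∧ b ≠ w then c a b u w else 0) := by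
    intro a b u w
    by_cases hab : a = b
    · subst hab; simp
    by_cases hua : u = a
    · subst hua
      by_cases hwb : w = b
      · subst hwb; simp [hab]
      by_cases hwu : w = u
      · subst hwu; simp [hab, Ne.symm hab]
      simp [hab, hwb, hwu, Ne.symm hwb, Ne.symm hwu, Ne.symm hab]
    by_cases hub : u = b
    · subst hub
      by_cases hwa : w = a
      · subst hwa; simp [hab, Ne.symm hab]
      by_cases hwu : w = u
      · subst hwu; simp [hab, Ne.symm hab]
      simp [hab, hwa, hwu, hua, Ne.symm hwa, Ne.symm hwu, Ne.symm hab]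
    by_cases hwa : w = a
    · subst hwa; simp [hab, hua, hub, Ne.symm hua, Ne.symm hub, Ne.symm hab]
    by_cases hwb : w = b
    · subst hwb; simp [hab, hua, hub, hwa, Ne.symm hua, Ne.symm hub, Ne.symm hab, Ne.symm hwa]
    by_cases huw : u = w
    · subst huw; simp [hab, hua, hub, Ne.symm hua, Ne.symm hub, Ne.symm hab]
    simp [hab, hua, hub, hwa, hwb, huw, Ne.symm hua, Ne.symm hub, Ne.symm hab, Ne.symm hwa,
      Ne.symm hwb]
  simp only [key, Finset.sum_add_distrib]
  -- evaluation of the six overlap terms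
  have t1 : (∑ a, ∑ b, ∑ u, ∑ w, if a ≠ b ∧ u = a ∧ w = b then c a b u w else 0) =
      ∑ a, ∑ b, if a ≠ b then c a b a b else 0 := by
    refine Finset.sum_congr rfl (fun a _ => Finset.sum_congr rfl (fun b _ => ?_))
    by_cases hab : a = b
    · simp [hab]
    · simp only [ne_eq, hab, not_false_eq_true, true_and, if_true]
      rw [sum_first a (fun y => y = b) (c a b)]
      simp
  have t2 : (∑ a, ∑ b, ∑ u, ∑ w, if a ≠ b ∧ u = b ∧ w = a then c a b u w else 0) =
      ∑ a, ∑ b, if a ≠ b then c a b a b else 0 := by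
    refine Finset.sum_congr rfl (fun a _ => Finset.sum_congr rfl (fun b _ => ?_))
    by_cases hab : a = b
    · simp [hab]
    · simp only [ne_eq, hab, not_false_eq_true, true_and, if_true]
      rw [sum_first b (fun y => y = a) (c a b)]
      simp [h2 a b a b]
  have t3 : (∑ a, ∑ b, ∑ u, ∑ w, if a ≠ b ∧ u = a ∧ a ≠ w ∧ b ≠ w then c a b u w else 0) =
      ∑ a, ∑ b, ∑ e, if a ≠ b ∧ a ≠ e ∧ b ≠ e then c a b a e else 0 := by
    refine Finset.sum_congr rfl (fun a _ => Finset.sum_congr rfl (fun b _ => ?_))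
    by_cases hab : a = b
    · simp [hab]
    · simp only [ne_eq, hab, not_false_eq_true, true_and]
      rw [sum_first a (fun y => ¬ a = y ∧ ¬ b = y) (c a b)]
  have t4 : (∑ a, ∑ b, ∑ u, ∑ w, if a ≠ b ∧ u = b ∧ a ≠ w ∧ b ≠ w then c a b u w else 0) =
      ∑ a, ∑ b, ∑ e, if a ≠ b ∧ a ≠ e ∧ b ≠ e then c a b a e else 0 := by
    rw [Finset.sum_comm]
    refine Finset.sum_congr rfl (fun a _ => Finset.sum_congr rfl (fun b _ => ?_))
    by_cases hab : a = b
    · simp [hab]
    · have hba : ¬ b = a := fun h => hab h.symm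
      simp only [ne_eq, hab, hba, not_false_eq_true, true_and]
      rw [sum_first a (fun y => ¬ b = y ∧ ¬ a = y) (c b a)]
      refine Finset.sum_congr rfl (fun e _ => ?_)
      by_cases h3 : a = e
      · simp [h3]
      · by_cases h4 : b = e
        · simp [h4]
        · simp [h3, h4, h1 b a a e]
  have t5 : (∑ a, ∑ b, ∑ u, ∑ w, if a ≠ b ∧ w = a ∧ a ≠ u ∧ b ≠ u then c a b u w else 0) =
      ∑ a, ∑ b, ∑ e, if a ≠ b ∧ a ≠ e ∧ b ≠ e then c a b a e else 0 := by
    refine Finset.sum_congr rfl (fun a _ => Finset.sum_congr rfl (fun b _ => ?_))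
    by_cases hab : a = b
    · simp [hab]
    · simp only [ne_eq, hab, not_false_eq_true, true_and]
      rw [sum_second a (fun y => ¬ a = y ∧ ¬ b = y) (c a b)]
      refine Finset.sum_congr rfl (fun e _ => ?_)
      by_cases h3 : a = e
      · simp [h3]
      · by_cases h4 : b = e
        · simp [h4]
        · simp [h3, h4, h2 a b e a]
  have t6 : (∑ a, ∑ b, ∑ u, ∑ w, if a ≠ b ∧ w = b ∧ a ≠ u ∧ b ≠ u then c a b u w else 0) =
      ∑ a, ∑ b, ∑ e, if a ≠ b ∧ a ≠ e ∧ b ≠ e then c a b a e else 0 := by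
    rw [Finset.sum_comm]
    refine Finset.sum_congr rfl (fun a _ => Finset.sum_congr rfl (fun b _ => ?_))
    by_cases hab : a = b
    · simp [hab]
    · have hba : ¬ b = a := fun h => hab h.symm
      simp only [ne_eq, hab, hba, not_false_eq_true, true_and]
      rw [sum_second a (fun y => ¬ b = y ∧ ¬ a = y) (c b a)]
      refine Finset.sum_congr rfl (fun e _ => ?_)
      by_cases h3 : a = e
      · simp [h3]
      · by_cases h4 : b = e
        · simp [h4]
        · simp [h3, h4, h1 b a e a, h2 a b e a]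
  rw [t1, t2, t3, t4, t5, t6]
  ring

end Vale.Agent.P335
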