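import Mathlib

/-!
# P335 (switch chain): basic fibrewise averaging on a finite type

`dot f g` is the counting inner product on functions `Ω → ℝ`.
`avg κ f` averages `f` over the fibres of the label map `κ`,
`prj κ f = f - avg κ f` is the complementary orthogonal projection.
-/

namespace Vale.Agent.P335

open Finset

section Avg

variable {Ω : Type*} [Fintype Ω]

/-- Counting inner product. -/
def dot (f g : Ω → ℝ) : ℝ := ∑ x, f x * g x

open Classical in
/-- Average of `f` over the fibre of `κ` through `x`. -/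
noncomputable def avg {K : Type*} (κ : Ω → K) (f : Ω → ℝ) (x : Ω) : ℝ :=
  (∑ y ∈ univ.filter (fun y => κ y = κ x), f y) /
    ((univ.filter (fun y => κ y = κ x)).card : ℝ)

/-- Complementary projection `f - avg κ f`. -/
noncomputable def prj {K : Type*} (κ : Ω → K) (f : Ω → ℝ) (x : Ω) : ℝ :=
  f x - avg κ f x

lemma dot_comm (f g : Ω → ℝ) : dot f g = dot g f := by
  simp [dot, mul_comm]

lemma dot_add_left (f g h : Ω → ℝ) : dot (f + g) h = dot f h + dot g h := by
  simp [dot, add_mul, Finset.sum_add_distrib]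

lemma dot_add_right (f g h : Ω → ℝ) : dot f (g + h) = dot f g + dot f h := by
  simp [dot, mul_add, Finset.sum_add_distrib]

lemma dot_sub_left (f g h : Ω → ℝ) : dot (f - g) h = dot f h - dot g h := by
  simp [dot, sub_mul, Finset.sum_sub_distrib]

lemma dot_sub_right (f g h : Ω → ℝ) : dot f (g - h) = dot f g - dot f h := by
  simp [dot, mul_sub, Finset.sum_sub_distrib]

lemma dot_smul_left (c : ℝ) (f g : Ω → ℝ) : dot (c • f) g = c * dot f g := by
  simp [dot, Finset.mul_sum, mul_assoc]

lemma dot_smul_right (c : ℝ) (f g : Ω → ℝ) : dot f (c • g) = c * dot f g := by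
  simp only [dot, Finset.mul_sum, Pi.smul_apply, smul_eq_mul]
  exact Finset.sum_congr rfl (fun x _ => by ring)

lemma dot_self_nonneg (f : Ω → ℝ) : 0 ≤ dot f f :=
  Finset.sum_nonneg (fun x _ => mul_self_nonneg _)

lemma dot_self_eq_zero {f : Ω → ℝ} (h : dot f f = 0) (x : Ω) : f x = 0 := by
  have h1 := (Finset.sum_eq_zero_iff_of_nonneg (fun x _ => mul_self_nonneg (f x))).mp h x
    (Finset.mem_univ x)
  exact mul_self_eq_zero.mp h1

lemma avg_congr {K : Type*} (κ : Ω → K) (f : Ω → ℝ) {x y : Ω} (h : κ x = κ y) :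
    avg κ f x = avg κ f y := by
  classical
  simp only [avg, h]

/-- The fibre of `κ` through `x` has positive size. -/
lemma fibre_card_pos {K : Type*} [DecidableEq K] (κ : Ω → K) (x : Ω) :
    0 < ((univ.filter (fun y => κ y = κ x)).card : ℝ) := by
  have : 0 < (univ.filter (fun y => κ y = κ x)).card :=
    Finset.card_pos.mpr ⟨x, by simp⟩
  exact_mod_cast this

/-- `avg` is self-adjoint. -/
theorem dot_avg_left {K : Type*} (κ : Ω → K) (f g : Ω → ℝ) :
    dot (avg κ f) g = dot f (avg κ g) := by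
  classical
  simp only [dot, avg]
  have h1 : ∀ x, (∑ y ∈ univ.filter (fun y => κ y = κ x), f y) /
      ((univ.filter (fun y => κ y = κ x)).card : ℝ) * g x =
      ∑ y, if κ y = κ x then f y * g x / ((univ.filter (fun z => κ z = κ x)).card : ℝ) else 0 := by
    intro x
    rw [Finset.sum_filter, div_mul_eq_mul_div, Finset.sum_mul, Finset.sum_div]
    refine Finset.sum_congr rfl (fun y _ => ?_)
    split_ifs <;> simp
  have h2 : ∀ x, f x * ((∑ y ∈ univ.filter (fun y => κ y = κ x), g y) /
      ((univ.filter (fun y => κ y = κ x)).card : ℝ)) =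
      ∑ y, if κ y = κ x then f x * g y / ((univ.filter (fun z => κ z = κ x)).card : ℝ) else 0 := by
    intro x
    rw [Finset.sum_filter, mul_div_assoc', Finset.mul_sum, Finset.sum_div]
    refine Finset.sum_congr rfl (fun y _ => ?_)
    split_ifs <;> simp
  simp only [h1, h2]
  rw [Finset.sum_comm]
  refine Finset.sum_congr rfl (fun x _ => Finset.sum_congr rfl (fun y _ => ?_))
  by_cases h : κ x = κ y
  · simp only [h, if_true]
  · rw [if_neg (Ne.symm h), if_neg h]

theorem avg_avg {K : Type*} (κ : Ω → K) (f : Ω → ℝ) : avg κ (avg κ f) = avg κ f := by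
  classical
  funext x
  have h0 := fibre_card_pos κ x
  have h1 : (∑ y ∈ univ.filter (fun y => κ y = κ x), avg κ f y) =
      ((univ.filter (fun y => κ y = κ x)).card : ℝ) * avg κ f x := by
    rw [← nsmul_eq_mul, ← Finset.sum_const]
    refine Finset.sum_congr rfl (fun y hy => ?_)
    exact avg_congr κ f (Finset.mem_filter.mp hy).2
  conv_lhs => unfold avg
  rw [show (∑ y ∈ univ.filter (fun y => κ y = κ x), (fun x =>
      (∑ y ∈ univ.filter (fun y => κ y = κ x), f y) /
        ((univ.filter (fun y => κ y = κ x)).card : ℝ)) y) =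
      ∑ y ∈ univ.filter (fun y => κ y = κ x), avg κ f y from rfl]
  rw [h1]
  field_simp

lemma prj_eq {K : Type*} (κ : Ω → K) (f : Ω → ℝ) : prj κ f = f - avg κ f := rfl

/-- `prj` is an orthogonal projection. -/
theorem dot_prj_prj {K : Type*} (κ : Ω → K) (f g : Ω → ℝ) :
    dot (prj κ f) (prj κ g) = dot f (prj κ g) := by
  have h : dot (avg κ f) (prj κ g) = 0 := by
    rw [prj_eq, dot_sub_right, dot_avg_left κ f g, dot_avg_left κ f (avg κ g), avg_avg]
    ring
  rw [prj_eq κ f, dot_sub_left, h, sub_zero]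

/-- `prj` is self-adjoint. -/
theorem dot_prj_comm {K : Type*} (κ : Ω → K) (f g : Ω → ℝ) :
    dot (prj κ f) g = dot f (prj κ g) := by
  rw [prj_eq, prj_eq, dot_sub_left, dot_sub_right, dot_avg_left]

lemma avg_add {K : Type*} (κ : Ω → K) (f g : Ω → ℝ) : avg κ (f + g) = avg κ f + avg κ g := by
  classical
  funext x
  simp only [avg, Pi.add_apply, Finset.sum_add_distrib, add_div]

lemma avg_smul {K : Type*} (κ : Ω → K) (c : ℝ) (f : Ω → ℝ) : avg κ (c • f) = c • avg κ f := by
  classical
  funext x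
  simp only [avg, Pi.smul_apply, smul_eq_mul, ← Finset.mul_sum, mul_div_assoc]

lemma prj_add {K : Type*} (κ : Ω → K) (f g : Ω → ℝ) : prj κ (f + g) = prj κ f + prj κ g := by
  rw [prj_eq, prj_eq, prj_eq, avg_add]
  abel

lemma prj_smul {K : Type*} (κ : Ω → K) (c : ℝ) (f : Ω → ℝ) : prj κ (c • f) = c • prj κ f := by
  rw [prj_eq, prj_eq, avg_smul, smul_sub]

/-- If `prj κ f` has norm zero then `f` is constant on the fibres of `κ`. -/
theorem const_on_fibres_of_prj {K : Type*} (κ : Ω → K) (f : Ω → ℝ)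
    (h : dot (prj κ f) (prj κ f) = 0) (x y : Ω) (hxy : κ x = κ y) : f x = f y := by
  have h1 := dot_self_eq_zero h x
  have h2 := dot_self_eq_zero h y
  simp only [prj] at h1 h2
  have h3 := avg_congr κ f hxy
  linarith

/-- `∑_x (1 / |fib x|) ∑_{y ∈ fib x} φ y = ∑_y φ y`. -/
theorem sum_fibre_avg {K : Type*} (κ : Ω → K) (φ : Ω → ℝ) :
    (∑ x, avg κ φ x) = ∑ x, φ x := by
  classical
  have h := dot_avg_left κ φ (fun _ => 1)
  have h1 : avg κ (fun _ => (1 : ℝ)) = fun _ => 1 := by
    funext x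
    simp only [avg, Finset.sum_const, nsmul_eq_mul, mul_one]
    exact div_self (fibre_card_pos κ x).ne'
  rw [h1] at h
  simpa [dot] using h

/-- Restriction to the fibres of a coarser label `μ`: `avg κ` on `Ω` restricts to `avg κ` on the
fibre `{x // μ x = ℓ}`, when `κ` refines `μ`. -/
theorem avg_restrict {K L : Type*} (κ : Ω → K) (μ : Ω → L) (hμ : ∀ x y, κ x = κ y → μ x = μ y)
    (ℓ : L) [Fintype {x // μ x = ℓ}] (f : Ω → ℝ) (x : {x // μ x = ℓ}) :
    avg (fun y : {x // μ x = ℓ} => κ y.1) (fun y => f y.1) x = avg κ f x.1 := by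
  classical
  simp only [avg]
  have hx := x.2
  have hmap : (univ.filter (fun y : {x // μ x = ℓ} => κ y.1 = κ x.1)).map
      (Function.Embedding.subtype _) = univ.filter (fun y => κ y = κ x.1) := by
    ext y
    simp only [Finset.mem_map, Finset.mem_filter, Finset.mem_univ, true_and,
      Function.Embedding.coe_subtype, Subtype.exists, exists_and_right, exists_eq_right]
    constructor
    · rintro ⟨_, h⟩
      exact h
    · intro h
      exact ⟨(hμ _ _ h).trans hx, h⟩
  rw [← hmap, Finset.sum_map, Finset.card_map]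
  rfl

/-- A sum over `Ω` is the sum over the labels of the sums over the fibres. -/
theorem sum_by_label {L : Type*} [DecidableEq L] (μ : Ω → L)
    [∀ ℓ, Fintype {x // μ x = ℓ}] (φ : Ω → ℝ) :
    (∑ x, φ x) = ∑ ℓ ∈ univ.image μ, ∑ y : {x // μ x = ℓ}, φ y.1 := by
  classical
  rw [← Finset.sum_fiberwise_of_maps_to (s := univ) (t := univ.image μ) (g := μ)
    (fun x _ => Finset.mem_image_of_mem μ (Finset.mem_univ x)) φ]
  refine Finset.sum_congr rfl (fun ℓ _ => ?_)
  have hmap : (univ : Finset {x // μ x = ℓ}).map (Function.Embedding.subtype _) =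
      univ.filter (fun x => μ x = ℓ) := by
    ext y
    simp
  rw [← hmap, Finset.sum_map]
  rfl

/-- A real eigenbasis of a symmetric operator, with Parseval. -/
theorem exists_eigen (T : (Ω → ℝ) →ₗ[ℝ] (Ω → ℝ)) (hsym : ∀ f g, dot (T f) g = dot f (T g)) :
    ∃ (m : ℕ) (e : Fin m → Ω → ℝ) (lam : Fin m → ℝ),
      (∀ i, T (e i) = lam i • e i) ∧ (∀ i, e i ≠ 0) ∧
        ∀ f g, dot f g = ∑ i, dot f (e i) * dot (e i) g := by
  classical
  let φ := WithLp.linearEquiv 2 ℝ (Ω → ℝ)
  let T' : EuclideanSpace ℝ Ω →ₗ[ℝ] EuclideanSpace ℝ Ω :=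
    φ.symm.toLinearMap ∘ₗ T ∘ₗ φ.toLinearMap
  have hin : ∀ x y : EuclideanSpace ℝ Ω, inner ℝ x y = dot (φ x) (φ y) := by
    intro x y
    simp [PiLp.inner_apply, dot, φ, mul_comm]
  have hT' : T'.IsSymmetric := by
    intro x y
    rw [hin, hin]
    simp only [T', LinearMap.comp_apply, LinearEquiv.coe_coe, LinearEquiv.apply_symm_apply]
    exact hsym _ _
  refine ⟨_, fun i => φ (hT'.eigenvectorBasis rfl i), fun i => hT'.eigenvalues rfl i, ?_, ?_, ?_⟩
  · intro i
    have h := hT'.apply_eigenvectorBasis rfl i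
    have h2 : T (φ (hT'.eigenvectorBasis rfl i)) = φ (T' (hT'.eigenvectorBasis rfl i)) := by
      simp only [T', LinearMap.comp_apply, LinearEquiv.coe_coe, LinearEquiv.apply_symm_apply]
    rw [h2, h]
    simp
  · intro i h0
    have h1 := (hT'.eigenvectorBasis rfl).orthonormal.ne_zero i
    exact h1 (φ.map_eq_zero_iff.mp h0)
  · intro f g
    have h := (hT'.eigenvectorBasis rfl).sum_inner_mul_inner (φ.symm f) (φ.symm g)
    rw [hin] at h
    simp only [LinearEquiv.apply_symm_apply] at h
    rw [← h]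
    refine Finset.sum_congr rfl (fun i _ => ?_)
    rw [hin, hin]
    simp

/-- Spectral consequence of `T² ≥ θ T`. -/
theorem gap_of_square (T : (Ω → ℝ) →ₗ[ℝ] (Ω → ℝ))
    (hsym : ∀ f g, dot (T f) g = dot f (T g)) (hpsd : ∀ f, 0 ≤ dot f (T f))
    {θ : ℝ} (hθ : 0 < θ) (hsq : ∀ f, θ * dot f (T f) ≤ dot (T f) (T f))
    (hker : ∀ f, T f = 0 → ∀ x y, f x = f y) (f : Ω → ℝ) (hf : ∑ x, f x = 0) :
    θ * dot f f ≤ dot f (T f) := by
  obtain ⟨m, e, lam, he, hne, hP⟩ := exists_eigen T hsym
  have hadj : ∀ g i, dot (e i) (T g) = lam i * dot (e i) g := by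
    intro g i
    rw [← hsym, he, dot_smul_left]
  have hself : ∀ i, 0 < dot (e i) (e i) := by
    intro i
    refine lt_of_le_of_ne (dot_self_nonneg _) (fun h => hne i ?_)
    funext x
    exact dot_self_eq_zero h.symm x
  rw [hP f f, hP f (T f), Finset.mul_sum]
  refine Finset.sum_le_sum (fun i _ => ?_)
  rw [hadj]
  by_cases hl : lam i = 0
  · have h0 : T (e i) = 0 := by
      rw [he, hl, zero_smul]
    have hc := hker _ h0
    have hd : dot f (e i) = 0 := by
      by_cases hΩ : Nonempty Ω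
      · obtain ⟨x₀⟩ := hΩ
        have : ∀ x, f x * e i x = f x * e i x₀ := fun x => by rw [hc x x₀]
        simp only [dot, this, ← Finset.sum_mul, hf, zero_mul]
      · have : IsEmpty Ω := not_nonempty_iff.mp hΩ
        simp [dot]
    rw [hd, dot_comm (e i) f, hd]
    simp
  · have hp : 0 ≤ lam i := by
      have h1 := hpsd (e i)
      rw [he, dot_smul_right] at h1
      have h2 := hself i
      by_contra hneg
      push Not at hneg
      nlinarith
    have hp' : 0 < lam i := lt_of_le_of_ne hp (Ne.symm hl)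
    have hθl : θ ≤ lam i := by
      have h1 := hsq (e i)
      rw [he, dot_smul_right, dot_smul_left, dot_smul_right] at h1
      have h2 := hself i
      have h3 : 0 ≤ lam i * dot (e i) (e i) * (lam i - θ) := by nlinarith
      by_contra hneg
      push Not at hneg
      have h4 : 0 < lam i * dot (e i) (e i) := mul_pos hp' h2
      nlinarith
    rw [dot_comm (e i) f]
    nlinarith [mul_self_nonneg (dot f (e i))]

/-- If every eigenvalue `μ` of the symmetric `T` has `(μ - a)(μ - b) ≥ 0`, then `(T - a)(T - b) ≥ 0`. -/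
theorem eigen_window (T : (Ω → ℝ) →ₗ[ℝ] (Ω → ℝ))
    (hsym : ∀ f g, dot (T f) g = dot f (T g)) (a b : ℝ)
    (h : ∀ (f : Ω → ℝ) (μ : ℝ), f ≠ 0 → T f = μ • f → 0 ≤ (μ - a) * (μ - b)) (f : Ω → ℝ) :
    0 ≤ dot (T f - a • f) (T f - b • f) := by
  obtain ⟨m, e, lam, he, hne, hP⟩ := exists_eigen T hsym
  rw [hP]
  refine Finset.sum_nonneg (fun i _ => ?_)
  have h1 : dot (T f - a • f) (e i) = (lam i - a) * dot f (e i) := by
    rw [dot_sub_left, hsym, he, dot_smul_right, dot_smul_left]
    ring
  have h2 : dot (e i) (T f - b • f) = (lam i - b) * dot f (e i) := by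
    rw [dot_comm, dot_sub_left, hsym, he, dot_smul_right, dot_smul_left]
    ring
  rw [h1, h2]
  have h3 := h _ _ (hne i) (he i)
  nlinarith [mul_nonneg h3 (mul_self_nonneg (dot f (e i)))]

end Avg

end Vale.Agent.P335
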