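import Vale.Agent.P335.GraphCore

/-!
# P335: the switch graph is connected

Classical (Petersen, Taylor).  Induct on the set `F` of vertices already treated: `G, H` agree on
all cells meeting `F`.  Take `v ∉ F`, if `N_G(v) ≠ N_H(v)` take `x ∈ N_G(v) \ N_H(v)`, `y ∈ N_H(v) \ N_G(v)`
(both `∉ F`).  Degrees of `x, y` inside `V \ F` agree in `G, H`.  If `deg y ≥ deg x`, there is `z ∉ F`,
`z ≠ v, x, y`, with `zy ∈ G`, `zx ∉ G` (count neighbours, using `vx ∈ G`, `vy ∉ G`): apply the switch
`remove vx, zy; insert vy, zx` to `G`.  Otherwise the symmetric move on `H`.  Each such move decreases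
`|N_G(v) Δ N_H(v)|` and keeps the agreement on `F`.  When `N_G(v) = N_H(v)` add `v` to `F`.
-/

namespace Vale.Agent.P335

open Finset

variable {n : ℕ} {d : Fin n → ℕ}

/-- The neighbours of `v` in the edge set `E`. -/
def nbrC (E : Finset (Sym2 (Fin n))) (v : Fin n) : Finset (Fin n) :=
  univ.filter (fun c => s(v, c) ∈ E)

lemma mem_nbrC {E : Finset (Sym2 (Fin n))} {v c : Fin n} : c ∈ nbrC E v ↔ s(v, c) ∈ E := by
  simp [nbrC]

lemma card_nbrC (G : Realizations d) (v : Fin n) : (nbrC G.1 v).card = d v := by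
  rw [← G.2.2 v]
  unfold edgeDegree
  have : G.1.filter (fun e => v ∈ e) = (nbrC G.1 v).image (fun c => s(v, c)) := by
    ext e
    simp only [mem_filter, mem_image, mem_nbrC]
    constructor
    · rintro ⟨he, c, rfl⟩
      exact ⟨c, he, rfl⟩
    · rintro ⟨c, hc, rfl⟩
      exact ⟨hc, by simp⟩
  rw [this, card_image_of_injective]
  intro a b h
  exact Sym2.congr_right.mp h

/-- `G` and `H` agree on all cells meeting `F`. -/
def AgreeOn (F : Finset (Fin n)) (G H : Realizations d) : Prop :=
  ∀ t ∈ F, ∀ c, s(t, c) ∈ G.1 ↔ s(t, c) ∈ H.1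

lemma AgreeOn.symm {F : Finset (Fin n)} {G H : Realizations d} (h : AgreeOn F G H) :
    AgreeOn F H G := fun t ht c => (h t ht c).symm

lemma conn_rest_eq {F : Finset (Fin n)} {G H : Realizations d} (h : AgreeOn F G H) (x : Fin n) :
    (nbrC G.1 x \ F).card = (nbrC H.1 x \ F).card := by
  have e1 := card_inter_add_card_sdiff (nbrC G.1 x) F
  have e2 := card_inter_add_card_sdiff (nbrC H.1 x) F
  have e3 : nbrC G.1 x ∩ F = nbrC H.1 x ∩ F := by
    ext c
    simp only [mem_inter, mem_nbrC]
    constructor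
    · rintro ⟨h1, h2⟩
      refine ⟨?_, h2⟩
      have := (h c h2 x).mp (by rwa [Sym2.eq_swap])
      rwa [Sym2.eq_swap]
    · rintro ⟨h1, h2⟩
      refine ⟨?_, h2⟩
      have := (h c h2 x).mpr (by rwa [Sym2.eq_swap])
      rwa [Sym2.eq_swap]
  rw [card_nbrC] at e1 e2
  rw [e3] at e1
  omega

lemma conn_no_loop (G : Realizations d) (c : Fin n) : s(c, c) ∉ G.1 := by
  intro hc
  have := G.2.1 _ hc
  simp at this

theorem conn_exists_z (G : Realizations d) (F : Finset (Fin n)) {v x y : Fin n}
    (hv : v ∉ F) (hx : x ∉ F) (hy : y ∉ F)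
    (hvy' : v ≠ y) (hvx : s(v, x) ∈ G.1) (hvy : s(v, y) ∉ G.1)
    (hle : (nbrC G.1 x \ F).card ≤ (nbrC G.1 y \ F).card) :
    ∃ z, z ∉ F ∧ z ≠ v ∧ z ≠ x ∧ z ≠ y ∧ s(z, y) ∈ G.1 ∧ s(z, x) ∉ G.1 := by
  by_contra hcon
  push Not at hcon
  have hvB : v ∈ nbrC G.1 x \ F := by
    rw [mem_sdiff, mem_nbrC, Sym2.eq_swap]
    exact ⟨hvx, hv⟩
  have key : ∀ z ∈ nbrC G.1 y \ F, z ≠ x → z ∈ nbrC G.1 x \ F ∧ z ≠ v ∧ z ≠ y := by
    intro z hz hzx
    rw [mem_sdiff, mem_nbrC] at hz
    have hzy : z ≠ y := by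
      rintro rfl
      exact conn_no_loop G _ hz.1
    have hzv : z ≠ v := by
      rintro rfl
      exact hvy (by rw [Sym2.eq_swap]; exact hz.1)
    have h1 : s(z, y) ∈ G.1 := by rw [Sym2.eq_swap]; exact hz.1
    have h2 := hcon z hz.2 hzv hzx hzy h1
    refine ⟨?_, hzv, hzy⟩
    rw [mem_sdiff, mem_nbrC, Sym2.eq_swap]
    exact ⟨h2, hz.2⟩
  by_cases hxA : x ∈ nbrC G.1 y \ F
  · have hyB : y ∈ nbrC G.1 x \ F := by
      rw [mem_sdiff, mem_nbrC] at hxA ⊢
      rw [Sym2.eq_swap]
      exact ⟨hxA.1, hy⟩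
    have hsub : (nbrC G.1 y \ F).erase x ⊆ ((nbrC G.1 x \ F).erase v).erase y := by
      intro z hz
      rw [mem_erase] at hz
      obtain ⟨h1, h2, h3⟩ := key z hz.2 hz.1
      exact mem_erase.mpr ⟨h3, mem_erase.mpr ⟨h2, h1⟩⟩
    have c0 := card_le_card hsub
    have c1 := card_erase_add_one hxA
    have c2 := card_erase_add_one hvB
    have c3 := card_erase_add_one (mem_erase.mpr ⟨hvy'.symm, hyB⟩ :
      y ∈ (nbrC G.1 x \ F).erase v)
    omega
  · have hsub : nbrC G.1 y \ F ⊆ (nbrC G.1 x \ F).erase v := by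
      intro z hz
      have hzx : z ≠ x := by
        rintro rfl
        exact hxA hz
      obtain ⟨h1, h2, _⟩ := key z hz hzx
      exact mem_erase.mpr ⟨h2, h1⟩
    have c0 := card_le_card hsub
    have c2 := card_erase_add_one hvB
    omega

lemma conn_mem_swE {a b u w : Fin n} {E : Finset (Sym2 (Fin n))} {e : Sym2 (Fin n)} :
    e ∈ swE a b u w E ↔ e = s(a, w) ∨ e = s(b, u) ∨ (e ≠ s(b, w) ∧ e ≠ s(a, u) ∧ e ∈ E) := by
  simp [swE]

lemma conn_sym2_ne {t c a b : Fin n} (h1 : t ≠ a) (h2 : t ≠ b) : s(t, c) ≠ s(a, b) := by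
  intro h
  rcases Sym2.eq_iff.mp h with ⟨h, _⟩ | ⟨h, _⟩
  · exact h1 h
  · exact h2 h

theorem conn_switch_step (f : Realizations d → ℝ)
    (hf : ∀ a b u w (G : Realizations d), f (swOm a b u w G) = f G)
    (F : Finset (Fin n)) (G H : Realizations d) (hag : AgreeOn F G H) {v x y : Fin n}
    (hv : v ∉ F) (hxG : s(v, x) ∈ G.1) (hxH : s(v, x) ∉ H.1)
    (hyG : s(v, y) ∉ G.1) (hyH : s(v, y) ∈ H.1)
    (hle : (nbrC G.1 x \ F).card ≤ (nbrC G.1 y \ F).card) :
    ∃ G' : Realizations d, f G' = f G ∧ AgreeOn F G' H ∧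
      (nbrC G'.1 v \ nbrC H.1 v).card + 1 = (nbrC G.1 v \ nbrC H.1 v).card := by
  have hxF : x ∉ F := by
    intro hx
    have := hag x hx v
    rw [Sym2.eq_swap] at this
    exact hxH (this.mp hxG)
  have hyF : y ∉ F := by
    intro hy
    have := hag y hy v
    rw [Sym2.eq_swap] at this
    exact hyG (this.mpr hyH)
  have hxy : x ≠ y := by
    rintro rfl
    exact hyG hxG
  have hvx : v ≠ x := by
    rintro rfl
    exact conn_no_loop G _ hxG
  have hvy : v ≠ y := by
    rintro rfl
    exact conn_no_loop H _ hyH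
  obtain ⟨z, hzF, hzv, hzx, hzy, hz1, hz2⟩ := conn_exists_z G F hv hxF hyF hvy hxG hyG hle
  have hSW : SW v z x y G.1 := by
    refine ⟨hzv.symm, hvx, hvy, hzx, hzy, hxy, hxG, hz1, hyG, hz2⟩
  have hG' : (swOm v z x y G).1 = swE v z x y G.1 := by
    unfold swOm
    rw [dif_pos hSW]
  refine ⟨swOm v z x y G, hf _ _ _ _ _, ?_, ?_⟩
  · intro t ht c
    rw [hG', conn_mem_swE, ← hag t ht c]
    have h1 : t ≠ v := fun h => hv (h ▸ ht)
    have h2 : t ≠ z := fun h => hzF (h ▸ ht)
    have h3 : t ≠ x := fun h => hxF (h ▸ ht)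
    have h4 : t ≠ y := fun h => hyF (h ▸ ht)
    have n1 := conn_sym2_ne (c := c) h1 h4
    have n2 := conn_sym2_ne (c := c) h2 h3
    have n3 := conn_sym2_ne (c := c) h2 h4
    have n4 := conn_sym2_ne (c := c) h1 h3
    constructor
    · rintro (h | h | ⟨_, _, h⟩)
      · exact absurd h n1
      · exact absurd h n2
      · exact h
    · intro h
      exact Or.inr (Or.inr ⟨n3, n4, h⟩)
  · have hmem : x ∈ nbrC G.1 v \ nbrC H.1 v := by
      rw [mem_sdiff, mem_nbrC, mem_nbrC]
      exact ⟨hxG, hxH⟩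
    have heq : nbrC (swOm v z x y G).1 v \ nbrC H.1 v = (nbrC G.1 v \ nbrC H.1 v).erase x := by
      ext c
      simp only [mem_sdiff, mem_erase, mem_nbrC, hG', conn_mem_swE]
      have n2 := conn_sym2_ne (c := c) hzv.symm hvx
      have n3 := conn_sym2_ne (c := c) hzv.symm hvy
      constructor
      · rintro ⟨h | h | ⟨_, h0, h⟩, h'⟩
        · have hcy : c = y := Sym2.congr_right.mp h
          subst hcy
          exact absurd hyH h'
        · exact absurd h n2
        · have hcx : c ≠ x := by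
            rintro rfl
            exact h0 rfl
          exact ⟨hcx, h, h'⟩
      · rintro ⟨hcx, h, h'⟩
        refine ⟨Or.inr (Or.inr ⟨n3, ?_, h⟩), h'⟩
        intro h0
        exact hcx (Sym2.congr_right.mp h0)
    rw [heq]
    exact card_erase_add_one hmem

theorem const_of_invariant (f : Realizations d → ℝ)
    (h : ∀ a b u w (G : Realizations d), f (swOm a b u w G) = f G) (G H : Realizations d) :
    f G = f H := by
  classical
  have outer : ∀ (k : ℕ) (F : Finset (Fin n)), Fᶜ.card = k → ∀ G H : Realizations d,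
      AgreeOn F G H → f G = f H := by
    intro k
    induction k with
    | zero =>
      intro F hF G H hag
      have hF' : ∀ t, t ∈ F := by
        intro t
        have : Fᶜ = ∅ := card_eq_zero.mp hF
        by_contra ht
        have : t ∈ Fᶜ := mem_compl.mpr ht
        simp_all
      have : G = H := by
        apply Subtype.ext
        ext e
        induction e using Sym2.ind with
        | _ a b => exact hag a (hF' a) b
      rw [this]
    | succ k ih =>
      intro F hF
      obtain ⟨v, hv⟩ : (Fᶜ).Nonempty := card_pos.mp (by omega)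
      have hv' : v ∉ F := mem_compl.mp hv
      have inner : ∀ (m : ℕ) (G H : Realizations d), AgreeOn F G H →
          (nbrC G.1 v \ nbrC H.1 v).card = m → f G = f H := by
        intro m
        induction m with
        | zero =>
          intro G H hag hm
          have hsub : nbrC G.1 v ⊆ nbrC H.1 v := sdiff_eq_empty_iff_subset.mp (card_eq_zero.mp hm)
          have heq : nbrC G.1 v = nbrC H.1 v :=
            eq_of_subset_of_card_le hsub (by rw [card_nbrC, card_nbrC])
          refine ih (insert v F) ?_ G H ?_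
          · have h1 : (insert v F)ᶜ = Fᶜ.erase v := by
              ext c
              simp
            rw [h1]
            have := card_erase_add_one hv
            omega
          · intro t ht c
            rcases mem_insert.mp ht with rfl | ht
            · have := Finset.ext_iff.mp heq c
              simpa only [mem_nbrC] using this
            · exact hag t ht c
        | succ m ihm =>
          intro G H hag hm
          obtain ⟨x, hx⟩ : (nbrC G.1 v \ nbrC H.1 v).Nonempty := card_pos.mp (by omega)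
          have hcomm : (nbrC G.1 v \ nbrC H.1 v).card = (nbrC H.1 v \ nbrC G.1 v).card :=
            card_sdiff_comm (by rw [card_nbrC, card_nbrC])
          obtain ⟨y, hy⟩ : (nbrC H.1 v \ nbrC G.1 v).Nonempty := card_pos.mp (by omega)
          rw [mem_sdiff, mem_nbrC, mem_nbrC] at hx hy
          by_cases hle : (nbrC G.1 x \ F).card ≤ (nbrC G.1 y \ F).card
          · obtain ⟨G', h1, h2, h3⟩ := conn_switch_step f h F G H hag hv' hx.1 hx.2 hy.2 hy.1 hle
            rw [← h1]
            exact ihm G' H h2 (by omega)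
          · have hle' : (nbrC H.1 y \ F).card ≤ (nbrC H.1 x \ F).card := by
              rw [← conn_rest_eq hag, ← conn_rest_eq hag]
              omega
            obtain ⟨H', h1, h2, h3⟩ :=
              conn_switch_step f h F H G hag.symm hv' hy.1 hy.2 hx.2 hx.1 hle'
            rw [← h1]
            refine ihm G H' h2.symm ?_
            have hcomm' : (nbrC G.1 v \ nbrC H'.1 v).card = (nbrC H'.1 v \ nbrC G.1 v).card :=
              card_sdiff_comm (by rw [card_nbrC, card_nbrC])
            omega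
      intro G H hag
      exact inner _ G H hag rfl
  exact outer _ ∅ rfl G H (by intro t ht; simp at ht)

end Vale.Agent.P335
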