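import Mathlib

/-!
# P335: the switch chain on simple graphs with a given degree vector

A labeled simple graph on `Fin n` is represented by its edge set, a finset of
non-diagonal elements of `Sym2 (Fin n)`.
-/

namespace Vale.Agent.P335

open Finset

variable {n : ℕ}

/-- The degree of `v` in the edge set `E`: the number of edges containing `v`. -/
def edgeDegree (E : Finset (Sym2 (Fin n))) (v : Fin n) : ℕ :=
  (E.filter (fun e => v ∈ e)).card

/-- `E` is the edge set of a simple graph with degree vector `d`. -/
def IsRealization (d : Fin n → ℕ) (E : Finset (Sym2 (Fin n))) : Prop :=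
  (∀ e ∈ E, ¬ e.IsDiag) ∧ ∀ v, edgeDegree E v = d v

/-- The set `Ω_d` of labeled simple graphs with degree vector `d`. -/
abbrev Realizations (d : Fin n → ℕ) : Type :=
  {E : Finset (Sym2 (Fin n)) // IsRealization d E}

open Classical in
/-- `Ω_d` is finite. -/
noncomputable instance realizationsFintype (d : Fin n → ℕ) : Fintype (Realizations d) :=
  Subtype.fintype _

/-- `d` is graphical. -/
def Graphical (d : Fin n → ℕ) : Prop := Nonempty (Realizations d)

/-- `F` is a perfect matching of the complete graph on `S`. -/
def IsPerfectMatchingOn (S : Finset (Fin n)) (F : Finset (Sym2 (Fin n))) : Prop :=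
  (∀ e ∈ F, ¬ e.IsDiag ∧ ∀ v ∈ e, v ∈ S) ∧ ∀ v ∈ S, ∃! e, e ∈ F ∧ v ∈ e

open Classical in
/-- The random choices of a switch step: a `4`-element set `S` and an ordered pair `(F, F')`
of distinct perfect matchings of the complete graph on `S`. -/
noncomputable def switchChoices (n : ℕ) :
    Finset (Finset (Fin n) × Finset (Sym2 (Fin n)) × Finset (Sym2 (Fin n))) :=
  univ.filter (fun t => t.1.card = 4 ∧ IsPerfectMatchingOn t.1 t.2.1 ∧
    IsPerfectMatchingOn t.1 t.2.2 ∧ t.2.1 ≠ t.2.2)

/-- If both edges of `F` are present and both edges of `F'` absent, replace `F` by `F'`;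
otherwise stay put. -/
def switchStep (F F' E : Finset (Sym2 (Fin n))) : Finset (Sym2 (Fin n)) :=
  if F ⊆ E ∧ Disjoint F' E then (E \ F) ∪ F' else E

open Classical in
/-- The transition kernel `P_d` of the switch chain: with probability `1/2` stay put; otherwise
choose `S` uniformly among the `4`-element sets, then one of the six ordered pairs `(F, F')`
uniformly, and apply the step. -/
noncomputable def switchKernel (d : Fin n → ℕ) : Matrix (Realizations d) (Realizations d) ℝ :=
  Matrix.of fun G H =>
    (if G = H then (1 / 2 : ℝ) else 0) +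
      (1 / 2) * (1 / (n.choose 4 : ℝ)) * (1 / 6) *
        (((switchChoices n).filter (fun t => switchStep t.2.1 t.2.2 G.1 = H.1)).card : ℝ)

/-- Total variation distance of two distributions on `Ω_d`. -/
noncomputable def tvDistance {d : Fin n → ℕ} (μ ν : Realizations d → ℝ) : ℝ :=
  (1 / 2) * ∑ G, |μ G - ν G|

/-- The uniform distribution `π_d` on `Ω_d`. -/
noncomputable def uniformDist (d : Fin n → ℕ) (_G : Realizations d) : ℝ :=
  1 / (Fintype.card (Realizations d) : ℝ)

/-- The worst-case distance to stationarity after `t` steps is at most `1/4`. -/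
def MixedAt (d : Fin n → ℕ) (t : ℕ) : Prop :=
  ∀ G : Realizations d, tvDistance (((switchKernel d) ^ t) G) (uniformDist d) ≤ 1 / 4

/-- The mixing time `t_mix(d)`: the least `t` with worst-case distance at most `1/4`. -/
noncomputable def mixingTime (d : Fin n → ℕ) : ℕ := sInf {t | MixedAt d t}

end Vale.Agent.P335
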