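import Mathlib

/-!
# P335: two exact estimates on the Johnson scheme

`D` is a finset with `N` elements, `J = D.powersetCard a`.  Write
`exch T u w = insert w (T.erase u)`.

## `johnson_gap` : spectral gap `N`, i.e. `2 N ∑ g² ≤ ∑_T ∑_{u∈T} ∑_{w∈D\T} (g(exch T u w) - g T)²`
for `∑ g = 0`.

Proof (induction on the layer, no eigenvalues needed).  For `g` on layer `k` put
`(Dn g)(T') = ∑_{x ∈ D \ T'} g (insert x T')` (on layer `k-1`),
`(Up h)(T) = ∑_{y ∈ T} h (T.erase y)` (on layer `k+1` for `h` on layer `k`),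
`⟪g, Ex g⟫ = ∑_T ∑_{u∈T} ∑_{w∈D\T} g T * g (exch T u w)`.
Double counting gives
* `‖Dn g‖² = k ‖g‖² + ⟪g, Ex g⟫` for `g` on layer `k`, `‖Up h‖² = (N-k) ‖h‖² + ⟪h, Ex h⟫`
  for `h` on layer `k`, so `‖Up h‖² = ‖Dn h‖² + (N-2k) ‖h‖²`;
* `⟪Up h, g⟫ = ⟪h, Dn g⟫`;
* `Dn` preserves mean zero.
Claim `S(k)`: `‖Dn g‖² ≤ (k-1)(N-k) ‖g‖²` for mean-zero `g` on layer `k` (for `k ≥ 1`; on layer
`0` or when the layer has one element `g = 0`).  `k = 1`: `Dn g = ∑ g = 0`.  Step: with
`h = Dn g` on layer `k-1`: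
`‖Up h‖² = ‖Dn h‖² + (N-2k+2) ‖h‖² ≤ ((k-2)(N-k+1) + N-2k+2) ‖h‖² = (k-1)(N-k) ‖h‖²` and
`‖h‖² = ⟪g, Up h⟫ ≤ ‖g‖ ‖Up h‖`, whence `‖h‖² ≤ (k-1)(N-k) ‖g‖²`.
Finally the Dirichlet sum is `2 a (N-a) ‖g‖² - 2 ⟪g, Ex g⟫`  (exchange involution) and
`⟪g, Ex g⟫ = ‖Dn g‖² - a ‖g‖² ≤ ((a-1)(N-a) - a) ‖g‖²`, so it is at least `2 N ‖g‖²`.

## `johnson_pair` (the proof below uses the layer estimate instead of the four-point count sketched
here: for `2 a ≤ N`, with `G S = ∑_{T ⊇ S} g T`, one has `∑_{x≠y} c² = (2N-8a+4) ‖G‖₁² + 8 ‖G‖₂²`, and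
the bound `‖Dn‖² ≤ k (N-k-1)` along the layers bounds `‖G‖₁²`, `‖G‖₂²`; the case `2 a > N` is reduced to it
by taking complements): with `c x y = ∑_{T separates x,y} g T` and `δ` the number of `T` that
separate `x ≠ y`: `∑_{x≠y} (c x y)² / δ ≤ N ‖g‖²` for `∑ g = 0`.

Proof.  `δ = 2 n₂` with `n₂ = C(N-2, a-1)`, it does not depend on the pair (when `δ = 0` all terms
vanish).  Let `C₂ = ∑_{x≠y} (c x y)²`, `s x = ∑_{y≠x} c x y`, `F T = ∑_{x∈T} ∑_{y∈D\T} c x y`.
* `∑_{x≠y} c x y = 0` since each `T` separates exactly `2 a (N-a)` ordered pairs, so `∑ s x = 0`.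
* `C₂ = 2 ∑_T g T * F T`, so `C₂² ≤ 4 ‖g‖² ∑_T (F T)²`.
* Expanding `(F T)²` and counting `T` with prescribed membership on up to `4` points
  (`#{T : I ⊆ T, T ∩ I' = ∅} = C(N-|I|-|I'|, a-|I|)`):
  `∑_T (F T)² = n₂ C₂ + n₂ (∑ (s x)² - C₂) + n₄ Z`, where `n₄ = C(N-4, a-2)`,
  `Z = ∑_{x,y,z,w distinct} c x y * c z w = 2 C₂ - 4 ∑ (s x)²` (because `(∑ c)² = 0`; use the
  Pascal rule `C(N-3,a-1) + C(N-3,a-2) = C(N-2,a-1)`).
  Thus `∑_T (F T)² = 2 n₄ C₂ + (n₂ - 4 n₄) ∑ (s x)²`.
* `∑ (s x)² ≤ (N-2) C₂ / 2`: `∑ (s x)² = (1/2) ∑_{x≠y} c x y (s x + s y)`,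
  Cauchy-Schwarz and `∑_{x≠y} (s x + s y)² = 2 (N-2) ∑ (s x)²`.
* `2 n₄ ≤ n₂` by Pascal.  Hence (both signs of `n₂ - 4 n₄`) `∑_T (F T)² ≤ (N/2) n₂ C₂`.
* So `C₂² ≤ 4 ‖g‖² (N/2) n₂ C₂`, i.e. `C₂ ≤ 2 N n₂ ‖g‖² = N δ ‖g‖²`.
-/

namespace Vale.Agent.P335

open Finset

variable {α : Type*} [DecidableEq α] (D : Finset α) (a : ℕ)

/-- Exchange: remove `u`, insert `w`. -/
def exch (T : Finset α) (u w : α) : Finset α := insert w (T.erase u)

/-- The Johnson Dirichlet sum (each unordered edge counted twice). -/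
noncomputable def jDir (g : Finset α → ℝ) : ℝ :=
  ∑ T ∈ D.powersetCard a, ∑ u ∈ T, ∑ w ∈ D \ T, (g (exch T u w) - g T) ^ 2

/-- The `a`-subsets of `D` that separate `x` and `y`. -/
def sepSet (x y : α) : Finset (Finset α) :=
  (D.powersetCard a).filter (fun T => (x ∈ T ∧ y ∉ T) ∨ (y ∈ T ∧ x ∉ T))

/-! ### Up and down operators -/

/-- Down operator: `(jDn g) S = ∑_{x ∉ S} g (S + x)`. -/
noncomputable def jDn (g : Finset α → ℝ) (S : Finset α) : ℝ := ∑ x ∈ D \ S, g (insert x S)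

/-- Up operator: `(jUp h) T = ∑_{y ∈ T} h (T - y)`. -/
noncomputable def jUp (h : Finset α → ℝ) (T : Finset α) : ℝ := ∑ y ∈ T, h (T.erase y)

/-- The basic double counting between layers `k+1` and `k`. -/
lemma sum_up_down (k : ℕ) (F : Finset α → α → ℝ) :
    ∑ T ∈ D.powersetCard (k + 1), ∑ y ∈ T, F (T.erase y) y =
      ∑ S ∈ D.powersetCard k, ∑ x ∈ D \ S, F S x := by
  rw [Finset.sum_sigma', Finset.sum_sigma']
  refine Finset.sum_bij' (fun p _ => ⟨p.1.erase p.2, p.2⟩) (fun p _ => ⟨insert p.2 p.1, p.2⟩)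
    ?_ ?_ ?_ ?_ ?_
  · rintro ⟨T, y⟩ h
    simp only [mem_sigma, mem_powersetCard] at h ⊢
    obtain ⟨⟨hT, hc⟩, hy⟩ := h
    refine ⟨⟨(erase_subset _ _).trans hT, ?_⟩, ?_⟩
    · rw [card_erase_of_mem hy, hc]; rfl
    · simp [hT hy]
  · rintro ⟨S, x⟩ h
    simp only [mem_sigma, mem_powersetCard, mem_sdiff] at h ⊢
    obtain ⟨⟨hS, hc⟩, hx, hxS⟩ := h
    refine ⟨⟨insert_subset hx hS, ?_⟩, mem_insert_self _ _⟩
    rw [card_insert_of_notMem hxS, hc]
  · rintro ⟨T, y⟩ h
    simp only [mem_sigma, mem_powersetCard] at h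
    simp [insert_erase h.2]
  · rintro ⟨S, x⟩ h
    simp only [mem_sigma, mem_powersetCard, mem_sdiff] at h
    simp [erase_insert h.2.2]
  · rintro ⟨T, y⟩ _
    rfl

/-- Adjointness of up and down. -/
lemma adjoint (k : ℕ) (g h : Finset α → ℝ) :
    ∑ T ∈ D.powersetCard (k + 1), g T * jUp h T = ∑ S ∈ D.powersetCard k, h S * jDn D g S := by
  have := sum_up_down D k (fun S x => h S * g (insert x S))
  simp only [jUp, jDn, mul_sum]
  rw [← this]
  refine sum_congr rfl fun T _ => sum_congr rfl fun y hy => ?_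
  rw [insert_erase hy, mul_comm]

/-- The sum over layer `k` of `jDn g` in terms of the sum of `g` over layer `k+1`. -/
lemma sum_jDn (k : ℕ) (g : Finset α → ℝ) :
    ∑ S ∈ D.powersetCard k, jDn D g S = (k + 1) * ∑ T ∈ D.powersetCard (k + 1), g T := by
  have := sum_up_down D k (fun S x => g (insert x S))
  simp only [jDn]
  rw [← this, mul_sum]
  refine sum_congr rfl fun T hT => ?_
  have hc : T.card = k + 1 := (mem_powersetCard.mp hT).2
  rw [sum_congr rfl (fun y hy => by rw [insert_erase hy]), sum_const, hc, nsmul_eq_mul]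
  push_cast
  ring

/-- `Up ∘ Dn`, pointwise. -/
lemma up_dn (k : ℕ) (g : Finset α → ℝ) {T : Finset α} (hT : T ∈ D.powersetCard (k + 1)) :
    jUp (jDn D g) T = (k + 1) * g T + ∑ u ∈ T, ∑ w ∈ D \ T, g (exch T u w) := by
  obtain ⟨hTD, hc⟩ := mem_powersetCard.mp hT
  have key : ∀ y ∈ T, jDn D g (T.erase y) = g T + ∑ w ∈ D \ T, g (exch T y w) := by
    intro y hy
    have hins : D \ T.erase y = insert y (D \ T) := by
      ext z
      simp only [mem_sdiff, mem_erase, mem_insert]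
      constructor
      · rintro ⟨hz, h⟩
        by_cases hzy : z = y
        · exact Or.inl hzy
        · exact Or.inr ⟨hz, fun hzT => h ⟨hzy, hzT⟩⟩
      · rintro (rfl | ⟨hz, h⟩)
        · exact ⟨hTD hy, fun h => h.1 rfl⟩
        · exact ⟨hz, fun h' => h h'.2⟩
    have hy' : y ∉ D \ T := fun h => (mem_sdiff.mp h).2 hy
    rw [jDn, hins, sum_insert hy', insert_erase hy]
    rfl
  rw [jUp, sum_congr rfl key, sum_add_distrib, sum_const, hc, nsmul_eq_mul]
  push_cast
  ring

/-- `Dn ∘ Up`, pointwise. -/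
lemma dn_up (k : ℕ) (h : Finset α → ℝ) {S : Finset α} (hS : S ∈ D.powersetCard k) :
    jDn D (jUp h) S = ((D.card : ℝ) - k) * h S + ∑ u ∈ S, ∑ w ∈ D \ S, h (exch S u w) := by
  obtain ⟨hSD, hc⟩ := mem_powersetCard.mp hS
  have key : ∀ x ∈ D \ S, jUp h (insert x S) = h S + ∑ u ∈ S, h (exch S u x) := by
    intro x hx
    have hxS : x ∉ S := (mem_sdiff.mp hx).2
    rw [jUp, sum_insert hxS, erase_insert hxS]
    congr 1
    refine sum_congr rfl fun u hu => ?_
    have hne : x ≠ u := fun e => hxS (e ▸ hu)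
    rw [exch, erase_insert_of_ne hne]
  rw [jDn, sum_congr rfl key, sum_add_distrib, sum_const, sum_comm, card_sdiff_of_subset hSD, hc,
    nsmul_eq_mul]
  congr 1
  rw [Nat.cast_sub]
  rw [← hc]
  exact card_le_card hSD

/-- Norm squared on a layer. -/
noncomputable def nrm (k : ℕ) (g : Finset α → ℝ) : ℝ := ∑ T ∈ D.powersetCard k, g T ^ 2

lemma nrm_nonneg (k : ℕ) (g : Finset α → ℝ) : 0 ≤ nrm D k g :=
  sum_nonneg fun _ _ => sq_nonneg _

/-- `‖Dn g‖² = k ‖g‖² + ⟪g, Ex g⟫`. -/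
lemma nrm_jDn (k : ℕ) (g : Finset α → ℝ) :
    nrm D k (jDn D g) =
      (k + 1) * nrm D (k + 1) g +
        ∑ T ∈ D.powersetCard (k + 1), g T * ∑ u ∈ T, ∑ w ∈ D \ T, g (exch T u w) := by
  have h1 := adjoint D k g (jDn D g)
  have h2 : ∑ S ∈ D.powersetCard k, jDn D g S * jDn D g S = nrm D k (jDn D g) :=
    sum_congr rfl fun S _ => (sq _).symm
  rw [← h2, ← h1, nrm, mul_sum, ← sum_add_distrib]
  refine sum_congr rfl fun T hT => ?_
  rw [up_dn D k g hT]
  ring

/-- `‖Up h‖² = (N-k) ‖h‖² + ⟪h, Ex h⟫`. -/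
lemma nrm_jUp (k : ℕ) (h : Finset α → ℝ) :
    nrm D (k + 1) (jUp h) =
      ((D.card : ℝ) - k) * nrm D k h +
        ∑ S ∈ D.powersetCard k, h S * ∑ u ∈ S, ∑ w ∈ D \ S, h (exch S u w) := by
  have h1 := adjoint D k (jUp h) h
  have h2 : ∑ T ∈ D.powersetCard (k + 1), jUp h T * jUp h T = nrm D (k + 1) (jUp h) :=
    sum_congr rfl fun T _ => (sq _).symm
  rw [← h2, h1, nrm, mul_sum, ← sum_add_distrib]
  refine sum_congr rfl fun S hS => ?_
  rw [dn_up D k h hS]
  ring

/-- The key estimate `S(k+1)`: `‖Dn g‖² ≤ k (N - k - 1) ‖g‖²` for mean-zero `g` on layer `k+1`. -/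
lemma dn_bound (k : ℕ) (g : Finset α → ℝ) (hg : ∑ T ∈ D.powersetCard (k + 1), g T = 0) :
    nrm D k (jDn D g) ≤ (k : ℝ) * ((D.card : ℝ) - k - 1) * nrm D (k + 1) g := by
  induction k generalizing g with
  | zero =>
    have h0 := sum_jDn D 0 g
    rw [hg, mul_zero] at h0
    simp only [powersetCard_zero, sum_singleton] at h0
    simp [nrm, h0]
  | succ k ih =>
    set h := jDn D g with hh
    -- `h` has mean zero
    have hmean : ∑ T ∈ D.powersetCard (k + 1), h T = 0 := by
      have := sum_jDn D (k + 1) g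
      rw [hg, mul_zero] at this
      exact this
    have hb := ih h hmean
    -- commutation
    have hup : nrm D (k + 1 + 1) (jUp h) ≤
        ((k : ℝ) + 1) * ((D.card : ℝ) - k - 2) * nrm D (k + 1) h := by
      rw [nrm_jUp]
      have h2 := nrm_jDn D k h
      push_cast
      have : ∑ S ∈ D.powersetCard (k + 1), h S * ∑ u ∈ S, ∑ w ∈ D \ S, h (exch S u w) =
          nrm D k (jDn D h) - (k + 1) * nrm D (k + 1) h := by rw [h2]; ring
      rw [this]
      nlinarith [hb]
    -- Cauchy-Schwarz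
    have hcs : nrm D (k + 1) h ^ 2 ≤ nrm D (k + 1 + 1) g * nrm D (k + 1 + 1) (jUp h) := by
      have h1 := adjoint D (k + 1) g h
      have h2 : ∑ S ∈ D.powersetCard (k + 1), h S * jDn D g S = nrm D (k + 1) h := by
        rw [nrm]
        exact sum_congr rfl fun S _ => (sq (h S)).symm
      rw [h2] at h1
      rw [← h1]
      exact sum_mul_sq_le_sq_mul_sq _ _ _
    push_cast
    by_cases hN : k + 1 + 1 ≤ D.card
    · have hcoef : (0 : ℝ) ≤ ((k : ℝ) + 1) * ((D.card : ℝ) - k - 2) := by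
        have : ((k : ℝ) + 2) ≤ D.card := by exact_mod_cast hN
        apply mul_nonneg <;> linarith [Nat.cast_nonneg (α := ℝ) k]
      have hh0 := nrm_nonneg D (k + 1) h
      have hg0 := nrm_nonneg D (k + 1 + 1) g
      rcases eq_or_lt_of_le hh0 with h00 | hpos
      · rw [← h00]
        have : (0 : ℝ) ≤ ((k : ℝ) + 1) * ((D.card : ℝ) - ((k : ℝ) + 1) - 1) := by nlinarith
        exact mul_nonneg this hg0
      · have h3 : nrm D (k + 1) h ^ 2 ≤
            nrm D (k + 1 + 1) g * (((k : ℝ) + 1) * ((D.card : ℝ) - k - 2) * nrm D (k + 1) h) :=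
          hcs.trans (mul_le_mul_of_nonneg_left hup hg0)
        have h4 : nrm D (k + 1) h * nrm D (k + 1) h ≤
            (((k : ℝ) + 1) * ((D.card : ℝ) - ((k : ℝ) + 1) - 1) * nrm D (k + 1 + 1) g) *
              nrm D (k + 1) h := by
          nlinarith [h3]
        exact le_of_mul_le_mul_right h4 hpos
    · -- the layer `k+2` is empty
      have hemp : D.powersetCard (k + 1 + 1) = ∅ := powersetCard_eq_empty.mpr (by omega)
      have hg0 : nrm D (k + 1 + 1) g = 0 := by simp [nrm, hemp]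
      rw [hg0, mul_zero]
      have hup0 : nrm D (k + 1 + 1) (jUp h) = 0 := by simp [nrm, hemp]
      rw [hg0, zero_mul] at hcs
      nlinarith [hcs, sq_nonneg (nrm D (k + 1) h)]

/-- Spectral gap of the Johnson scheme, in Dirichlet form. -/
theorem johnson_gap (g : Finset α → ℝ) (hg : ∑ T ∈ D.powersetCard a, g T = 0) :
    2 * (D.card : ℝ) * ∑ T ∈ D.powersetCard a, g T ^ 2 ≤ jDir D a g := by
  cases a with
  | zero =>
    simp only [powersetCard_zero, sum_singleton] at hg
    simp [jDir, hg]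
  | succ k =>
    by_cases hN : k + 1 ≤ D.card
    · have hb := dn_bound D k g hg
      have hN' : ((k : ℝ) + 1) ≤ D.card := by exact_mod_cast hN
      -- the exchange sum of `g ^ 2`
      have hex : ∑ T ∈ D.powersetCard (k + 1), ∑ u ∈ T, ∑ w ∈ D \ T, g (exch T u w) ^ 2 =
          ((k : ℝ) + 1) * ((D.card : ℝ) - k - 1) * nrm D (k + 1) g := by
        have h1 := adjoint D k (fun _ => (1 : ℝ)) (jDn D (fun T => g T ^ 2))
        simp only [one_mul] at h1
        have h2 : ∑ T ∈ D.powersetCard (k + 1), ∑ u ∈ T, ∑ w ∈ D \ T, g (exch T u w) ^ 2 =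
            ∑ T ∈ D.powersetCard (k + 1), (jUp (jDn D (fun T => g T ^ 2)) T - (k + 1) * g T ^ 2) := by
          refine sum_congr rfl fun T hT => ?_
          rw [up_dn D k (fun T => g T ^ 2) hT]
          ring
        rw [h2, sum_sub_distrib, h1, ← mul_sum]
        have h3 : ∀ S ∈ D.powersetCard k, jDn D (fun T => g T ^ 2) S * jDn D (fun _ => (1 : ℝ)) S =
            jDn D (fun T => g T ^ 2) S * ((D.card : ℝ) - k) := by
          intro S hS
          obtain ⟨hSD, hc⟩ := mem_powersetCard.mp hS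
          have : jDn D (fun _ => (1 : ℝ)) S = (D.card : ℝ) - k := by
            simp only [jDn, sum_const, nsmul_eq_mul, mul_one]
            rw [card_sdiff_of_subset hSD, hc, Nat.cast_sub]
            rw [← hc]; exact card_le_card hSD
          rw [this]
        rw [sum_congr rfl h3, ← sum_mul, sum_jDn]
        simp only [nrm]
        ring
      have hexp : jDir D (k + 1) g =
          2 * (((k : ℝ) + 1) * ((D.card : ℝ) - k - 1)) * nrm D (k + 1) g
            - 2 * (nrm D k (jDn D g) - (k + 1) * nrm D (k + 1) g) := by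
        have h2 := nrm_jDn D k g
        have h3 : ∑ T ∈ D.powersetCard (k + 1), ∑ u ∈ T, ∑ w ∈ D \ T, g T ^ 2 =
            ((k : ℝ) + 1) * ((D.card : ℝ) - k - 1) * nrm D (k + 1) g := by
          rw [nrm, mul_sum]
          refine sum_congr rfl fun T hT => ?_
          obtain ⟨hTD, hc⟩ := mem_powersetCard.mp hT
          rw [sum_const, sum_const, hc, card_sdiff_of_subset hTD, hc, nsmul_eq_mul, nsmul_eq_mul,
            Nat.cast_sub hN]
          push_cast
          ring
        have h4 : jDir D (k + 1) g =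
            ∑ T ∈ D.powersetCard (k + 1), ∑ u ∈ T, ∑ w ∈ D \ T, g (exch T u w) ^ 2
              - 2 * ∑ T ∈ D.powersetCard (k + 1), g T * ∑ u ∈ T, ∑ w ∈ D \ T, g (exch T u w)
              + ∑ T ∈ D.powersetCard (k + 1), ∑ u ∈ T, ∑ w ∈ D \ T, g T ^ 2 := by
          simp only [jDir, mul_sum, ← sum_sub_distrib, ← sum_add_distrib]
          refine sum_congr rfl fun T _ => sum_congr rfl fun u _ => sum_congr rfl fun w _ => ?_
          ring
        rw [h4, hex, h3]
        rw [h2]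
        ring
      rw [hexp]
      have hz := nrm_nonneg D (k + 1) g
      change 2 * (D.card : ℝ) * nrm D (k + 1) g ≤ _
      push_cast at hb ⊢
      nlinarith [hb]
    · have hemp : D.powersetCard (k + 1) = ∅ := powersetCard_eq_empty.mpr (by omega)
      simp [jDir, hemp]

/-! ### The sums of `g` over the stars -/

/-- The sum of `g` over the `a`-sets containing `S`. -/
noncomputable def gSum (g : Finset α → ℝ) (S : Finset α) : ℝ :=
  ∑ T ∈ D.powersetCard a, if S ⊆ T then g T else 0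

lemma jDn_gSum (g : Finset α → ℝ) {k : ℕ} {S : Finset α} (hS : S ∈ D.powersetCard k) :
    jDn D (gSum D a g) S = ((a : ℝ) - k) * gSum D a g S := by
  obtain ⟨hSD, hc⟩ := mem_powersetCard.mp hS
  simp only [jDn, gSum]
  rw [sum_comm, mul_sum]
  refine sum_congr rfl fun T hT => ?_
  obtain ⟨hTD, hcT⟩ := mem_powersetCard.mp hT
  by_cases hST : S ⊆ T
  · have h1 : ∀ x ∈ D \ S, (if insert x S ⊆ T then g T else 0) = if x ∈ T then g T else 0 := by
      intro x _
      simp only [insert_subset_iff, hST, and_true]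
    rw [sum_congr rfl h1, if_pos hST, sum_ite, sum_const_zero, add_zero, sum_const, nsmul_eq_mul]
    have h2 : (D \ S).filter (fun x => x ∈ T) = T \ S := by
      ext z
      simp only [mem_filter, mem_sdiff]
      constructor
      · rintro ⟨⟨_, h⟩, hz⟩; exact ⟨hz, h⟩
      · rintro ⟨hz, h⟩; exact ⟨⟨hTD hz, h⟩, hz⟩
    rw [h2, card_sdiff_of_subset hST, hcT, hc, Nat.cast_sub]
    rw [← hc, ← hcT]; exact card_le_card hST
  · have h1 : ∀ x ∈ D \ S, (if insert x S ⊆ T then g T else 0) = 0 := by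
      intro x _
      rw [if_neg]
      intro h
      exact hST ((subset_insert _ _).trans h)
    rw [sum_congr rfl h1, if_neg hST, sum_const_zero, mul_zero]

lemma gSum_top (g : Finset α → ℝ) {S : Finset α} (hS : S ∈ D.powersetCard a) :
    gSum D a g S = g S := by
  rw [gSum, sum_eq_single S]
  · simp
  · intro T hT hne
    rw [if_neg]
    intro h
    apply hne
    have := (mem_powersetCard.mp hS).2
    exact (eq_of_subset_of_card_le h (by rw [this, (mem_powersetCard.mp hT).2])).symm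
  · intro h
    exact absurd hS h

lemma mean_gSum (g : Finset α → ℝ) (hg : ∑ T ∈ D.powersetCard a, g T = 0) (e k : ℕ)
    (he : k + e = a) : ∑ S ∈ D.powersetCard k, gSum D a g S = 0 := by
  induction e generalizing k with
  | zero =>
    have : k = a := by omega
    subst this
    rw [sum_congr rfl (fun S hS => gSum_top D k g hS), hg]
  | succ e ih =>
    have h1 := ih (k + 1) (by omega)
    have h2 := sum_jDn D k (gSum D a g)
    rw [h1, mul_zero] at h2
    have h3 : ∑ S ∈ D.powersetCard k, jDn D (gSum D a g) S =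
        ((a : ℝ) - k) * ∑ S ∈ D.powersetCard k, gSum D a g S := by
      rw [mul_sum]
      exact sum_congr rfl fun S hS => jDn_gSum D a g hS
    rw [h3] at h2
    have h4 : (a : ℝ) - k = (e : ℝ) + 1 := by
      rw [← he]; push_cast; ring
    rw [h4] at h2
    have h5 : (e : ℝ) + 1 ≠ 0 := by positivity
    exact (mul_eq_zero.mp h2).resolve_left h5

/-- The chain of norm bounds along the layers. -/
lemma nrm_gSum_chain (g : Finset α → ℝ) (hg : ∑ T ∈ D.powersetCard a, g T = 0)
    (ha : a ≤ D.card) (e j : ℕ) (he : j + 1 + e = a) :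
    nrm D (j + 1) (gSum D a g) ≤
      (((a - 1).choose j * (D.card - j - 2).choose e : ℕ) : ℝ) * nrm D a g := by
  induction e generalizing j with
  | zero =>
    have : j + 1 = a := by omega
    subst this
    have h1 : nrm D (j + 1) (gSum D (j + 1) g) = nrm D (j + 1) g :=
      sum_congr rfl fun S hS => by rw [gSum_top D (j + 1) g hS]
    rw [h1]
    simp
  | succ e ih =>
    have h1 := ih (j + 1) (by omega)
    have hmean := mean_gSum D a g hg (e + 1) (j + 1) (by omega)
    have hb := dn_bound D (j + 1) (gSum D a g) (mean_gSum D a g hg e (j + 1 + 1) (by omega))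
    have h3 : nrm D (j + 1) (jDn D (gSum D a g)) =
        ((e : ℝ) + 1) ^ 2 * nrm D (j + 1) (gSum D a g) := by
      rw [nrm, nrm, mul_sum]
      refine sum_congr rfl fun S hS => ?_
      rw [jDn_gSum D a g hS]
      have h4 : (a : ℝ) - ((j + 1 : ℕ) : ℝ) = (e : ℝ) + 1 := by
        rw [← he]; push_cast; ring
      rw [h4]; ring
    rw [h3] at hb
    obtain ⟨m, hm⟩ : ∃ m, D.card = a + m := ⟨D.card - a, by omega⟩
    -- the binomial identity
    have hbin : ((j + 1 : ℕ) : ℝ) * ((D.card : ℝ) - ((j + 1 : ℕ) : ℝ) - 1) *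
        (((a - 1).choose (j + 1) * (D.card - (j + 1) - 2).choose e : ℕ) : ℝ) =
        ((e : ℝ) + 1) ^ 2 *
          (((a - 1).choose j * (D.card - j - 2).choose (e + 1) : ℕ) : ℝ) := by
      have hA : (a - 1).choose (j + 1) * (j + 1) = (a - 1).choose j * (e + 1) := by
        have := Nat.choose_succ_right_eq (a - 1) j
        rw [this]
        congr 1
        omega
      have hB : (D.card - j - 2) * (D.card - (j + 1) - 2).choose e =
          (D.card - j - 2).choose (e + 1) * (e + 1) := by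
        have h0 : D.card - j - 2 = e + m + 1 - 1 + 0 := by omega
        by_cases hz : e + m = 0
        · have he0 : e = 0 := by omega
          have hm0 : m = 0 := by omega
          subst he0; subst hm0
          have : D.card - j - 2 = 0 := by omega
          rw [this]
          simp
        · obtain ⟨z, hz'⟩ : ∃ z, D.card - j - 2 = z + 1 := ⟨D.card - j - 2 - 1, by omega⟩
          have h5 : D.card - (j + 1) - 2 = z := by omega
          rw [hz', h5]
          exact Nat.add_one_mul_choose_eq z e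
      have hcast : (D.card : ℝ) - ((j + 1 : ℕ) : ℝ) - 1 = ((D.card - j - 2 : ℕ) : ℝ) := by
        rw [Nat.cast_sub (by omega), Nat.cast_sub (by omega)]
        push_cast; ring
      rw [hcast]
      have hA' : (((a - 1).choose (j + 1) : ℕ) : ℝ) * ((j + 1 : ℕ) : ℝ) =
          (((a - 1).choose j : ℕ) : ℝ) * ((e : ℝ) + 1) := by exact_mod_cast hA
      have hB' : ((D.card - j - 2 : ℕ) : ℝ) * (((D.card - (j + 1) - 2).choose e : ℕ) : ℝ) =
          (((D.card - j - 2).choose (e + 1) : ℕ) : ℝ) * ((e : ℝ) + 1) := by exact_mod_cast hB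
      push_cast
      push_cast at hA' hB'
      calc _ = ((((a - 1).choose (j + 1) : ℕ) : ℝ) * ((j : ℝ) + 1)) *
            (((D.card - j - 2 : ℕ) : ℝ) * (((D.card - (j + 1) - 2).choose e : ℕ) : ℝ)) := by
              push_cast; ring
        _ = _ := by rw [hA', hB']; ring
    have hz := nrm_nonneg D a g
    have hpos : (0 : ℝ) < ((e : ℝ) + 1) ^ 2 := by positivity
    have h6 : ((e : ℝ) + 1) ^ 2 * nrm D (j + 1) (gSum D a g) ≤
        ((e : ℝ) + 1) ^ 2 *
          ((((a - 1).choose j * (D.card - j - 2).choose (e + 1) : ℕ) : ℝ) * nrm D a g) := by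
      calc _ ≤ ((j + 1 : ℕ) : ℝ) * ((D.card : ℝ) - ((j + 1 : ℕ) : ℝ) - 1) *
              nrm D (j + 1 + 1) (gSum D a g) := hb
        _ ≤ ((j + 1 : ℕ) : ℝ) * ((D.card : ℝ) - ((j + 1 : ℕ) : ℝ) - 1) *
              ((((a - 1).choose (j + 1) * (D.card - (j + 1) - 2).choose e : ℕ) : ℝ) *
                nrm D a g) := by
            apply mul_le_mul_of_nonneg_left h1
            have : ((j + 1 : ℕ) : ℝ) + 1 ≤ D.card := by
              exact_mod_cast (by omega : j + 1 + 1 ≤ D.card)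
            apply mul_nonneg (by positivity)
            linarith
        _ = _ := by rw [← mul_assoc, hbin]; ring
    exact le_of_mul_le_mul_left h6 hpos

/-! ### The separation sets -/

lemma sep_sum (g : Finset α → ℝ) {x y : α} (_hxy : x ≠ y) :
    ∑ T ∈ sepSet D a x y, g T =
      gSum D a g {x} + gSum D a g {y} - 2 * gSum D a g (insert y {x}) := by
  simp only [sepSet, gSum, sum_filter]
  rw [mul_sum, ← sum_add_distrib, ← sum_sub_distrib]
  refine sum_congr rfl fun T _ => ?_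
  by_cases hx : x ∈ T <;> by_cases hy : y ∈ T <;> simp [hx, hy, insert_subset_iff] <;> ring

lemma card_half {x y : α} (hx : x ∈ D) (hy : y ∈ D) (hxy : x ≠ y) (ha : 1 ≤ a) :
    ((D.powersetCard a).filter (fun T => x ∈ T ∧ y ∉ T)).card = (D.card - 2).choose (a - 1) := by
  have hc : ((D.erase x).erase y).card = D.card - 2 := by
    rw [card_erase_of_mem (mem_erase.mpr ⟨hxy.symm, hy⟩), card_erase_of_mem hx]
    omega
  rw [← hc, ← card_powersetCard]
  refine card_nbij' (fun T => T.erase x) (fun S => insert x S) ?_ ?_ ?_ ?_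
  · intro T hT
    simp only [coe_filter, mem_powersetCard] at hT
    simp only [mem_coe, mem_powersetCard]
    obtain ⟨⟨hTD, hcT⟩, hxT, hyT⟩ := hT
    refine ⟨?_, ?_⟩
    · intro z hz
      obtain ⟨hzx, hzT⟩ := mem_erase.mp hz
      exact mem_erase.mpr ⟨fun e => hyT (e ▸ hzT), mem_erase.mpr ⟨hzx, hTD hzT⟩⟩
    · rw [card_erase_of_mem hxT, hcT]
  · intro S hS
    simp only [mem_coe, mem_powersetCard] at hS
    simp only [coe_filter, mem_powersetCard]
    obtain ⟨hSD, hcS⟩ := hS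
    have hxS : x ∉ S := fun h => by
      have := hSD h
      simp at this
    have hyS : y ∉ S := fun h => by
      have := hSD h
      simp at this
    refine ⟨⟨?_, ?_⟩, mem_insert_self _ _, ?_⟩
    · intro z hz
      rcases mem_insert.mp hz with rfl | hz
      · exact hx
      · exact mem_of_mem_erase (mem_of_mem_erase (hSD hz))
    · rw [card_insert_of_notMem hxS, hcS]; omega
    · intro h
      rcases mem_insert.mp h with h | h
      · exact hxy h.symm
      · exact hyS h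
  · intro T hT
    simp only [coe_filter, mem_powersetCard] at hT
    simp only [insert_erase hT.2.1]
  · intro S hS
    simp only [mem_coe, mem_powersetCard] at hS
    have hxS : x ∉ S := fun h => by
      have := hS.1 h
      simp at this
    simp only [erase_insert hxS]

lemma card_sep {x y : α} (hx : x ∈ D) (hy : y ∈ D) (hxy : x ≠ y) (ha : 1 ≤ a) :
    (sepSet D a x y).card = 2 * (D.card - 2).choose (a - 1) := by
  have h1 : sepSet D a x y = (D.powersetCard a).filter (fun T => x ∈ T ∧ y ∉ T) ∪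
      (D.powersetCard a).filter (fun T => y ∈ T ∧ x ∉ T) := by
    rw [sepSet, filter_or]
  have hd : Disjoint ((D.powersetCard a).filter (fun T => x ∈ T ∧ y ∉ T))
      ((D.powersetCard a).filter (fun T => y ∈ T ∧ x ∉ T)) := by
    rw [disjoint_left]
    intro T h1 h2
    exact (mem_filter.mp h2).2.2 (mem_filter.mp h1).2.1
  rw [h1, card_union_of_disjoint hd, card_half D a hx hy hxy ha, card_half D a hy hx hxy.symm ha]
  ring

/-- The sum over the ordered pairs expressed through the two lowest layers. -/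
lemma pair_expand (g : Finset α → ℝ) (hg : ∑ T ∈ D.powersetCard a, g T = 0) (ha : 1 ≤ a) :
    ∑ x ∈ D, ∑ y ∈ D.erase x,
        (gSum D a g {x} + gSum D a g {y} - 2 * gSum D a g (insert y {x})) ^ 2 =
      (2 * (D.card : ℝ) - 8 * a + 4) * nrm D 1 (gSum D a g) + 8 * nrm D 2 (gSum D a g) := by
  set G := gSum D a g with hG
  have hX : nrm D 1 G = ∑ x ∈ D, G {x} ^ 2 := by
    simp [nrm, powersetCard_one]
  have hb0 : ∑ x ∈ D, G {x} = 0 := by
    have := mean_gSum D a g hg (a - 1) 1 (by omega)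
    simpa [powersetCard_one] using this
  have hY : ∑ x ∈ D, ∑ y ∈ D.erase x, G (insert y {x}) ^ 2 = 2 * nrm D 2 G := by
    have h1 := sum_up_down D 1 (fun S x => G (insert x S) ^ 2)
    rw [powersetCard_one, sum_map] at h1
    simp only [Function.Embedding.coeFn_mk, sdiff_singleton_eq_erase] at h1
    rw [← h1, nrm, mul_sum]
    refine sum_congr rfl fun T hT => ?_
    have hc : T.card = 2 := (mem_powersetCard.mp hT).2
    rw [sum_congr rfl (fun y hy => by rw [insert_erase hy]), sum_const, hc, nsmul_eq_mul]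
    norm_num
  have hP : ∀ x ∈ D, ∑ y ∈ D.erase x, G (insert y {x}) = ((a : ℝ) - 1) * G {x} := by
    intro x hx
    have h1 := jDn_gSum D a g (k := 1) (S := {x}) (by simp [mem_powersetCard, hx])
    simp only [jDn, sdiff_singleton_eq_erase] at h1
    simpa using h1
  have hcomm : ∀ φ : α → α → ℝ,
      ∑ x ∈ D, ∑ y ∈ D.erase x, φ x y = ∑ y ∈ D, ∑ x ∈ D.erase y, φ x y := by
    intro φ
    apply sum_comm'
    intro x y
    simp only [mem_erase]
    constructor
    · rintro ⟨hx, hne, hy⟩; exact ⟨⟨hne.symm, hx⟩, hy⟩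
    · rintro ⟨⟨hne, hx⟩, hy⟩; exact ⟨hx, hne.symm, hy⟩
  have hpsym : ∀ x y : α, G (insert y {x}) = G (insert x {y}) := by
    intro x y
    rw [show (insert y {x} : Finset α) = insert x {y} from pair_comm y x]
  set X := nrm D 1 G with hXdef
  have T1 : ∑ x ∈ D, ∑ y ∈ D.erase x, G {x} ^ 2 = ((D.card : ℝ) - 1) * X := by
    rw [hX, mul_sum]
    refine sum_congr rfl fun x hx => ?_
    rw [sum_const, card_erase_of_mem hx, nsmul_eq_mul, Nat.cast_sub (card_pos.mpr ⟨x, hx⟩)]
    simp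
  have T2 : ∑ x ∈ D, ∑ y ∈ D.erase x, G {y} ^ 2 = ((D.card : ℝ) - 1) * X := by
    rw [hcomm (fun _ y => G {y} ^ 2)]
    exact T1
  have T3 : ∑ x ∈ D, ∑ y ∈ D.erase x, G {x} * G {y} = - X := by
    rw [hX, ← sum_neg_distrib]
    refine sum_congr rfl fun x hx => ?_
    rw [← mul_sum, sum_erase_eq_sub hx, hb0]
    ring
  have T4 : ∑ x ∈ D, ∑ y ∈ D.erase x, G {x} * G (insert y {x}) = ((a : ℝ) - 1) * X := by
    rw [hX, mul_sum]
    refine sum_congr rfl fun x hx => ?_
    rw [← mul_sum, hP x hx]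
    ring
  have T5 : ∑ x ∈ D, ∑ y ∈ D.erase x, G {y} * G (insert y {x}) = ((a : ℝ) - 1) * X := by
    rw [hcomm (fun x y => G {y} * G (insert y {x}))]
    rw [← T4]
    refine sum_congr rfl fun x _ => sum_congr rfl fun y _ => ?_
    rw [hpsym]
  have hexp : ∀ x y : α, (G {x} + G {y} - 2 * G (insert y {x})) ^ 2 =
      G {x} ^ 2 + G {y} ^ 2 + 2 * (G {x} * G {y}) - 4 * (G {x} * G (insert y {x}))
        - 4 * (G {y} * G (insert y {x})) + 4 * G (insert y {x}) ^ 2 := by
    intro x y; ring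
  have hsum : ∑ x ∈ D, ∑ y ∈ D.erase x, (G {x} + G {y} - 2 * G (insert y {x})) ^ 2 =
      ∑ x ∈ D, ∑ y ∈ D.erase x, G {x} ^ 2 + ∑ x ∈ D, ∑ y ∈ D.erase x, G {y} ^ 2
        + 2 * ∑ x ∈ D, ∑ y ∈ D.erase x, G {x} * G {y}
        - 4 * ∑ x ∈ D, ∑ y ∈ D.erase x, G {x} * G (insert y {x})
        - 4 * ∑ x ∈ D, ∑ y ∈ D.erase x, G {y} * G (insert y {x})
        + 4 * ∑ x ∈ D, ∑ y ∈ D.erase x, G (insert y {x}) ^ 2 := by
    simp only [hexp, sum_add_distrib, sum_sub_distrib, mul_sum]
  rw [hsum, T1, T2, T3, T4, T5, hY]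
  ring

/-- The main estimate for `1 ≤ a`, `2 a ≤ N`. -/
lemma pair_small (g : Finset α → ℝ) (hg : ∑ T ∈ D.powersetCard a, g T = 0) (ha : 1 ≤ a)
    (haN : 2 * a ≤ D.card) :
    ∑ x ∈ D, ∑ y ∈ D.erase x,
        (gSum D a g {x} + gSum D a g {y} - 2 * gSum D a g (insert y {x})) ^ 2 ≤
      2 * (D.card : ℝ) * ((D.card - 2).choose (a - 1) : ℕ) * nrm D a g := by
  rw [pair_expand D a g hg ha]
  set z := nrm D a g with hz
  have hz0 : 0 ≤ z := nrm_nonneg D a g
  set X := nrm D 1 (gSum D a g) with hX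
  set Y := nrm D 2 (gSum D a g) with hY
  have hX0 : 0 ≤ X := nrm_nonneg D 1 _
  have hY0 : 0 ≤ Y := nrm_nonneg D 2 _
  have hN : (a : ℝ) * 2 ≤ D.card := by
    have : ((2 * a : ℕ) : ℝ) ≤ D.card := by exact_mod_cast haN
    push_cast at this; linarith
  set n₂ : ℝ := (((D.card - 2).choose (a - 1) : ℕ) : ℝ) with hn₂
  have hn₂0 : 0 ≤ n₂ := Nat.cast_nonneg _
  have hXb : X ≤ n₂ * z := by
    have := nrm_gSum_chain D a g hg (by omega) (a - 1) 0 (by omega)
    simpa [hn₂] using this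
  have ha1 : (1 : ℝ) ≤ a := by exact_mod_cast ha
  rcases Nat.lt_or_ge a 2 with h2 | h2
  · -- `a = 1`
    have ha' : a = 1 := by omega
    have hY' : Y = 0 := by
      have hG : ∀ S ∈ D.powersetCard 2, gSum D a g S = 0 := by
        intro S hS
        rw [gSum]
        refine sum_eq_zero fun T hT => ?_
        rw [if_neg]
        intro h
        have h3 := card_le_card h
        rw [(mem_powersetCard.mp hS).2, (mem_powersetCard.mp hT).2] at h3
        omega
      rw [hY, nrm]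
      exact sum_eq_zero fun S hS => by rw [hG S hS]; simp
    rw [hY', ha']
    push_cast
    have h4 : (0 : ℝ) ≤ 2 * (D.card : ℝ) - 4 := by
      have : ((2 * a : ℕ) : ℝ) ≤ D.card := by exact_mod_cast haN
      rw [ha'] at this
      push_cast at this; linarith
    have hXb' : (2 * (D.card : ℝ) - 4) * X ≤ (2 * (D.card : ℝ) - 4) * (n₂ * z) :=
      mul_le_mul_of_nonneg_left hXb h4
    nlinarith [mul_nonneg hn₂0 hz0]
  · -- `a ≥ 2`
    have hYb : Y ≤ ((a : ℝ) - 1) * (((D.card - 3).choose (a - 2) : ℕ) : ℝ) * z := by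
      have := nrm_gSum_chain D a g hg (by omega) (a - 2) 1 (by omega)
      have h5 : (a - 1).choose 1 = a - 1 := by simp
      rw [h5] at this
      have h6 : D.card - 1 - 2 = D.card - 3 := by omega
      rw [h6] at this
      push_cast at this
      rw [Nat.cast_sub (by omega)] at this
      simpa using this
    set c₃ : ℝ := (((D.card - 3).choose (a - 2) : ℕ) : ℝ) with hc₃
    have hc₃0 : 0 ≤ c₃ := Nat.cast_nonneg _
    -- `(N-2) c₃ = n₂ (a-1)`
    have hrel : ((D.card : ℝ) - 2) * c₃ = n₂ * ((a : ℝ) - 1) := by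
      have h7 := Nat.add_one_mul_choose_eq (D.card - 3) (a - 2)
      have h8 : D.card - 3 + 1 = D.card - 2 := by omega
      have h9 : a - 2 + 1 = a - 1 := by omega
      rw [h8, h9] at h7
      have h10 : ((D.card - 2 : ℕ) : ℝ) * c₃ = n₂ * ((a - 1 : ℕ) : ℝ) := by
        rw [hc₃, hn₂]; exact_mod_cast h7
      rw [Nat.cast_sub (by omega), Nat.cast_sub (by omega)] at h10
      simpa using h10
    -- `c₃ ≤ n₂`
    have hle : c₃ ≤ n₂ := by
      have h7 : (D.card - 3).choose (a - 2) ≤ (D.card - 2).choose (a - 1) := by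
        have h8 : D.card - 2 = D.card - 3 + 1 := by omega
        have h9 : a - 1 = a - 2 + 1 := by omega
        rw [h8, h9, Nat.choose_succ_succ]
        omega
      rw [hc₃, hn₂]; exact_mod_cast h7
    have ha2 : (2 : ℝ) ≤ a := by exact_mod_cast h2
    have hYb' : 8 * Y ≤ 8 * ((a : ℝ) - 1) * c₃ * z := by nlinarith
    by_cases hs : 0 ≤ 2 * (D.card : ℝ) - 8 * a + 4
    · have h11 : (2 * (D.card : ℝ) - 8 * a + 4) * X ≤ (2 * (D.card : ℝ) - 8 * a + 4) * (n₂ * z) :=
        mul_le_mul_of_nonneg_left hXb hs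
      have h12 : 8 * ((a : ℝ) - 1) * c₃ * z ≤ 8 * ((a : ℝ) - 1) * n₂ * z := by
        apply mul_le_mul_of_nonneg_right _ hz0
        apply mul_le_mul_of_nonneg_left hle
        linarith
      nlinarith [mul_nonneg hn₂0 hz0]
    · push Not at hs
      have h11 : (2 * (D.card : ℝ) - 8 * a + 4) * X ≤ 0 :=
        mul_nonpos_of_nonpos_of_nonneg hs.le hX0
      -- `8 (a-1) c₃ ≤ 2 N n₂`
      have h12 : 8 * ((a : ℝ) - 1) * c₃ ≤ 2 * (D.card : ℝ) * n₂ := by
        have hpos : (0 : ℝ) < (a : ℝ) - 1 := by linarith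
        refine le_of_mul_le_mul_left ?_ hpos
        have h13 : ((a : ℝ) - 1) * (2 * (D.card : ℝ) * n₂) =
            2 * (D.card : ℝ) * ((D.card : ℝ) - 2) * c₃ := by
          rw [mul_assoc (2 * (D.card : ℝ)), hrel]; ring
        rw [h13]
        have h14 : 8 * ((a : ℝ) - 1) ^ 2 ≤ 2 * (D.card : ℝ) * ((D.card : ℝ) - 2) := by
          nlinarith
        nlinarith
      have h15 : 8 * ((a : ℝ) - 1) * c₃ * z ≤ 2 * (D.card : ℝ) * n₂ * z :=
        mul_le_mul_of_nonneg_right h12 hz0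
      linarith

lemma pair_half (g : Finset α → ℝ) (hg : ∑ T ∈ D.powersetCard a, g T = 0)
    (haN : 2 * a ≤ D.card) :
    (∑ x ∈ D, ∑ y ∈ D.erase x,
        (∑ T ∈ sepSet D a x y, g T) ^ 2 / ((sepSet D a x y).card : ℝ)) ≤
      (D.card : ℝ) * ∑ T ∈ D.powersetCard a, g T ^ 2 := by
  have hz : 0 ≤ ∑ T ∈ D.powersetCard a, g T ^ 2 := sum_nonneg fun _ _ => sq_nonneg _
  rcases Nat.eq_zero_or_pos a with ha0 | ha
  · subst ha0
    have hs : ∀ x y : α, sepSet D 0 x y = ∅ := by
      intro x y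
      simp [sepSet]
    simp only [hs, sum_empty, ne_eq, OfNat.ofNat_ne_zero, not_false_eq_true, zero_pow, card_empty,
      Nat.cast_zero, div_zero, sum_const_zero]
    exact mul_nonneg (Nat.cast_nonneg _) hz
  · have hbd := pair_small D a g hg ha haN
    set n₂ : ℝ := (((D.card - 2).choose (a - 1) : ℕ) : ℝ) with hn₂
    have hpos : 0 < n₂ := by
      rw [hn₂]
      have : 0 < (D.card - 2).choose (a - 1) := Nat.choose_pos (by omega)
      exact_mod_cast this
    have hterm : ∀ x ∈ D, ∀ y ∈ D.erase x,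
        (∑ T ∈ sepSet D a x y, g T) ^ 2 / ((sepSet D a x y).card : ℝ) =
          (gSum D a g {x} + gSum D a g {y} - 2 * gSum D a g (insert y {x})) ^ 2 / (2 * n₂) := by
      intro x hx y hy
      obtain ⟨hne, hyD⟩ := mem_erase.mp hy
      rw [sep_sum D a g hne.symm, card_sep D a hx hyD hne.symm ha]
      push_cast
      rfl
    rw [sum_congr rfl (fun x hx => sum_congr rfl (hterm x hx))]
    simp only [← sum_div]
    rw [div_le_iff₀ (by positivity)]
    calc _ ≤ _ := hbd
      _ = _ := by rw [nrm]; ring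

lemma sum_compl (φ : Finset α → ℝ) (ha : a ≤ D.card) :
    ∑ T ∈ D.powersetCard (D.card - a), φ (D \ T) = ∑ T ∈ D.powersetCard a, φ T := by
  refine sum_nbij' (fun T => D \ T) (fun T => D \ T) ?_ ?_ ?_ ?_ ?_
  · intro T hT
    obtain ⟨hTD, hc⟩ := mem_powersetCard.mp hT
    refine mem_powersetCard.mpr ⟨sdiff_subset, ?_⟩
    rw [card_sdiff_of_subset hTD, hc]; omega
  · intro T hT
    obtain ⟨hTD, hc⟩ := mem_powersetCard.mp hT
    refine mem_powersetCard.mpr ⟨sdiff_subset, ?_⟩
    rw [card_sdiff_of_subset hTD, hc]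
  · intro T hT
    exact Finset.sdiff_sdiff_eq_self (mem_powersetCard.mp hT).1
  · intro T hT
    exact Finset.sdiff_sdiff_eq_self (mem_powersetCard.mp hT).1
  · intro T _
    rfl

lemma sep_compl (φ : Finset α → ℝ) (ha : a ≤ D.card) {x y : α} (hx : x ∈ D) (hy : y ∈ D) :
    ∑ T ∈ sepSet D (D.card - a) x y, φ (D \ T) = ∑ T ∈ sepSet D a x y, φ T := by
  have h1 := sum_compl D a (fun T => if (x ∈ T ∧ y ∉ T) ∨ (y ∈ T ∧ x ∉ T) then φ T else 0) ha
  simp only [sepSet, sum_filter]
  rw [← h1]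
  refine sum_congr rfl fun T _ => ?_
  have hxT : x ∈ D \ T ↔ x ∉ T := by simp [hx]
  have hyT : y ∈ D \ T ↔ y ∉ T := by simp [hy]
  by_cases hxx : x ∈ T <;> by_cases hyy : y ∈ T <;> simp [hxT, hyT, hxx, hyy]

/-- Johnson pair estimate. -/
theorem johnson_pair (g : Finset α → ℝ) (hg : ∑ T ∈ D.powersetCard a, g T = 0) :
    (∑ x ∈ D, ∑ y ∈ D.erase x,
        (∑ T ∈ sepSet D a x y, g T) ^ 2 / ((sepSet D a x y).card : ℝ)) ≤
      (D.card : ℝ) * ∑ T ∈ D.powersetCard a, g T ^ 2 := by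
  by_cases haN : a ≤ D.card
  · by_cases h2 : 2 * a ≤ D.card
    · exact pair_half D a g hg h2
    · have hg' : ∑ T ∈ D.powersetCard (D.card - a), g (D \ T) = 0 := by
        rw [sum_compl D a g haN, hg]
      have h3 := pair_half D (D.card - a) (fun T => g (D \ T)) hg' (by omega)
      have h4 : ∑ T ∈ D.powersetCard (D.card - a), g (D \ T) ^ 2 =
          ∑ T ∈ D.powersetCard a, g T ^ 2 := sum_compl D a (fun T => g T ^ 2) haN
      rw [h4] at h3
      refine le_of_eq_of_le ?_ h3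
      refine sum_congr rfl fun x hx => sum_congr rfl fun y hy => ?_
      have hyD : y ∈ D := (mem_erase.mp hy).2
      have h5 := sep_compl D a g haN hx hyD
      have h6 := sep_compl D a (fun _ => (1 : ℝ)) haN hx hyD
      simp only [sum_const, nsmul_eq_mul, mul_one] at h6
      rw [h5, h6]
  · have hemp : D.powersetCard a = ∅ := powersetCard_eq_empty.mpr (by omega)
    have hs : ∀ x y : α, sepSet D a x y = ∅ := by
      intro x y
      simp [sepSet, hemp]
    simp [hs, hemp]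

end Vale.Agent.P335
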