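import Vale.Agent.P335.GraphCore
import Vale.Agent.P335.Johnson

/-!
# P335: a re-split class of the vertex pair `(a,b)` is a Johnson scheme

Fix `a ≠ b`, `G ∈ Ω_d`.  Let `𝔻 = {c ∉ {a,b} : exactly one of ac, bc in G}`, `T(H) = {c ∈ 𝔻 : ac ∈ H}`.
For `H` in the fibre of `lab a b` through `G`: `𝔻` is the same (degree of `c`), `|T(H)|` is the same
(degree of `a`), and `H ↦ T(H)` is a bijection of the fibre onto `𝔻.powersetCard |T(G)|`.
`swOm a b u w H` corresponds to `exch (T H) u w` for `u ∈ T H`, `w ∈ 𝔻 \ T H`; for other `(u,w)` the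
switch is not available.

So on a fibre, with `g = f - mean` transported to subsets:
* `∑_{H ∈ fibre} ∑_u ∑_w (f (swOm a b u w H) - f H)² = jDir 𝔻 _ g`;
* `johnson_gap`: `2 N ∑ g² ≤ jDir`; if the fibre has at least two elements then `N ≥ 2`, else `g = 0`;
  this gives `var_le_dir` after summing over the fibres;
* for `u ≠ w` in `𝔻`, `sepBy a u w H` iff `T H ∈ sepSet 𝔻 _ u w`, and `bothIn a b u w H` iff
  `u, w ∈ 𝔻`.  `johnson_pair` and `johnson_gap` give, on each fibre,
  `∑_{u≠w} (c u w)²/δ ≤ N ∑ g² ≤ (1/2) jDir`; this gives `th_sum_le`.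
`theta` is a sum over points weighted by the inverse fibre size, so the sums over fibres are
obtained from: `∑_x (1/|fib x|) ∑_{y ∈ fib x} φ y = ∑_y φ y`.
-/

namespace Vale.Agent.P335

open Finset

variable {n : ℕ} {d : Fin n → ℕ}

/-! ### Degrees as neighbourhood sizes -/

/-- The degree counts the neighbours. -/
lemma edgeDegree_eq_card_nbr (E : Finset (Sym2 (Fin n))) (v : Fin n) :
    edgeDegree E v = (univ.filter (fun c => s(v, c) ∈ E)).card := by
  classical
  unfold edgeDegree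
  refine (card_nbij' (i := fun c => s(v, c)) (j := fun e => if h : v ∈ e then Sym2.Mem.other h else v)
    ?_ ?_ ?_ ?_).symm
  · intro c hc
    simp only [coe_filter, mem_univ, true_and, Set.mem_ofPred_eq] at hc ⊢
    exact ⟨hc, by simp⟩
  · intro e he
    simp only [coe_filter, Set.mem_ofPred_eq] at he
    simp only [coe_filter, mem_univ, true_and, Set.mem_ofPred_eq, he.2, dif_pos, Sym2.other_spec, he.1]
  · intro c hc
    have h : v ∈ s(v, c) := by simp
    simp only [h, dif_pos]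
    have := Sym2.other_spec h
    exact Sym2.congr_right.mp this
  · intro e he
    simp only [coe_filter, Set.mem_ofPred_eq] at he
    simp only [he.2, dif_pos, Sym2.other_spec]

variable {a b : Fin n}

lemma mem_of_lab_eq {y x : Realizations d} (h : lab a b y = lab a b x) {e : Sym2 (Fin n)}
    (he : ¬ Block a b e) : e ∈ y.1 ↔ e ∈ x.1 := by
  classical
  have h1 : e ∈ lab a b y ↔ e ∈ lab a b x := by rw [h]
  simpa [lab, mem_filter, he] using h1

/-- Indicator form of the degree fact: at a vertex `c` outside `{a,b}` the number of edges to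
`{a,b}` is constant on the fibre. -/
lemma ind_eq {y x : Realizations d} (h : lab a b y = lab a b x) (hab : a ≠ b) {c : Fin n}
    (hca : c ≠ a) (hcb : c ≠ b) :
    (if s(a, c) ∈ y.1 then 1 else 0) + (if s(b, c) ∈ y.1 then 1 else 0) =
      (if s(a, c) ∈ x.1 then 1 else 0) + (if s(b, c) ∈ x.1 then 1 else 0) := by
  classical
  have key : ∀ G : Realizations d, d c =
      (if s(c, a) ∈ G.1 then 1 else 0) + (if s(c, b) ∈ G.1 then 1 else 0) +
        ∑ e ∈ (univ.erase a).erase b, if s(c, e) ∈ G.1 then 1 else 0 := by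
    intro G
    rw [← G.2.2 c, edgeDegree_eq_card_nbr, card_filter]
    have hb : b ∈ (univ : Finset (Fin n)).erase a := mem_erase.mpr ⟨hab.symm, mem_univ _⟩
    rw [← add_sum_erase univ _ (mem_univ a), ← add_sum_erase _ _ hb, add_assoc]
  have hsum : ∑ e ∈ (univ.erase a).erase b, (if s(c, e) ∈ y.1 then 1 else 0) =
      ∑ e ∈ (univ.erase a).erase b, if s(c, e) ∈ x.1 then 1 else 0 := by
    refine sum_congr rfl fun e he => ?_
    have he1 : e ≠ b := (mem_erase.mp he).1
    have he2 : e ≠ a := (mem_erase.mp (mem_erase.mp he).2).1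
    have hB : ¬ Block a b s(c, e) := by
      rintro ⟨h1 | h1, _⟩
      · rcases Sym2.mem_iff.mp h1 with h1 | h1
        · exact hca h1.symm
        · exact he2 h1.symm
      · rcases Sym2.mem_iff.mp h1 with h1 | h1
        · exact hcb h1.symm
        · exact he1 h1.symm
    have := mem_of_lab_eq h hB
    simp only [this]
  have h1 := key y
  have h2 := key x
  rw [hsum] at h1
  rw [Sym2.eq_swap (a := a) (b := c), Sym2.eq_swap (a := b) (b := c)]
  omega

/-! ### The Johnson coordinates of a fibre -/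

open Classical in
/-- The columns that exactly one of `a, b` sees. -/
noncomputable def dSet (a b : Fin n) (G : Realizations d) : Finset (Fin n) :=
  univ.filter (fun c => c ≠ a ∧ c ≠ b ∧ (s(a, c) ∈ G.1 ↔ s(b, c) ∉ G.1))

open Classical in
/-- The columns that `a` sees and `b` does not. -/
noncomputable def tSet (a b : Fin n) (G : Realizations d) : Finset (Fin n) :=
  univ.filter (fun c => c ≠ a ∧ c ≠ b ∧ s(a, c) ∈ G.1 ∧ s(b, c) ∉ G.1)

lemma mem_dSet {G : Realizations d} {c : Fin n} :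
    c ∈ dSet a b G ↔ c ≠ a ∧ c ≠ b ∧ (s(a, c) ∈ G.1 ↔ s(b, c) ∉ G.1) := by
  classical
  simp [dSet]

lemma mem_tSet {G : Realizations d} {c : Fin n} :
    c ∈ tSet a b G ↔ c ≠ a ∧ c ≠ b ∧ s(a, c) ∈ G.1 ∧ s(b, c) ∉ G.1 := by
  classical
  simp [tSet]

lemma tSet_subset (G : Realizations d) : tSet a b G ⊆ dSet a b G := by
  intro c hc
  obtain ⟨h1, h2, h3, h4⟩ := mem_tSet.mp hc
  exact mem_dSet.mpr ⟨h1, h2, by simp [h3, h4]⟩

lemma dSet_eq {y x : Realizations d} (h : lab a b y = lab a b x) (hab : a ≠ b) :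
    dSet a b y = dSet a b x := by
  ext c
  simp only [mem_dSet]
  by_cases hca : c = a
  · simp [hca]
  by_cases hcb : c = b
  · simp [hcb]
  have := ind_eq h hab hca hcb
  simp only [hca, hcb, ne_eq, not_false_eq_true, true_and]
  by_cases h1 : s(a, c) ∈ y.1 <;> by_cases h2 : s(b, c) ∈ y.1 <;>
    by_cases h3 : s(a, c) ∈ x.1 <;> by_cases h4 : s(b, c) ∈ x.1 <;>
      simp_all

lemma card_tSet_eq {y x : Realizations d} (h : lab a b y = lab a b x) (hab : a ≠ b) :
    (tSet a b y).card = (tSet a b x).card := by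
  classical
  -- the neighbourhood of `a`
  have key : ∀ G : Realizations d, d a =
      (if s(a, b) ∈ G.1 then 1 else 0) + (tSet a b G).card +
        (univ.filter (fun c => c ≠ a ∧ c ≠ b ∧ s(a, c) ∈ G.1 ∧ s(b, c) ∈ G.1)).card := by
    intro G
    rw [← G.2.2 a, edgeDegree_eq_card_nbr]
    have hdiag : s(a, a) ∉ G.1 := fun h => G.2.1 _ h (by simp)
    have h1 : univ.filter (fun c => s(a, c) ∈ G.1) =
        (if s(a, b) ∈ G.1 then {b} else ∅) ∪ (tSet a b G ∪
          univ.filter (fun c => c ≠ a ∧ c ≠ b ∧ s(a, c) ∈ G.1 ∧ s(b, c) ∈ G.1)) := by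
      ext c
      simp only [mem_filter, mem_univ, true_and, mem_union, mem_tSet]
      by_cases hca : c = a
      · subst hca
        simp only [hdiag, ne_eq, not_true_eq_false, false_and, or_self, or_false, false_iff]
        split_ifs with hb
        · simp only [mem_singleton]
          intro hc; exact hab hc
        · simp
      by_cases hcb : c = b
      · subst hcb
        split_ifs with hb <;> simp [hb]
      have hns : c ∉ (if s(a, b) ∈ G.1 then ({b} : Finset (Fin n)) else ∅) := by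
        split_ifs <;> simp [hcb]
      simp only [hns, false_or, hca, hcb, ne_eq, not_false_eq_true, true_and]
      by_cases h2 : s(b, c) ∈ G.1 <;> simp [h2]
    rw [h1, card_union_of_disjoint, card_union_of_disjoint]
    · have h5 : (if s(a, b) ∈ G.1 then ({b} : Finset (Fin n)) else ∅).card =
          if s(a, b) ∈ G.1 then 1 else 0 := by
        split_ifs <;> simp
      rw [h5]; omega
    · rw [disjoint_left]
      intro c hc hc'
      exact (mem_tSet.mp hc).2.2.2 (mem_filter.mp hc').2.2.2.2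
    · rw [disjoint_left]
      intro c hc hc'
      have hcb : c = b := by
        split_ifs at hc with hb
        · simpa using hc
        · simp at hc
      rcases mem_union.mp hc' with hc' | hc'
      · exact (mem_tSet.mp hc').2.1 hcb
      · exact (mem_filter.mp hc').2.2.1 hcb
  have hB : ¬ Block a b s(a, b) := fun h => h.2 rfl
  have h1 := key y
  have h2 := key x
  have h3 : (if s(a, b) ∈ y.1 then 1 else 0) = (if s(a, b) ∈ x.1 then 1 else 0) := by
    simp only [mem_of_lab_eq h hB]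
  have h4 : univ.filter (fun c => c ≠ a ∧ c ≠ b ∧ s(a, c) ∈ y.1 ∧ s(b, c) ∈ y.1) =
      univ.filter (fun c => c ≠ a ∧ c ≠ b ∧ s(a, c) ∈ x.1 ∧ s(b, c) ∈ x.1) := by
    ext c
    simp only [mem_filter, mem_univ, true_and]
    by_cases hca : c = a
    · simp [hca]
    by_cases hcb : c = b
    · simp [hcb]
    have := ind_eq h hab hca hcb
    simp only [hca, hcb, ne_eq, not_false_eq_true, true_and]
    by_cases h1 : s(a, c) ∈ y.1 <;> by_cases h2 : s(b, c) ∈ y.1 <;>
      by_cases h3 : s(a, c) ∈ x.1 <;> by_cases h4 : s(b, c) ∈ x.1 <;>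
        simp_all
  rw [h3, h4] at h1
  omega

/-- `tSet` is injective on the fibre. -/
lemma tSet_inj {y y' : Realizations d} (h : lab a b y = lab a b y') (hab : a ≠ b)
    (ht : tSet a b y = tSet a b y') : y = y' := by
  have hmem : ∀ c, c ≠ a → c ≠ b → ((s(a, c) ∈ y.1 ↔ s(a, c) ∈ y'.1) ∧
      (s(b, c) ∈ y.1 ↔ s(b, c) ∈ y'.1)) := by
    intro c hca hcb
    have h1 := ind_eq h hab hca hcb
    have h2 : c ∈ tSet a b y ↔ c ∈ tSet a b y' := by rw [ht]
    simp only [mem_tSet, hca, hcb, ne_eq, not_false_eq_true, true_and] at h2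
    by_cases h3 : s(a, c) ∈ y.1 <;> by_cases h4 : s(b, c) ∈ y.1 <;>
      by_cases h5 : s(a, c) ∈ y'.1 <;> by_cases h6 : s(b, c) ∈ y'.1 <;>
        simp_all
  apply Subtype.ext
  ext e
  by_cases hB : Block a b e
  · obtain ⟨hm, hne⟩ := hB
    rcases hm with hm | hm
    · obtain ⟨c, rfl⟩ := hm
      by_cases hca : c = a
      · subst hca
        have h1 : ¬ s(c, c) ∈ y.1 := fun h => y.2.1 _ h (by simp)
        have h2 : ¬ s(c, c) ∈ y'.1 := fun h => y'.2.1 _ h (by simp)
        simp [h1, h2]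
      by_cases hcb : c = b
      · subst hcb; exact absurd rfl hne
      exact (hmem c hca hcb).1
    · obtain ⟨c, rfl⟩ := hm
      by_cases hca : c = a
      · subst hca; exact absurd Sym2.eq_swap hne
      by_cases hcb : c = b
      · subst hcb
        have h1 : ¬ s(c, c) ∈ y.1 := fun h => y.2.1 _ h (by simp)
        have h2 : ¬ s(c, c) ∈ y'.1 := fun h => y'.2.1 _ h (by simp)
        simp [h1, h2]
      exact (hmem c hca hcb).2
  · exact mem_of_lab_eq h hB

/-- Characterisation of the available switches. -/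
lemma SW_iff (hab : a ≠ b) {u w : Fin n} {y : Realizations d} :
    SW a b u w y.1 ↔ u ∈ tSet a b y ∧ w ∈ dSet a b y ∧ w ∉ tSet a b y := by
  simp only [SW, mem_tSet, mem_dSet]
  constructor
  · rintro ⟨_, hau, haw, hbu, hbw, _, h1, h2, h3, h4⟩
    refine ⟨⟨hau.symm, hbu.symm, h1, h4⟩, ⟨haw.symm, hbw.symm, by simp [h2, h3]⟩, ?_⟩
    rintro ⟨_, _, h5, _⟩
    exact h3 h5
  · rintro ⟨⟨hua, hub, h1, h4⟩, ⟨hwa, hwb, h5⟩, h6⟩
    have h7 : s(a, w) ∉ y.1 := by
      intro h
      exact h6 ⟨hwa, hwb, h, h5.mp h⟩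
    have h8 : s(b, w) ∈ y.1 := by
      by_contra h
      exact h7 (h5.mpr h)
    refine ⟨hab, hua.symm, hwa.symm, hub.symm, hwb.symm, ?_, h1, h8, h7, h4⟩
    rintro rfl
    exact h7 h1

lemma swOm_of_not {u w : Fin n} {y : Realizations d} (hab : a ≠ b)
    (h : ¬ (u ∈ tSet a b y ∧ w ∈ dSet a b y ∧ w ∉ tSet a b y)) : swOm a b u w y = y := by
  classical
  unfold swOm
  rw [dif_neg]
  rwa [SW_iff hab]

/-- The switch acts on the Johnson coordinate by an exchange. -/
lemma tSet_swOm {u w : Fin n} {y : Realizations d} (hab : a ≠ b)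
    (h : u ∈ tSet a b y ∧ w ∈ dSet a b y ∧ w ∉ tSet a b y) :
    tSet a b (swOm a b u w y) = exch (tSet a b y) u w := by
  classical
  have hSW := (SW_iff hab).mpr h
  unfold swOm
  rw [dif_pos hSW]
  obtain ⟨hab', hau, haw, hbu, hbw, huw, h1, h2, h3, h4⟩ := hSW
  ext c
  simp only [mem_tSet, exch, mem_insert, mem_erase, swE]
  by_cases hca : c = a
  · rw [hca]
    simp [haw]
  by_cases hcb : c = b
  · rw [hcb]
    simp [hbw]
  have e1 : s(a, c) = s(a, w) ↔ c = w := Sym2.congr_right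
  have e2 : s(a, c) ≠ s(b, u) := by
    intro e
    rcases Sym2.eq_iff.mp e with ⟨e, _⟩ | ⟨e, _⟩
    · exact hab e
    · exact hau e
  have e3 : s(a, c) ≠ s(b, w) := by
    intro e
    rcases Sym2.eq_iff.mp e with ⟨e, _⟩ | ⟨e, _⟩
    · exact hab e
    · exact haw e
  have e4 : s(a, c) = s(a, u) ↔ c = u := Sym2.congr_right
  have e5 : s(b, c) ≠ s(a, w) := by
    intro e
    rcases Sym2.eq_iff.mp e with ⟨e, _⟩ | ⟨e, _⟩
    · exact hab e.symm
    · exact hbw e
  have e6 : s(b, c) = s(b, u) ↔ c = u := Sym2.congr_right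
  have e7 : s(b, c) = s(b, w) ↔ c = w := Sym2.congr_right
  have e8 : s(b, c) ≠ s(a, u) := by
    intro e
    rcases Sym2.eq_iff.mp e with ⟨e, _⟩ | ⟨e, _⟩
    · exact hab e.symm
    · exact hbu e
  simp only [e1, e2, e3, e4, e5, e6, e7, e8, hca, hcb, ne_eq, not_false_eq_true, true_and, false_or]
  by_cases hcw : c = w
  · subst hcw
    simp [Ne.symm huw]
  by_cases hcu : c = u
  · subst hcu
    simp [hcw]
  simp [hcw, hcu]

/-- Every `k`-subset of `𝔻` is the Johnson coordinate of some element of the fibre. -/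
lemma tSet_surj (x : Realizations d) (hab : a ≠ b) (m : ℕ) (T' : Finset (Fin n))
    (h1 : T' ⊆ dSet a b x) (h2 : T'.card = (tSet a b x).card) (h3 : (T' \ tSet a b x).card = m) :
    ∃ y : Realizations d, lab a b y = lab a b x ∧ tSet a b y = T' := by
  induction m generalizing T' with
  | zero =>
    refine ⟨x, rfl, ?_⟩
    have h4 : T' ⊆ tSet a b x := by
      rwa [card_eq_zero, sdiff_eq_empty_iff_subset] at h3
    exact (eq_of_subset_of_card_le h4 h2.ge).symm
  | succ m ih =>
    have h4 : (tSet a b x \ T').card = m + 1 := by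
      rw [← h3]; exact card_sdiff_comm h2.symm
    obtain ⟨w, hw⟩ : (T' \ tSet a b x).Nonempty := by
      rw [← card_pos]; omega
    obtain ⟨u, hu⟩ : (tSet a b x \ T').Nonempty := by
      rw [← card_pos]; omega
    obtain ⟨hwT, hwx⟩ := mem_sdiff.mp hw
    obtain ⟨hux, huT⟩ := mem_sdiff.mp hu
    have huw : u ≠ w := fun e => hwx (e ▸ hux)
    set T'' := insert u (T'.erase w) with hT''
    have huT' : u ∉ T'.erase w := fun h => huT (mem_of_mem_erase h)
    obtain ⟨y, hy1, hy2⟩ := ih T'' (by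
        intro c hc
        rcases mem_insert.mp hc with rfl | hc
        · exact tSet_subset x hux
        · exact h1 (mem_of_mem_erase hc))
      (by rw [hT'', card_insert_of_notMem huT', card_erase_of_mem hwT, h2]
          have : 0 < (tSet a b x).card := card_pos.mpr ⟨u, hux⟩
          omega)
      (by
        have h5 : T'' \ tSet a b x = (T' \ tSet a b x).erase w := by
          ext c
          simp only [hT'', mem_sdiff, mem_insert, mem_erase]
          constructor
          · rintro ⟨rfl | ⟨hcw, hcT⟩, hcx⟩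
            · exact absurd hux hcx
            · exact ⟨hcw, hcT, hcx⟩
          · rintro ⟨hcw, hcT, hcx⟩
            exact ⟨Or.inr ⟨hcw, hcT⟩, hcx⟩
        rw [h5, card_erase_of_mem hw, h3]
        rfl)
    have hd : dSet a b y = dSet a b x := dSet_eq hy1 hab
    have hsw : u ∈ tSet a b y ∧ w ∈ dSet a b y ∧ w ∉ tSet a b y := by
      rw [hy2, hd]
      refine ⟨mem_insert_self _ _, h1 hwT, ?_⟩
      intro h
      rcases mem_insert.mp h with e | e
      · exact huw e.symm
      · exact (mem_erase.mp e).1 rfl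
    refine ⟨swOm a b u w y, (lab_swOm a b u w y).trans hy1, ?_⟩
    rw [tSet_swOm hab hsw, hy2, exch, hT'', erase_insert huT', insert_erase hwT]

/-! ### Fibres -/

section Generic

variable {Y K : Type*} [Fintype Y]

open Classical in
/-- The fibre of `κ` through `x`. -/
noncomputable def fibOf (κ : Y → K) (x : Y) : Finset Y := univ.filter (fun y => κ y = κ x)

open Classical in
/-- The part of the fibre of `κ` through `x` where `t` holds. -/
noncomputable def fibT (κ : Y → K) (t : Y → Prop) (x : Y) : Finset Y :=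
  univ.filter (fun y => κ y = κ x ∧ t y)

lemma mem_fibOf {κ : Y → K} {x y : Y} : y ∈ fibOf κ x ↔ κ y = κ x := by
  classical
  simp [fibOf]

lemma mem_fibT {κ : Y → K} {t : Y → Prop} {x y : Y} : y ∈ fibT κ t x ↔ κ y = κ x ∧ t y := by
  classical
  simp [fibT]

lemma avg_eq_fib (κ : Y → K) (f : Y → ℝ) (x : Y) :
    avg κ f x = (∑ y ∈ fibOf κ x, f y) / ((fibOf κ x).card : ℝ) := rfl

open Classical in
lemma theta_eq (κ : Y → K) (tA tB : Y → Prop) (f : Y → ℝ) :
    theta κ tA tB f = ∑ x, if tA x then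
      ((∑ y ∈ fibT κ tB x, (f y - avg κ f x)) ^ 2 / ((fibT κ tB x).card : ℝ)) /
        ((fibOf κ x).card : ℝ) else 0 := rfl

lemma card_fibOf_pos (κ : Y → K) (x : Y) : 0 < ((fibOf κ x).card : ℝ) := by
  have : 0 < (fibOf κ x).card := card_pos.mpr ⟨x, mem_fibOf.mpr rfl⟩
  exact_mod_cast this

lemma sum_sub_avg (κ : Y → K) (f : Y → ℝ) (x : Y) :
    ∑ y ∈ fibOf κ x, (f y - avg κ f x) = 0 := by
  rw [sum_sub_distrib, sum_const, nsmul_eq_mul, avg_eq_fib]
  have := (card_fibOf_pos κ x).ne'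
  field_simp
  ring

end Generic

/-! ### Transport of a fibre to the Johnson scheme -/

section Transport

variable (a b) (x : Realizations d) (f : Realizations d → ℝ)

/-- The Dirichlet density at a point. -/
noncomputable def phiD (y : Realizations d) : ℝ :=
  ∑ u, ∑ w, (f (swOm a b u w y) - f y) ^ 2

lemma phiD_nonneg (y : Realizations d) : 0 ≤ phiD a b f y :=
  sum_nonneg fun _ _ => sum_nonneg fun _ _ => sq_nonneg _

variable {a b}

lemma tSet_mem_P (hab : a ≠ b) {y : Realizations d} (hy : y ∈ fibOf (lab a b) x) :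
    tSet a b y ∈ (dSet a b x).powersetCard (tSet a b x).card := by
  have h := mem_fibOf.mp hy
  refine mem_powersetCard.mpr ⟨?_, card_tSet_eq h hab⟩
  rw [← dSet_eq h hab]
  exact tSet_subset y

lemma sum_P (hab : a ≠ b) (ψ : Finset (Fin n) → ℝ) :
    ∑ T ∈ (dSet a b x).powersetCard (tSet a b x).card, ψ T =
      ∑ y ∈ fibOf (lab a b) x, ψ (tSet a b y) := by
  classical
  symm
  refine sum_bij (fun y _ => tSet a b y) (fun y hy => tSet_mem_P x hab hy) ?_ ?_ (fun _ _ => rfl)
  · intro y hy y' hy' e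
    refine tSet_inj ?_ hab e
    rw [mem_fibOf.mp hy, mem_fibOf.mp hy']
  · intro T hT
    obtain ⟨h1, h2⟩ := mem_powersetCard.mp hT
    obtain ⟨y, hy1, hy2⟩ := tSet_surj x hab _ T h1 h2 rfl
    exact ⟨y, mem_fibOf.mpr hy1, hy2⟩

open Classical in
/-- The function on subsets corresponding to `f - mean` on the fibre. -/
noncomputable def gF (a b : Fin n) (T : Finset (Fin n)) : ℝ :=
  ∑ y ∈ (fibOf (lab a b) x).filter (fun y => tSet a b y = T), (f y - avg (lab a b) f x)

lemma gF_tSet (hab : a ≠ b) {y : Realizations d} (hy : y ∈ fibOf (lab a b) x) :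
    gF x f a b (tSet a b y) = f y - avg (lab a b) f x := by
  classical
  rw [gF, sum_eq_single y]
  · intro y' hy' hne
    exfalso
    obtain ⟨h1, h2⟩ := mem_filter.mp hy'
    apply hne
    refine tSet_inj ?_ hab h2
    rw [mem_fibOf.mp h1, mem_fibOf.mp hy]
  · intro h
    exact (h (mem_filter.mpr ⟨hy, rfl⟩)).elim

lemma gF_sum (hab : a ≠ b) :
    ∑ T ∈ (dSet a b x).powersetCard (tSet a b x).card, gF x f a b T = 0 := by
  rw [sum_P x hab, sum_congr rfl (fun y hy => gF_tSet x f hab hy)]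
  exact sum_sub_avg _ _ _

lemma gF_sq (hab : a ≠ b) :
    ∑ T ∈ (dSet a b x).powersetCard (tSet a b x).card, gF x f a b T ^ 2 =
      ∑ y ∈ fibOf (lab a b) x, (f y - avg (lab a b) f x) ^ 2 := by
  rw [sum_P x hab _]
  exact sum_congr rfl fun y hy => by rw [gF_tSet x f hab hy]

/-- The Dirichlet density at `y` is a sum over the available switches. -/
lemma phiD_eq (hab : a ≠ b) (y : Realizations d) :
    phiD a b f y = ∑ u ∈ tSet a b y, ∑ w ∈ dSet a b y \ tSet a b y,
      (f (swOm a b u w y) - f y) ^ 2 := by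
  classical
  symm
  rw [phiD]
  have h1 : ∀ u ∈ tSet a b y, ∑ w ∈ dSet a b y \ tSet a b y, (f (swOm a b u w y) - f y) ^ 2 =
      ∑ w, (f (swOm a b u w y) - f y) ^ 2 := by
    intro u hu
    refine sum_subset (subset_univ _) fun w _ hw => ?_
    rw [swOm_of_not hab]
    · simp
    · rintro ⟨_, h2, h3⟩
      exact hw (mem_sdiff.mpr ⟨h2, h3⟩)
  rw [sum_congr rfl h1]
  refine sum_subset (subset_univ _) fun u _ hu => ?_
  refine sum_eq_zero fun w _ => ?_
  rw [swOm_of_not hab]
  · simp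
  · rintro ⟨h2, _⟩
    exact hu h2

lemma jDir_gF (hab : a ≠ b) :
    jDir (dSet a b x) (tSet a b x).card (gF x f a b) = ∑ y ∈ fibOf (lab a b) x, phiD a b f y := by
  rw [jDir, sum_P x hab _]
  refine sum_congr rfl fun y hy => ?_
  have hy' := mem_fibOf.mp hy
  rw [phiD_eq f hab y, dSet_eq hy' hab]
  refine sum_congr rfl fun u hu => sum_congr rfl fun w hw => ?_
  obtain ⟨hw1, hw2⟩ := mem_sdiff.mp hw
  have hsw : u ∈ tSet a b y ∧ w ∈ dSet a b y ∧ w ∉ tSet a b y :=
    ⟨hu, by rwa [dSet_eq hy' hab], hw2⟩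
  rw [← tSet_swOm hab hsw, gF_tSet x f hab hy,
    gF_tSet x f hab (mem_fibOf.mpr ((lab_swOm a b u w y).trans hy'))]
  ring

/-- Fibrewise variance bound. -/
lemma fibre_var (hab : a ≠ b) :
    ∑ y ∈ fibOf (lab a b) x, (f y - avg (lab a b) f x) ^ 2 ≤
      (1 / 4) * ∑ y ∈ fibOf (lab a b) x, phiD a b f y := by
  have hgap := johnson_gap (dSet a b x) (tSet a b x).card (gF x f a b) (gF_sum x f hab)
  rw [jDir_gF x f hab, gF_sq x f hab] at hgap
  have hz : 0 ≤ ∑ y ∈ fibOf (lab a b) x, (f y - avg (lab a b) f x) ^ 2 :=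
    sum_nonneg fun _ _ => sq_nonneg _
  by_cases hN : 2 ≤ (dSet a b x).card
  · have h2 : (2 : ℝ) ≤ (dSet a b x).card := by exact_mod_cast hN
    nlinarith
  · -- at most one element in the fibre
    have hP : ((dSet a b x).powersetCard (tSet a b x).card).card ≤ 1 := by
      rw [card_powersetCard]
      have h3 : (dSet a b x).card ≤ 1 := by omega
      have h4 : ∀ N k : ℕ, N ≤ 1 → N.choose k ≤ 1 := by
        intro N k hN
        by_cases hk : N < k
        · rw [Nat.choose_eq_zero_of_lt hk]; omega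
        · have hk' : k ≤ 1 := by omega
          interval_cases N <;> interval_cases k <;> simp_all
      exact h4 _ _ h3
    have hone : ∀ T ∈ (dSet a b x).powersetCard (tSet a b x).card, gF x f a b T = 0 := by
      intro T hT
      have h6 := gF_sum x f (a := a) (b := b) hab
      have h7 : (dSet a b x).powersetCard (tSet a b x).card = {T} := by
        refine (eq_singleton_iff_unique_mem.mpr ⟨hT, fun T' hT' => ?_⟩)
        exact card_le_one.mp hP T' hT' T hT
      rwa [h7, sum_singleton] at h6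
    have h8 : ∑ y ∈ fibOf (lab a b) x, (f y - avg (lab a b) f x) ^ 2 = 0 := by
      rw [← gF_sq x f hab]
      exact sum_eq_zero fun T hT => by rw [hone T hT]; simp
    rw [h8]
    exact mul_nonneg (by norm_num) (sum_nonneg fun y _ => phiD_nonneg a b f y)

lemma mem_tSet_iff {y : Realizations d} {c : Fin n} (hc : c ∈ dSet a b y) :
    c ∈ tSet a b y ↔ s(a, c) ∈ y.1 := by
  obtain ⟨h1, h2, h3⟩ := mem_dSet.mp hc
  rw [mem_tSet]
  constructor
  · rintro ⟨_, _, h4, _⟩; exact h4
  · intro h4; exact ⟨h1, h2, h4, h3.mp h4⟩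

lemma sep_transport (hab : a ≠ b) {u w : Fin n} (hu : u ∈ dSet a b x) (hw : w ∈ dSet a b x)
    (ψ : Finset (Fin n) → ℝ) :
    ∑ T ∈ sepSet (dSet a b x) (tSet a b x).card u w, ψ T =
      ∑ y ∈ fibT (lab a b) (sepBy a u w) x, ψ (tSet a b y) := by
  classical
  have h1 : fibT (lab a b) (sepBy a u w) x =
      (fibOf (lab a b) x).filter (fun y => (u ∈ tSet a b y ∧ w ∉ tSet a b y) ∨
        (w ∈ tSet a b y ∧ u ∉ tSet a b y)) := by
    ext y
    simp only [mem_fibT, mem_filter, mem_fibOf]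
    refine and_congr_right fun hy => ?_
    have hd := dSet_eq hy hab
    rw [mem_tSet_iff (hd ▸ hu), mem_tSet_iff (hd ▸ hw), sepBy]
    tauto
  rw [h1, sum_filter, sepSet, sum_filter, sum_P x hab _]

/-- Fibrewise bound for the Johnson functionals. -/
lemma fibre_th (hab : a ≠ b) :
    (∑ u, ∑ w, (open Classical in
      if (a ≠ u ∧ a ≠ w ∧ b ≠ u ∧ b ≠ w ∧ u ≠ w) ∧ bothIn a b u w x then
        (∑ y ∈ fibT (lab a b) (sepBy a u w) x, (f y - avg (lab a b) f x)) ^ 2 /
          ((fibT (lab a b) (sepBy a u w) x).card : ℝ) else 0)) ≤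
      (1 / 2) * ∑ y ∈ fibOf (lab a b) x, phiD a b f y := by
  classical
  have hc : ∀ u w, ((a ≠ u ∧ a ≠ w ∧ b ≠ u ∧ b ≠ w ∧ u ≠ w) ∧ bothIn a b u w x) ↔
      u ∈ dSet a b x ∧ w ∈ (dSet a b x).erase u := by
    intro u w
    simp only [mem_erase, mem_dSet, bothIn]
    constructor
    · rintro ⟨⟨h1, h2, h3, h4, h5⟩, h6, h7⟩
      exact ⟨⟨h1.symm, h3.symm, h6⟩, h5.symm, h2.symm, h4.symm, h7⟩
    · rintro ⟨⟨h1, h3, h6⟩, h5, h2, h4, h7⟩
      exact ⟨⟨h1.symm, h2.symm, h3.symm, h4.symm, h5.symm⟩, h6, h7⟩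
  have hterm : ∀ u ∈ dSet a b x, ∀ w ∈ (dSet a b x).erase u,
      (∑ y ∈ fibT (lab a b) (sepBy a u w) x, (f y - avg (lab a b) f x)) ^ 2 /
          ((fibT (lab a b) (sepBy a u w) x).card : ℝ) =
        (∑ T ∈ sepSet (dSet a b x) (tSet a b x).card u w, gF x f a b T) ^ 2 /
          ((sepSet (dSet a b x) (tSet a b x).card u w).card : ℝ) := by
    intro u hu w hw
    have hw' : w ∈ dSet a b x := mem_of_mem_erase hw
    have h1 := sep_transport x hab hu hw' (gF x f a b)
    have h2 := sep_transport x hab hu hw' (fun _ => (1 : ℝ))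
    simp only [sum_const, nsmul_eq_mul, mul_one] at h2
    rw [h1, h2]
    congr 2
    refine sum_congr rfl fun y hy => ?_
    exact (gF_tSet x f hab (mem_fibOf.mpr (mem_fibT.mp hy).1)).symm
  have hL : (∑ u, ∑ w, (if (a ≠ u ∧ a ≠ w ∧ b ≠ u ∧ b ≠ w ∧ u ≠ w) ∧ bothIn a b u w x then
        (∑ y ∈ fibT (lab a b) (sepBy a u w) x, (f y - avg (lab a b) f x)) ^ 2 /
          ((fibT (lab a b) (sepBy a u w) x).card : ℝ) else 0)) =
      ∑ u ∈ dSet a b x, ∑ w ∈ (dSet a b x).erase u,
        (∑ T ∈ sepSet (dSet a b x) (tSet a b x).card u w, gF x f a b T) ^ 2 /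
          ((sepSet (dSet a b x) (tSet a b x).card u w).card : ℝ) := by
    symm
    have h1 : ∀ u ∈ dSet a b x, ∑ w ∈ (dSet a b x).erase u,
        (∑ T ∈ sepSet (dSet a b x) (tSet a b x).card u w, gF x f a b T) ^ 2 /
          ((sepSet (dSet a b x) (tSet a b x).card u w).card : ℝ) =
        ∑ w, (if (a ≠ u ∧ a ≠ w ∧ b ≠ u ∧ b ≠ w ∧ u ≠ w) ∧ bothIn a b u w x then
        (∑ y ∈ fibT (lab a b) (sepBy a u w) x, (f y - avg (lab a b) f x)) ^ 2 /
          ((fibT (lab a b) (sepBy a u w) x).card : ℝ) else 0) := by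
      intro u hu
      rw [← sum_subset (subset_univ ((dSet a b x).erase u))]
      · refine sum_congr rfl fun w hw => ?_
        rw [if_pos ((hc u w).mpr ⟨hu, hw⟩), hterm u hu w hw]
      · intro w _ hw
        rw [if_neg]
        intro h
        exact hw ((hc u w).mp h).2
    rw [sum_congr rfl h1]
    refine sum_subset (subset_univ _) fun u _ hu => ?_
    refine sum_eq_zero fun w _ => ?_
    rw [if_neg]
    intro h
    exact hu ((hc u w).mp h).1
  have hpair := johnson_pair (dSet a b x) (tSet a b x).card (gF x f a b) (gF_sum x f hab)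
  have hgap := johnson_gap (dSet a b x) (tSet a b x).card (gF x f a b) (gF_sum x f hab)
  rw [jDir_gF x f hab] at hgap
  refine le_trans (le_of_eq ?_) (hpair.trans ?_)
  · convert hL using 1
  · linarith

end Transport

/-- `Sq` summed over `u, w` is the sum of the Dirichlet densities. -/
lemma sum_Sq (a b : Fin n) (f : Realizations d → ℝ) :
    ∑ u, ∑ w, Sq a b u w f = ∑ y, phiD a b f y := by
  simp only [Sq, phiD]
  have h : ∀ u : Fin n, ∑ w, ∑ G : Realizations d, (f (swOm a b u w G) - f G) ^ 2 =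
      ∑ G : Realizations d, ∑ w, (f (swOm a b u w G) - f G) ^ 2 := fun u => sum_comm
  simp only [h]
  exact sum_comm

theorem var_le_dir {a b : Fin n} (hab : a ≠ b) (f : Realizations d → ℝ) :
    dot (prj (lab a b) f) (prj (lab a b) f) ≤ (1 / 4) * ∑ u, ∑ w, Sq a b u w f := by
  rw [sum_Sq]
  have h1 : dot (prj (lab a b) f) (prj (lab a b) f) =
      ∑ x, avg (lab a b) (fun y => (prj (lab a b) f y) ^ 2) x := by
    rw [sum_fibre_avg]
    exact sum_congr rfl fun x _ => (sq _).symm
  rw [h1, ← sum_fibre_avg (lab a b) (phiD a b f), mul_sum]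
  refine sum_le_sum fun x _ => ?_
  rw [avg_eq_fib, avg_eq_fib, ← mul_div_assoc]
  refine div_le_div_of_nonneg_right ?_ (card_fibOf_pos _ x).le
  refine le_trans (le_of_eq ?_) (fibre_var x f hab)
  refine sum_congr rfl fun y hy => ?_
  rw [prj, avg_congr (lab a b) f (mem_fibOf.mp hy)]

theorem th_sum_le {a b : Fin n} (hab : a ≠ b) (f : Realizations d → ℝ) :
    (∑ u, ∑ w, if a ≠ u ∧ a ≠ w ∧ b ≠ u ∧ b ≠ w ∧ u ≠ w then Th a b u w f else 0) ≤
      (1 / 2) * ∑ u, ∑ w, Sq a b u w f := by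
  classical
  rw [sum_Sq, ← sum_fibre_avg (lab a b) (phiD a b f), mul_sum]
  have h1 : ∀ u w, (if a ≠ u ∧ a ≠ w ∧ b ≠ u ∧ b ≠ w ∧ u ≠ w then Th a b u w f else 0) =
      ∑ x, (if (a ≠ u ∧ a ≠ w ∧ b ≠ u ∧ b ≠ w ∧ u ≠ w) ∧ bothIn a b u w x then
        (∑ y ∈ fibT (lab a b) (sepBy a u w) x, (f y - avg (lab a b) f x)) ^ 2 /
          ((fibT (lab a b) (sepBy a u w) x).card : ℝ) else 0) /
            ((fibOf (lab a b) x).card : ℝ) := by
    intro u w
    by_cases hc : a ≠ u ∧ a ≠ w ∧ b ≠ u ∧ b ≠ w ∧ u ≠ w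
    · rw [if_pos hc, Th, theta_eq]
      refine sum_congr rfl fun x _ => ?_
      by_cases hb : bothIn a b u w x
      · rw [if_pos hb, if_pos ⟨hc, hb⟩]
      · rw [if_neg hb, if_neg (fun h => hb h.2), zero_div]
    · rw [if_neg hc]
      symm
      refine sum_eq_zero fun x _ => ?_
      rw [if_neg (fun h => hc h.1), zero_div]
  simp only [h1]
  have h2 : ∀ u, (∑ w, ∑ x, (if (a ≠ u ∧ a ≠ w ∧ b ≠ u ∧ b ≠ w ∧ u ≠ w) ∧ bothIn a b u w x then
        (∑ y ∈ fibT (lab a b) (sepBy a u w) x, (f y - avg (lab a b) f x)) ^ 2 /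
          ((fibT (lab a b) (sepBy a u w) x).card : ℝ) else 0) /
            ((fibOf (lab a b) x).card : ℝ)) =
      ∑ x, ∑ w, (if (a ≠ u ∧ a ≠ w ∧ b ≠ u ∧ b ≠ w ∧ u ≠ w) ∧ bothIn a b u w x then
        (∑ y ∈ fibT (lab a b) (sepBy a u w) x, (f y - avg (lab a b) f x)) ^ 2 /
          ((fibT (lab a b) (sepBy a u w) x).card : ℝ) else 0) /
            ((fibOf (lab a b) x).card : ℝ) := fun u => sum_comm
  simp only [h2]
  rw [sum_comm]
  refine sum_le_sum fun x _ => ?_
  simp only [← sum_div]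
  rw [avg_eq_fib (lab a b) (phiD a b f) x, ← mul_div_assoc]
  refine div_le_div_of_nonneg_right ?_ (card_fibOf_pos _ x).le
  exact fibre_th x f hab

end Vale.Agent.P335
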