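import Vale.Agent.P335.GraphCore

/-!
# P335: two disjoint vertex pairs

Fix distinct `a, b, u, w`; `τ = {a,b,u,w}`.  Joint fibre label of `G`: the cells outside both blocks,
and for `c ∉ τ` the number of edges from `c` to `{a,b}`.  Both `lab a b` and `lab u w` refine it.
On a joint fibre `Y`, the `2 × 2` pattern `B = (au, aw; bu, bw)` has a constant number `t` of ones.

Intersection count: for `y, y' ∈ Y`, `z ∈ Y` with `lab a b z = lab a b y`, `lab u w z = lab u w y'`
is determined by its pattern `B z` (each other cell lies outside one of the two blocks and is read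
from `y` or `y'`), and `z` exists iff `B z` has the row sums of `B y'` and the column sums of `B y`:
define `z` cell by cell, degrees of `a, b` are those of `y'`, of `u, w` those of `y`, of `c ∉ τ` by
the label.  So the count is the number of `2 × 2` binary matrices with these margins:
* `t ≠ 2`: it is always `1`: `twofib_commuting` gives `0 ≤ dot (prj ..) (prj ..)`;
* `t = 2`: with `t₁ := u ∈ sym. difference of N(a), N(b)` (column sums `(1,1)`), and
  `t₂ := a ∈ sym. difference of N(u), N(w)` (row sums `(1,1)`): the count is `2, 1, 1, 0`: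
  `twofib_main` applies with `sw` the switch of the alternating cycle: on `t₁ ∧ t₂` the pattern is
  `(1,0;0,1)` or `(0,1;1,0)`, i.e. `SW a b u w` or `SW a b w u`.  On `t = 2`,
  `t₁ ↔ bothIn a b u w`, `t₂ ↔ sepBy a u w ↔ bothIn u w a b`, `t₁ ↔ sepBy u a b`.
Sum over the joint fibres: the `Sq` terms and `Th` terms add up (fibres with `t ≠ 2` have no
`bothIn`, and no `SW`).  The restriction of `prj`, `theta` to a joint fibre is in `Basic`.
-/

namespace Vale.Agent.P335

open Finset

namespace QuadAux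

section Restrict

variable {Ω K L : Type*} [Fintype Ω]

/-- A filter of points of a fibre is the filter on the whole space. -/
lemma filter_fibre_map (μ : Ω → L) (ℓ : L) [Fintype {x // μ x = ℓ}] (p : Ω → Prop)
    [DecidablePred p] [DecidablePred (fun y : {x // μ x = ℓ} => p y.1)]
    (hp : ∀ y, p y → μ y = ℓ) :
    (univ.filter (fun y : {x // μ x = ℓ} => p y.1)).map (Function.Embedding.subtype _) =
      univ.filter p := by
  ext y
  simp only [Finset.mem_map, Finset.mem_filter, Finset.mem_univ, true_and,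
    Function.Embedding.coe_subtype, Subtype.exists, exists_and_right, exists_eq_right]
  constructor
  · rintro ⟨_, h⟩
    exact h
  · intro h
    exact ⟨hp y h, h⟩

open Classical in
/-- `theta` splits over the fibres of a coarser label. -/
theorem theta_restrict (κ : Ω → K) (μ : Ω → L) [DecidableEq L]
    (hμ : ∀ x y, κ x = κ y → μ x = μ y) [∀ ℓ, Fintype {x // μ x = ℓ}]
    (tA tB : Ω → Prop) (f : Ω → ℝ) :
    theta κ tA tB f = ∑ ℓ ∈ univ.image μ,
      theta (fun y : {x // μ x = ℓ} => κ y.1) (fun y => tA y.1) (fun y => tB y.1)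
        (fun y => f y.1) := by
  unfold theta
  rw [sum_by_label μ]
  refine Finset.sum_congr rfl (fun ℓ _ => Finset.sum_congr rfl (fun x _ => ?_))
  have hx := x.2
  have h1 : (univ.filter (fun y : {x // μ x = ℓ} => κ y.1 = κ x.1 ∧ tB y.1)).map
      (Function.Embedding.subtype _) = univ.filter (fun y => κ y = κ x.1 ∧ tB y) :=
    filter_fibre_map μ ℓ (fun y => κ y = κ x.1 ∧ tB y) (fun y hy => (hμ _ _ hy.1).trans hx)
  have h2 : (univ.filter (fun y : {x // μ x = ℓ} => κ y.1 = κ x.1)).map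
      (Function.Embedding.subtype _) = univ.filter (fun y => κ y = κ x.1) :=
    filter_fibre_map μ ℓ (fun y => κ y = κ x.1) (fun y hy => (hμ _ _ hy).trans hx)
  have h3 := avg_restrict κ μ hμ ℓ f x
  simp only [h3]
  rw [← h1, ← h2, Finset.sum_map, Finset.card_map, Finset.card_map]
  rfl

/-- `prj` restricts to the fibres of a coarser label. -/
lemma prj_restrict (κ : Ω → K) (μ : Ω → L) (hμ : ∀ x y, κ x = κ y → μ x = μ y) (ℓ : L)
    [Fintype {x // μ x = ℓ}] (f : Ω → ℝ) (x : {x // μ x = ℓ}) :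
    prj (fun y : {x // μ x = ℓ} => κ y.1) (fun y => f y.1) x = prj κ f x.1 := by
  simp only [prj, avg_restrict κ μ hμ ℓ f x]

/-- `theta` depends on the inner predicate only inside the fibres where the outer one holds. -/
lemma theta_congr (κ : Ω → K) (tA tB tB' : Ω → Prop)
    (h : ∀ x, tA x → ∀ y, κ y = κ x → (tB y ↔ tB' y)) (f : Ω → ℝ) :
    theta κ tA tB f = theta κ tA tB' f := by
  classical
  unfold theta
  refine Finset.sum_congr rfl (fun x _ => ?_)
  by_cases hx : tA x
  · rw [if_pos hx, if_pos hx]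
    have h1 : univ.filter (fun y => κ y = κ x ∧ tB y) = univ.filter (fun y => κ y = κ x ∧ tB' y) := by
      ext y
      simp only [Finset.mem_filter, Finset.mem_univ, true_and]
      constructor
      · rintro ⟨h2, h3⟩
        exact ⟨h2, (h x hx y h2).mp h3⟩
      · rintro ⟨h2, h3⟩
        exact ⟨h2, (h x hx y h2).mpr h3⟩
    simp only [h1]
  · rw [if_neg hx, if_neg hx]

lemma theta_eq_zero (κ : Ω → K) (tA tB : Ω → Prop) (h : ∀ x, ¬ tA x) (f : Ω → ℝ) :
    theta κ tA tB f = 0 := by
  classical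
  unfold theta
  exact Finset.sum_eq_zero (fun x _ => if_neg (h x))

end Restrict

variable {n : ℕ} {d : Fin n → ℕ}

/-- Indicator of a cell. -/
def ind (e : Sym2 (Fin n)) (E : Finset (Sym2 (Fin n))) : ℕ := if e ∈ E then 1 else 0

lemma edgeDegree_eq_nbr (E : Finset (Sym2 (Fin n))) (hE : ∀ e ∈ E, ¬ e.IsDiag) (v : Fin n) :
    edgeDegree E v = ∑ c, if c ≠ v then ind s(v, c) E else 0 := by
  have h1 : E.filter (fun e => v ∈ e) =
      (univ.filter (fun c => c ≠ v ∧ s(v, c) ∈ E)).image (fun c => s(v, c)) := by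
    ext e
    simp only [Finset.mem_filter, Finset.mem_image, Finset.mem_univ, true_and]
    constructor
    · rintro ⟨he, c, rfl⟩
      refine ⟨c, ⟨?_, he⟩, rfl⟩
      intro hc
      apply hE _ he
      rw [hc]
      simp
    · rintro ⟨c, ⟨_, he⟩, rfl⟩
      exact ⟨he, c, rfl⟩
  unfold edgeDegree
  rw [h1, Finset.card_image_of_injective, Finset.card_filter]
  · refine Finset.sum_congr rfl (fun c _ => ?_)
    by_cases hc : c = v
    · simp [hc]
    · by_cases he : s(v, c) ∈ E <;> simp [hc, he, ind]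
  · intro c c' h
    exact Sym2.congr_right.mp h

lemma sum_split_two {g : Fin n → ℕ} {x y : Fin n} (hxy : x ≠ y) :
    ∑ c, g c = g x + g y + ∑ c ∈ (univ.erase x).erase y, g c := by
  have h1 := Finset.add_sum_erase univ g (Finset.mem_univ x)
  have h2 := Finset.add_sum_erase (univ.erase x) g
    (Finset.mem_erase.mpr ⟨hxy.symm, Finset.mem_univ y⟩)
  omega

lemma sum_eq_of_two {g g' : Fin n → ℕ} {x y : Fin n} (hxy : x ≠ y)
    (h : ∀ c, c ≠ x → c ≠ y → g c = g' c) (h2 : g x + g y = g' x + g' y) :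
    ∑ c, g c = ∑ c, g' c := by
  rw [sum_split_two hxy, sum_split_two hxy, h2]
  congr 1
  refine Finset.sum_congr rfl (fun c hc => ?_)
  simp only [Finset.mem_erase, Finset.mem_univ, and_true] at hc
  exact h c hc.2 hc.1

lemma two_of_sum_eq {g g' : Fin n → ℕ} {x y : Fin n} (hxy : x ≠ y)
    (h : ∀ c, c ≠ x → c ≠ y → g c = g' c) (h2 : ∑ c, g c = ∑ c, g' c) :
    g x + g y = g' x + g' y := by
  rw [sum_split_two hxy, sum_split_two (g := g') hxy] at h2
  have h3 : ∑ c ∈ (univ.erase x).erase y, g c = ∑ c ∈ (univ.erase x).erase y, g' c := by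
    refine Finset.sum_congr rfl (fun c hc => ?_)
    simp only [Finset.mem_erase, Finset.mem_univ, and_true] at hc
    exact h c hc.2 hc.1
  omega

lemma deg_sum (G : Realizations d) (v : Fin n) :
    ∑ c, (if c ≠ v then ind s(v, c) G.1 else 0) = d v := by
  rw [← edgeDegree_eq_nbr G.1 G.2.1 v, G.2.2 v]

lemma mem_of_lab_eq {a b : Fin n} {x y : Realizations d} (h : lab a b x = lab a b y)
    {e : Sym2 (Fin n)} (he : ¬ Block a b e) : e ∈ x.1 ↔ e ∈ y.1 := by
  have h1 := Finset.ext_iff.mp h e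
  simpa [lab, he] using h1

lemma not_block_of_ne {a b v c : Fin n} (h1 : v ≠ a) (h2 : v ≠ b) (h3 : c ≠ a) (h4 : c ≠ b) :
    ¬ Block a b s(v, c) := by
  rintro ⟨h | h, _⟩
  · rcases Sym2.mem_iff.mp h with h | h
    · exact h1 h.symm
    · exact h3 h.symm
  · rcases Sym2.mem_iff.mp h with h | h
    · exact h2 h.symm
    · exact h4 h.symm

/-- The number of edges from `v` to `{a,b}` is read from the label of `(a,b)`. -/
lemma ind_sum_of_lab {a b v : Fin n} (hab : a ≠ b) (h1 : v ≠ a) (h2 : v ≠ b)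
    {x y : Realizations d} (h : lab a b x = lab a b y) :
    ind s(v, a) x.1 + ind s(v, b) x.1 = ind s(v, a) y.1 + ind s(v, b) y.1 := by
  have h3 := two_of_sum_eq (g := fun c => if c ≠ v then ind s(v, c) x.1 else 0)
    (g' := fun c => if c ≠ v then ind s(v, c) y.1 else 0) hab
    (by
      intro c hc1 hc2
      have h4 := mem_of_lab_eq h (not_block_of_ne h1 h2 hc1 hc2)
      by_cases hc : c = v
      · simp [hc]
      · simp only [ne_eq, hc, not_false_eq_true, if_true, ind, h4])
    (by rw [deg_sum, deg_sum])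
  simpa [h1.symm, h2.symm] using h3

section Quad

variable {a b u w : Fin n}

lemma cell_cases (h1 : a ≠ b) (h2 : a ≠ u) (h3 : a ≠ w) (h4 : b ≠ u) (h5 : b ≠ w) (h6 : u ≠ w)
    (e : Sym2 (Fin n)) :
    ¬ Block a b e ∨ ¬ Block u w e ∨ e = s(a, u) ∨ e = s(a, w) ∨ e = s(b, u) ∨ e = s(b, w) := by
  by_cases hA : Block a b e
  · by_cases hB : Block u w e
    · right; right
      rcases hA.1 with hA' | hA' <;> rcases hB.1 with hB' | hB'
      · exact Or.inl ((Sym2.mem_and_mem_iff h2).mp ⟨hA', hB'⟩)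
      · exact Or.inr (Or.inl ((Sym2.mem_and_mem_iff h3).mp ⟨hA', hB'⟩))
      · exact Or.inr (Or.inr (Or.inl ((Sym2.mem_and_mem_iff h4).mp ⟨hA', hB'⟩)))
      · exact Or.inr (Or.inr (Or.inr ((Sym2.mem_and_mem_iff h5).mp ⟨hA', hB'⟩)))
    · exact Or.inr (Or.inl hB)
  · exact Or.inl hA

open Classical in
/-- The joint label: the cells outside both blocks, and the number of edges from each other vertex
to `{a,b}`. -/
noncomputable def quadLab (a b u w : Fin n) (G : Realizations d) :
    Finset (Sym2 (Fin n)) × (Fin n → ℕ) :=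
  (G.1.filter (fun e => ¬ Block a b e ∧ ¬ Block u w e),
    fun c => if c ≠ a ∧ c ≠ b ∧ c ≠ u ∧ c ≠ w then ind s(c, a) G.1 + ind s(c, b) G.1 else 0)

lemma mem_of_quadLab {x y : Realizations d} (h : quadLab a b u w x = quadLab a b u w y)
    {e : Sym2 (Fin n)} (he1 : ¬ Block a b e) (he2 : ¬ Block u w e) : e ∈ x.1 ↔ e ∈ y.1 := by
  classical
  have h1 := Finset.ext_iff.mp (congrArg Prod.fst h) e
  simpa [quadLab, he1, he2] using h1

lemma ind_of_quadLab {x y : Realizations d} (h : quadLab a b u w x = quadLab a b u w y)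
    {c : Fin n} (h1 : c ≠ a) (h2 : c ≠ b) (h3 : c ≠ u) (h4 : c ≠ w) :
    ind s(c, a) x.1 + ind s(c, b) x.1 = ind s(c, a) y.1 + ind s(c, b) y.1 := by
  have h5 := congrFun (congrArg Prod.snd h) c
  simpa [quadLab, h1, h2, h3, h4] using h5

theorem quadLab_of_lab_ab (h1 : a ≠ b) {x y : Realizations d} (h : lab a b x = lab a b y) :
    quadLab a b u w x = quadLab a b u w y := by
  classical
  refine Prod.ext ?_ ?_
  · ext e
    simp only [quadLab, Finset.mem_filter]
    constructor
    · rintro ⟨he, h2, h3⟩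
      exact ⟨(mem_of_lab_eq h h2).mp he, h2, h3⟩
    · rintro ⟨he, h2, h3⟩
      exact ⟨(mem_of_lab_eq h h2).mpr he, h2, h3⟩
  · funext c
    simp only [quadLab]
    by_cases hc : c ≠ a ∧ c ≠ b ∧ c ≠ u ∧ c ≠ w
    · rw [if_pos hc, if_pos hc]
      exact ind_sum_of_lab h1 hc.1 hc.2.1 h
    · rw [if_neg hc, if_neg hc]

theorem quadLab_of_lab_uw (h2 : a ≠ u) (h3 : a ≠ w) (h4 : b ≠ u) (h5 : b ≠ w)
    {x y : Realizations d} (h : lab u w x = lab u w y) :
    quadLab a b u w x = quadLab a b u w y := by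
  classical
  refine Prod.ext ?_ ?_
  · ext e
    simp only [quadLab, Finset.mem_filter]
    constructor
    · rintro ⟨he, h6, h7⟩
      exact ⟨(mem_of_lab_eq h h7).mp he, h6, h7⟩
    · rintro ⟨he, h6, h7⟩
      exact ⟨(mem_of_lab_eq h h7).mpr he, h6, h7⟩
  · funext c
    simp only [quadLab]
    by_cases hc : c ≠ a ∧ c ≠ b ∧ c ≠ u ∧ c ≠ w
    · rw [if_pos hc, if_pos hc]
      have e1 := mem_of_lab_eq h (not_block_of_ne hc.2.2.1 hc.2.2.2 h2 h3)
      have e2 := mem_of_lab_eq h (not_block_of_ne hc.2.2.1 hc.2.2.2 h4 h5)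
      simp only [ind, e1, e2]
    · rw [if_neg hc, if_neg hc]

/-- A pattern of four cells. -/
abbrev Pat := Bool × Bool × Bool × Bool

/-- Row sums and column sums of a pattern. -/
def r1 (B : Pat) : ℕ := B.1.toNat + B.2.1.toNat
def r2 (B : Pat) : ℕ := B.2.2.1.toNat + B.2.2.2.toNat
def c1 (B : Pat) : ℕ := B.1.toNat + B.2.2.1.toNat
def c2 (B : Pat) : ℕ := B.2.1.toNat + B.2.2.2.toNat

theorem pat_count : ∀ P P' : Pat, r1 P + r2 P = r1 P' + r2 P' →
    (r1 P + r2 P ≠ 2 →
      (univ.filter (fun B : Pat => r1 B = r1 P' ∧ r2 B = r2 P' ∧ c1 B = c1 P ∧ c2 B = c2 P)).card = 1) ∧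
    (r1 P + r2 P = 2 →
      (univ.filter (fun B : Pat => r1 B = r1 P' ∧ r2 B = r2 P' ∧ c1 B = c1 P ∧ c2 B = c2 P)).card =
      if c1 P = 1 ∧ c2 P = 1 then (if r1 P' = 1 ∧ r2 P' = 1 then 2 else 1)
      else (if r1 P' = 1 ∧ r2 P' = 1 then 1 else 0)) := by
  decide

/-- The pattern of `G` in the window. -/
def pat (a b u w : Fin n) (E : Finset (Sym2 (Fin n))) : Pat :=
  (decide (s(a, u) ∈ E), decide (s(a, w) ∈ E), decide (s(b, u) ∈ E), decide (s(b, w) ∈ E))

lemma toNat_decide (e : Sym2 (Fin n)) (E : Finset (Sym2 (Fin n))) :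
    (decide (e ∈ E)).toNat = ind e E := by
  by_cases h : e ∈ E <;> simp [h, ind]

lemma r1_pat (E : Finset (Sym2 (Fin n))) : r1 (pat a b u w E) = ind s(a, u) E + ind s(a, w) E := by
  simp only [r1, pat, toNat_decide]
lemma r2_pat (E : Finset (Sym2 (Fin n))) : r2 (pat a b u w E) = ind s(b, u) E + ind s(b, w) E := by
  simp only [r2, pat, toNat_decide]
lemma c1_pat (E : Finset (Sym2 (Fin n))) : c1 (pat a b u w E) = ind s(a, u) E + ind s(b, u) E := by
  simp only [c1, pat, toNat_decide]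
lemma c2_pat (E : Finset (Sym2 (Fin n))) : c2 (pat a b u w E) = ind s(a, w) E + ind s(b, w) E := by
  simp only [c2, pat, toNat_decide]

/-- Column sums are read from the label of `(a,b)`. -/
lemma cols_of_lab (h1 : a ≠ b) (h2 : a ≠ u) (h3 : a ≠ w) (h4 : b ≠ u) (h5 : b ≠ w)
    {x y : Realizations d} (h : lab a b x = lab a b y) :
    c1 (pat a b u w x.1) = c1 (pat a b u w y.1) ∧ c2 (pat a b u w x.1) = c2 (pat a b u w y.1) := by
  have e1 := ind_sum_of_lab h1 h2.symm h4.symm h
  have e2 := ind_sum_of_lab h1 h3.symm h5.symm h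
  simp only [Sym2.eq_swap (a := u), Sym2.eq_swap (a := w)] at e1 e2
  rw [c1_pat, c1_pat, c2_pat, c2_pat]
  exact ⟨e1, e2⟩

/-- Row sums are read from the label of `(u,w)`. -/
lemma rows_of_lab (h2 : a ≠ u) (h3 : a ≠ w) (h4 : b ≠ u) (h5 : b ≠ w) (h6 : u ≠ w)
    {x y : Realizations d} (h : lab u w x = lab u w y) :
    r1 (pat a b u w x.1) = r1 (pat a b u w y.1) ∧ r2 (pat a b u w x.1) = r2 (pat a b u w y.1) := by
  have e1 := ind_sum_of_lab h6 h2 h3 h
  have e2 := ind_sum_of_lab h6 h4 h5 h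
  rw [r1_pat, r1_pat, r2_pat, r2_pat]
  exact ⟨e1, e2⟩

/-- The number of ones of the pattern is constant on a joint fibre. -/
lemma total_of_quadLab (h1 : a ≠ b) (h2 : a ≠ u) (h3 : a ≠ w) (h4 : b ≠ u) (h5 : b ≠ w) (h6 : u ≠ w)
    {x y : Realizations d} (h : quadLab a b u w x = quadLab a b u w y) :
    r1 (pat a b u w x.1) + r2 (pat a b u w x.1) = r1 (pat a b u w y.1) + r2 (pat a b u w y.1) := by
  have key := two_of_sum_eq
    (g := fun c => (if c ≠ a then ind s(a, c) x.1 else 0) + (if c ≠ b then ind s(b, c) x.1 else 0))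
    (g' := fun c => (if c ≠ a then ind s(a, c) y.1 else 0) + (if c ≠ b then ind s(b, c) y.1 else 0))
    h6
    (by
      intro c hc1 hc2
      by_cases hca : c = a
      · subst hca
        have hn1 : ¬ Block c b s(b, c) := by
          rintro ⟨_, h7⟩
          exact h7 Sym2.eq_swap
        have hn2 : ¬ Block u w s(b, c) := not_block_of_ne h4 h5 h2 h3
        have e := mem_of_quadLab h hn1 hn2
        simp [ind, e]
      by_cases hcb : c = b
      · subst hcb
        have hn1 : ¬ Block a c s(a, c) := by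
          rintro ⟨_, h7⟩
          exact h7 rfl
        have hn2 : ¬ Block u w s(a, c) := not_block_of_ne h2 h3 h4 h5
        have e := mem_of_quadLab h hn1 hn2
        simp [ind, e]
      have e := ind_of_quadLab h hca hcb hc1 hc2
      simp only [Sym2.eq_swap (a := c)] at e
      simpa [hca, hcb] using e)
    (by
      simp only [Finset.sum_add_distrib]
      rw [deg_sum, deg_sum, deg_sum, deg_sum])
  simp only [h2.symm, h3.symm, h4.symm, h5.symm, ne_eq, not_false_eq_true, if_true] at key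
  rw [r1_pat, r2_pat, r1_pat, r2_pat]
  omega

/-- A realization is determined by two labels and the pattern. -/
lemma eq_of_lab_pat (h1 : a ≠ b) (h2 : a ≠ u) (h3 : a ≠ w) (h4 : b ≠ u) (h5 : b ≠ w) (h6 : u ≠ w)
    {x y : Realizations d} (hA : lab a b x = lab a b y) (hB : lab u w x = lab u w y)
    (hP : pat a b u w x.1 = pat a b u w y.1) : x = y := by
  apply Subtype.ext
  ext e
  simp only [pat, Prod.mk.injEq, decide_eq_decide] at hP
  rcases cell_cases h1 h2 h3 h4 h5 h6 e with he | he | rfl | rfl | rfl | rfl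
  · exact mem_of_lab_eq hA he
  · exact mem_of_lab_eq hB he
  · exact hP.1
  · exact hP.2.1
  · exact hP.2.2.1
  · exact hP.2.2.2

lemma s_ne_of_not_mem {v c x y : Fin n} (h1 : x ≠ v) (h2 : x ≠ c) : s(v, c) ≠ s(x, y) := by
  rw [Ne, Sym2.eq_iff]
  rintro (⟨h, _⟩ | ⟨_, h⟩)
  · exact h1 h.symm
  · exact h2 h.symm

lemma block_left {a b c : Fin n} (h1 : a ≠ b) (h2 : c ≠ b) : Block a b s(a, c) :=
  ⟨Or.inl (by simp), fun h => by
    rcases Sym2.eq_iff.mp h with ⟨_, h⟩ | ⟨h, _⟩
    · exact h2 h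
    · exact h1 h⟩

lemma block_right {a b c : Fin n} (h1 : a ≠ b) (h2 : c ≠ a) : Block a b s(b, c) :=
  ⟨Or.inr (by simp), fun h => by
    rcases Sym2.eq_iff.mp h with ⟨h, _⟩ | ⟨_, h⟩
    · exact h1 h.symm
    · exact h2 h⟩

lemma not_win_of_ab (h1 : a ≠ b) (h2 : a ≠ u) (h3 : a ≠ w) (h4 : b ≠ u) (h5 : b ≠ w)
    {e : Sym2 (Fin n)} (hb : ¬ Block a b e) :
    e ≠ s(a, u) ∧ e ≠ s(a, w) ∧ e ≠ s(b, u) ∧ e ≠ s(b, w) := by
  refine ⟨?_, ?_, ?_, ?_⟩
  · rintro rfl; exact hb (block_left h1 h4.symm)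
  · rintro rfl; exact hb (block_left h1 h5.symm)
  · rintro rfl; exact hb (block_right h1 h2.symm)
  · rintro rfl; exact hb (block_right h1 h3.symm)

lemma not_win_of_uw (h2 : a ≠ u) (h3 : a ≠ w) (h4 : b ≠ u) (h5 : b ≠ w) (h6 : u ≠ w)
    {e : Sym2 (Fin n)} (hb : ¬ Block u w e) :
    e ≠ s(a, u) ∧ e ≠ s(a, w) ∧ e ≠ s(b, u) ∧ e ≠ s(b, w) := by
  refine ⟨?_, ?_, ?_, ?_⟩
  · rintro rfl
    rw [Sym2.eq_swap] at hb
    exact hb (block_left h6 h3)
  · rintro rfl
    rw [Sym2.eq_swap] at hb
    exact hb (block_right h6 h2)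
  · rintro rfl
    rw [Sym2.eq_swap] at hb
    exact hb (block_left h6 h5)
  · rintro rfl
    rw [Sym2.eq_swap] at hb
    exact hb (block_right h6 h4)

open Classical in
/-- The cell by cell construction: the window from `B`, the cells of the block of `(a,b)` from `x'`,
all other cells from `x`. -/
noncomputable def buildE (a b u w : Fin n) (x x' : Finset (Sym2 (Fin n))) (B : Pat) :
    Finset (Sym2 (Fin n)) :=
  univ.filter (fun e =>
    if e = s(a, u) then B.1 = true else if e = s(a, w) then B.2.1 = true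
    else if e = s(b, u) then B.2.2.1 = true else if e = s(b, w) then B.2.2.2 = true
    else if Block a b e then e ∈ x' else e ∈ x)

lemma buildE_win (h1 : a ≠ b) (h2 : a ≠ u) (h3 : a ≠ w) (h4 : b ≠ u) (h5 : b ≠ w) (h6 : u ≠ w)
    (x x' : Finset (Sym2 (Fin n))) (B : Pat) :
    pat a b u w (buildE a b u w x x' B) = B := by
  classical
  obtain ⟨b1, b2, b3, b4⟩ := B
  have n12 : s(a, w) ≠ s(a, u) := by
    rw [Ne, Sym2.congr_right]; exact h6.symm
  have n13 : s(b, u) ≠ s(a, u) := by
    rw [Ne, Sym2.congr_left]; exact h1.symm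
  have n14 : s(b, w) ≠ s(a, u) := s_ne_of_not_mem h1 h3
  have n23 : s(b, u) ≠ s(a, w) := s_ne_of_not_mem h1 h2
  have n24 : s(b, w) ≠ s(a, w) := by
    rw [Ne, Sym2.congr_left]; exact h1.symm
  have n34 : s(b, w) ≠ s(b, u) := by
    rw [Ne, Sym2.congr_right]; exact h6.symm
  simp [pat, buildE, n12, n13, n14, n23, n24, n34]

lemma read_x (h1 : a ≠ b) (h2 : a ≠ u) (h3 : a ≠ w) (h4 : b ≠ u) (h5 : b ≠ w)
    (x x' : Finset (Sym2 (Fin n))) (B : Pat) {e : Sym2 (Fin n)} (hb : ¬ Block a b e) :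
    e ∈ buildE a b u w x x' B ↔ e ∈ x := by
  classical
  obtain ⟨n1, n2, n3, n4⟩ := not_win_of_ab h1 h2 h3 h4 h5 hb
  simp [buildE, n1, n2, n3, n4, hb]

lemma read_x' (h1 : a ≠ b) (h2 : a ≠ u) (h3 : a ≠ w) (h4 : b ≠ u) (h5 : b ≠ w) (h6 : u ≠ w)
    {x x' : Realizations d} (hq : quadLab a b u w x = quadLab a b u w x') (B : Pat)
    {e : Sym2 (Fin n)} (hb : ¬ Block u w e) :
    e ∈ buildE a b u w x.1 x'.1 B ↔ e ∈ x'.1 := by
  classical
  obtain ⟨n1, n2, n3, n4⟩ := not_win_of_uw h2 h3 h4 h5 h6 hb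
  by_cases hA : Block a b e
  · simp [buildE, n1, n2, n3, n4, hA]
  · rw [read_x h1 h2 h3 h4 h5 x.1 x'.1 B hA]
    exact mem_of_quadLab hq hA hb

/-- Degree of a vertex whose cells outside `u, w` are read from `x'`. -/
lemma deg_row {E : Finset (Sym2 (Fin n))} {x' : Realizations d} {v : Fin n} (h6 : u ≠ w)
    (hv1 : v ≠ u) (hv2 : v ≠ w)
    (hx' : ∀ e, ¬ Block u w e → (e ∈ E ↔ e ∈ x'.1))
    (hs : ind s(v, u) E + ind s(v, w) E = ind s(v, u) x'.1 + ind s(v, w) x'.1) :
    ∑ c, (if c ≠ v then ind s(v, c) E else 0) = d v := by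
  rw [← deg_sum x' v]
  refine sum_eq_of_two h6 ?_ ?_
  · intro c hc1 hc2
    by_cases hc : c = v
    · simp [hc]
    · have e := hx' _ (not_block_of_ne hv1 hv2 hc1 hc2)
      simp only [ne_eq, hc, not_false_eq_true, if_true, ind, e]
  · simpa [hv1.symm, hv2.symm] using hs

/-- Degree of a vertex whose cells outside `a, b` are read from `x`. -/
lemma deg_col {E : Finset (Sym2 (Fin n))} {x : Realizations d} {v : Fin n} (h1 : a ≠ b)
    (hv1 : v ≠ a) (hv2 : v ≠ b)
    (hx : ∀ e, ¬ Block a b e → (e ∈ E ↔ e ∈ x.1))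
    (hs : ind s(v, a) E + ind s(v, b) E = ind s(v, a) x.1 + ind s(v, b) x.1) :
    ∑ c, (if c ≠ v then ind s(v, c) E else 0) = d v :=
  deg_row h1 hv1 hv2 hx hs

/-- Existence of a realization with given labels and pattern. -/
lemma exists_build (h1 : a ≠ b) (h2 : a ≠ u) (h3 : a ≠ w) (h4 : b ≠ u) (h5 : b ≠ w) (h6 : u ≠ w)
    {x x' : Realizations d} (hq : quadLab a b u w x = quadLab a b u w x') {B : Pat}
    (hr1 : r1 B = r1 (pat a b u w x'.1)) (hr2 : r2 B = r2 (pat a b u w x'.1))
    (hc1 : c1 B = c1 (pat a b u w x.1)) (hc2 : c2 B = c2 (pat a b u w x.1)) :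
    ∃ z : Realizations d, lab a b z = lab a b x ∧ lab u w z = lab u w x' ∧ pat a b u w z.1 = B := by
  classical
  set E := buildE a b u w x.1 x'.1 B with hE
  have hpat : pat a b u w E = B := buildE_win h1 h2 h3 h4 h5 h6 x.1 x'.1 B
  have hx : ∀ e, ¬ Block a b e → (e ∈ E ↔ e ∈ x.1) := fun e hb =>
    read_x h1 h2 h3 h4 h5 x.1 x'.1 B hb
  have hx' : ∀ e, ¬ Block u w e → (e ∈ E ↔ e ∈ x'.1) := fun e hb =>
    read_x' h1 h2 h3 h4 h5 h6 hq B hb
  have hr1' : ind s(a, u) E + ind s(a, w) E = ind s(a, u) x'.1 + ind s(a, w) x'.1 := by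
    rw [← r1_pat (a := a) (b := b) (u := u) (w := w), ← r1_pat (a := a) (b := b) (u := u) (w := w),
      hpat, hr1]
  have hr2' : ind s(b, u) E + ind s(b, w) E = ind s(b, u) x'.1 + ind s(b, w) x'.1 := by
    rw [← r2_pat (a := a) (b := b) (u := u) (w := w), ← r2_pat (a := a) (b := b) (u := u) (w := w),
      hpat, hr2]
  have hc1' : ind s(u, a) E + ind s(u, b) E = ind s(u, a) x.1 + ind s(u, b) x.1 := by
    simp only [Sym2.eq_swap (a := u)]
    rw [← c1_pat (a := a) (b := b) (u := u) (w := w), ← c1_pat (a := a) (b := b) (u := u) (w := w),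
      hpat, hc1]
  have hc2' : ind s(w, a) E + ind s(w, b) E = ind s(w, a) x.1 + ind s(w, b) x.1 := by
    simp only [Sym2.eq_swap (a := w)]
    rw [← c2_pat (a := a) (b := b) (u := u) (w := w), ← c2_pat (a := a) (b := b) (u := u) (w := w),
      hpat, hc2]
  -- no diagonal
  have hdiag : ∀ e ∈ E, ¬ e.IsDiag := by
    intro e he
    by_cases hA : Block a b e
    · by_cases hB : Block u w e
      · rcases cell_cases h1 h2 h3 h4 h5 h6 e with h | h | rfl | rfl | rfl | rfl
        · exact absurd hA h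
        · exact absurd hB h
        · simpa using h2
        · simpa using h3
        · simpa using h4
        · simpa using h5
      · exact x'.2.1 e ((hx' e hB).mp he)
    · exact x.2.1 e ((hx e hA).mp he)
  -- degrees
  have hdeg : ∀ v, edgeDegree E v = d v := by
    intro v
    rw [edgeDegree_eq_nbr E hdiag v]
    by_cases va : v = a
    · subst va
      exact deg_row h6 h2 h3 hx' hr1'
    by_cases vb : v = b
    · subst vb
      exact deg_row h6 h4 h5 hx' hr2'
    by_cases vu : v = u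
    · subst vu
      exact deg_col h1 h2.symm h4.symm hx hc1'
    by_cases vw : v = w
    · subst vw
      exact deg_col h1 h3.symm h5.symm hx hc2'
    · refine deg_col h1 va vb hx ?_
      have q := ind_of_quadLab hq va vb vu vw
      have e1 := hx' _ (not_block_of_ne vu vw h2 h3)
      have e2 := hx' _ (not_block_of_ne vu vw h4 h5)
      rw [q]
      simp only [ind, e1, e2]
  refine ⟨⟨E, hdiag, hdeg⟩, ?_, ?_, hpat⟩
  · ext e
    simp only [lab, Finset.mem_filter]
    constructor
    · rintro ⟨he, hb⟩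
      exact ⟨(hx e hb).mp he, hb⟩
    · rintro ⟨he, hb⟩
      exact ⟨(hx e hb).mpr he, hb⟩
  · ext e
    simp only [lab, Finset.mem_filter]
    constructor
    · rintro ⟨he, hb⟩
      exact ⟨(hx' e hb).mp he, hb⟩
    · rintro ⟨he, hb⟩
      exact ⟨(hx' e hb).mpr he, hb⟩

/-- The number of realizations with two given labels in a joint fibre. -/
lemma card_fibre (h1 : a ≠ b) (h2 : a ≠ u) (h3 : a ≠ w) (h4 : b ≠ u) (h5 : b ≠ w) (h6 : u ≠ w)
    (ℓ : Finset (Sym2 (Fin n)) × (Fin n → ℕ)) [Fintype {x : Realizations d // quadLab a b u w x = ℓ}]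
    (y y' : {x : Realizations d // quadLab a b u w x = ℓ})
    [DecidablePred (fun z : {x : Realizations d // quadLab a b u w x = ℓ} =>
      lab a b z.1 = lab a b y.1 ∧ lab u w z.1 = lab u w y'.1)] :
    (univ.filter (fun z : {x : Realizations d // quadLab a b u w x = ℓ} =>
      lab a b z.1 = lab a b y.1 ∧ lab u w z.1 = lab u w y'.1)).card =
    (univ.filter (fun B : Pat => r1 B = r1 (pat a b u w y'.1.1) ∧ r2 B = r2 (pat a b u w y'.1.1) ∧
      c1 B = c1 (pat a b u w y.1.1) ∧ c2 B = c2 (pat a b u w y.1.1))).card := by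
  refine Finset.card_bij (fun z _ => pat a b u w z.1.1) ?_ ?_ ?_
  · intro z hz
    have hz' := (Finset.mem_filter.mp hz).2
    have e1 := rows_of_lab h2 h3 h4 h5 h6 hz'.2
    have e2 := cols_of_lab h1 h2 h3 h4 h5 hz'.1
    exact Finset.mem_filter.mpr ⟨Finset.mem_univ _, e1.1, e1.2, e2.1, e2.2⟩
  · intro z hz z' hz' hP
    have hz1 := (Finset.mem_filter.mp hz).2
    have hz2 := (Finset.mem_filter.mp hz').2
    apply Subtype.ext
    exact eq_of_lab_pat h1 h2 h3 h4 h5 h6 (hz1.1.trans hz2.1.symm) (hz1.2.trans hz2.2.symm) hP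
  · intro B hB
    obtain ⟨e1, e2, e3, e4⟩ := (Finset.mem_filter.mp hB).2
    obtain ⟨z, hz1, hz2, hz3⟩ :=
      exists_build h1 h2 h3 h4 h5 h6 (y.2.trans y'.2.symm) e1 e2 e3 e4
    have hzq : quadLab a b u w z = ℓ := (quadLab_of_lab_ab h1 hz1).trans y.2
    exact ⟨⟨z, hzq⟩, Finset.mem_filter.mpr ⟨Finset.mem_univ _, hz1, hz2⟩, hz3⟩

lemma bothIn_iff (G : Realizations d) :
    bothIn a b u w G ↔ c1 (pat a b u w G.1) = 1 ∧ c2 (pat a b u w G.1) = 1 := by
  unfold bothIn
  rw [c1_pat, c2_pat]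
  by_cases p1 : s(a, u) ∈ G.1 <;> by_cases p2 : s(a, w) ∈ G.1 <;> by_cases p3 : s(b, u) ∈ G.1 <;>
    by_cases p4 : s(b, w) ∈ G.1 <;> simp [ind, p1, p2, p3, p4]

lemma bothIn_iff' (G : Realizations d) :
    bothIn u w a b G ↔ r1 (pat a b u w G.1) = 1 ∧ r2 (pat a b u w G.1) = 1 := by
  unfold bothIn
  rw [r1_pat, r2_pat]
  simp only [Sym2.eq_swap (a := u), Sym2.eq_swap (a := w)]
  by_cases p1 : s(a, u) ∈ G.1 <;> by_cases p2 : s(a, w) ∈ G.1 <;> by_cases p3 : s(b, u) ∈ G.1 <;>
    by_cases p4 : s(b, w) ∈ G.1 <;> simp [ind, p1, p2, p3, p4]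

theorem pat_total_of_cols : ∀ P : Pat, c1 P = 1 ∧ c2 P = 1 → r1 P + r2 P = 2 := by decide
theorem pat_total_of_rows : ∀ P : Pat, r1 P = 1 ∧ r2 P = 1 → r1 P + r2 P = 2 := by decide
theorem pat_sep1 : ∀ P : Pat, r1 P + r2 P = 2 → c1 P = 1 ∧ c2 P = 1 →
    ((r1 P = 1 ∧ r2 P = 1) ↔ (P.1 = true ↔ ¬ P.2.1 = true)) := by decide
theorem pat_sep2 : ∀ P : Pat, r1 P + r2 P = 2 → r1 P = 1 ∧ r2 P = 1 →
    ((c1 P = 1 ∧ c2 P = 1) ↔ (P.1 = true ↔ ¬ P.2.2.1 = true)) := by decide

lemma sepBy_iff (G : Realizations d) :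
    sepBy a u w G ↔ ((pat a b u w G.1).1 = true ↔ ¬ (pat a b u w G.1).2.1 = true) := by
  simp [sepBy, pat]

lemma sepBy_iff' (G : Realizations d) :
    sepBy u a b G ↔ ((pat a b u w G.1).1 = true ↔ ¬ (pat a b u w G.1).2.2.1 = true) := by
  simp [sepBy, pat, Sym2.eq_swap (a := u)]

lemma sw_cases (h1 : a ≠ b) (h2 : a ≠ u) (h3 : a ≠ w) (h4 : b ≠ u) (h5 : b ≠ w) (h6 : u ≠ w)
    (G : Realizations d) (h7 : bothIn a b u w G) (h8 : bothIn u w a b G) :
    SW a b u w G.1 ∨ SW a b w u G.1 := by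
  unfold bothIn at h7 h8
  simp only [Sym2.eq_swap (a := u), Sym2.eq_swap (a := w)] at h8
  by_cases p1 : s(a, u) ∈ G.1
  · left
    refine ⟨h1, h2, h3, h4, h5, h6, p1, ?_, ?_, ?_⟩ <;> tauto
  · right
    refine ⟨h1, h3, h2, h5, h4, h6.symm, ?_, ?_, p1, ?_⟩ <;> tauto

lemma sw_mem1 (G : Realizations d) (h : SW a b u w G.1) :
    bothIn a b u w G ∧ bothIn u w a b G := by
  obtain ⟨_, _, _, _, _, _, p1, p2, p3, p4⟩ := h
  unfold bothIn
  simp only [Sym2.eq_swap (a := u), Sym2.eq_swap (a := w)]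
  tauto

lemma sw_mem2 (G : Realizations d) (h : SW a b w u G.1) :
    bothIn a b u w G ∧ bothIn u w a b G := by
  obtain ⟨_, _, _, _, _, _, p1, p2, p3, p4⟩ := h
  unfold bothIn
  simp only [Sym2.eq_swap (a := u), Sym2.eq_swap (a := w)]
  tauto

lemma not_sw_of_sw (G : Realizations d) (h : SW a b u w G.1) : ¬ SW a b w u G.1 := by
  intro h'
  exact h'.2.2.2.2.2.2.2.2.1 h.2.2.2.2.2.2.1

/-- The switch also preserves the label of `(u,w)`. -/
theorem lab_swOm' (a b u w : Fin n) (G : Realizations d) :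
    lab u w (swOm a b u w G) = lab u w G := by
  classical
  unfold swOm
  split_ifs with h
  · obtain ⟨hab, hau, haw, hbu, hbw, huw, h1, h2, h3, h4⟩ := h
    have b1 : Block u w s(a, w) := by
      rw [Sym2.eq_swap]
      exact block_right huw hau
    have b2 : Block u w s(b, u) := by
      rw [Sym2.eq_swap]
      exact block_left huw hbw
    have b3 : Block u w s(a, u) := by
      rw [Sym2.eq_swap]
      exact block_left huw haw
    have b4 : Block u w s(b, w) := by
      rw [Sym2.eq_swap]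
      exact block_right huw hbu
    ext e
    simp only [lab, swE, Finset.mem_filter, Finset.mem_insert, Finset.mem_erase]
    constructor
    · rintro ⟨h | h | ⟨_, _, he⟩, hb⟩
      · exact absurd (h ▸ b1) hb
      · exact absurd (h ▸ b2) hb
      · exact ⟨he, hb⟩
    · rintro ⟨he, hb⟩
      refine ⟨Or.inr (Or.inr ⟨fun h => hb (h ▸ b4), fun h => hb (h ▸ b3), he⟩), hb⟩
  · rfl

lemma swOm_ne (G : Realizations d) (h : SW a b u w G.1) : swOm a b u w G ≠ G := by
  classical
  intro h'
  have h2 : swE a b u w G.1 = G.1 := by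
    have := congrArg Subtype.val h'
    simpa [swOm, h] using this
  obtain ⟨hab, hau, haw, hbu, hbw, huw, h3, h4, h5, h6⟩ := h
  apply h5
  rw [← h2]
  simp [swE]

open Classical in
/-- The switch of the window: the two alternating cycles are exchanged. -/
noncomputable def swQ (a b u w : Fin n) (G : Realizations d) : Realizations d :=
  if SW a b u w G.1 then swOm a b u w G else swOm a b w u G

lemma lab_swQ (a b u w : Fin n) (G : Realizations d) : lab a b (swQ a b u w G) = lab a b G := by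
  unfold swQ
  split_ifs
  · exact lab_swOm _ _ _ _ _
  · exact lab_swOm _ _ _ _ _

lemma lab_swQ' (a b u w : Fin n) (G : Realizations d) : lab u w (swQ a b u w G) = lab u w G := by
  unfold swQ
  split_ifs
  · exact lab_swOm' _ _ _ _ _
  · rw [lab_comm u w, lab_comm u w]
    exact lab_swOm' _ _ _ _ _

open Classical in
/-- The sum of the two `Sq` terms is the sum over the two alternating patterns. -/
lemma Sq_add (h1 : a ≠ b) (h2 : a ≠ u) (h3 : a ≠ w) (h4 : b ≠ u) (h5 : b ≠ w) (h6 : u ≠ w)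
    (f : Realizations d → ℝ) :
    Sq a b u w f + Sq a b w u f =
      ∑ G, if bothIn a b u w G ∧ bothIn u w a b G then (f (swQ a b u w G) - f G) ^ 2 else 0 := by
  unfold Sq
  rw [← Finset.sum_add_distrib]
  refine Finset.sum_congr rfl (fun G _ => ?_)
  by_cases hs : SW a b u w G.1
  · have hs' := not_sw_of_sw G hs
    rw [if_pos (sw_mem1 G hs)]
    have e1 : swOm a b w u G = G := by simp [swOm, hs']
    have e2 : swQ a b u w G = swOm a b u w G := by simp [swQ, hs]
    rw [e1, e2]
    simp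
  · by_cases hs' : SW a b w u G.1
    · rw [if_pos (sw_mem2 G hs')]
      have e1 : swOm a b u w G = G := by simp [swOm, hs]
      have e2 : swQ a b u w G = swOm a b w u G := by simp [swQ, hs]
      rw [e1, e2]
      simp
    · have e1 : swOm a b u w G = G := by simp [swOm, hs]
      have e2 : swOm a b w u G = G := by simp [swOm, hs']
      rw [e1, e2, if_neg]
      · simp
      · rintro ⟨h7, h8⟩
        rcases sw_cases h1 h2 h3 h4 h5 h6 G h7 h8 with h | h
        · exact hs h
        · exact hs' h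

open Classical in
/-- The bound on one joint fibre. -/
theorem fibre_bound (h1 : a ≠ b) (h2 : a ≠ u) (h3 : a ≠ w) (h4 : b ≠ u) (h5 : b ≠ w) (h6 : u ≠ w)
    (f : Realizations d → ℝ) (ℓ : Finset (Sym2 (Fin n)) × (Fin n → ℕ))
    [Fintype {x : Realizations d // quadLab a b u w x = ℓ}] :
    (1 / 4 : ℝ) * (∑ y : {x : Realizations d // quadLab a b u w x = ℓ},
        if bothIn a b u w y.1 ∧ bothIn u w a b y.1 then (f (swQ a b u w y.1) - f y.1) ^ 2 else 0)
      - (1 / 2) * theta (fun y : {x : Realizations d // quadLab a b u w x = ℓ} => lab a b y.1)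
          (fun y => bothIn a b u w y.1) (fun y => sepBy a u w y.1) (fun y => f y.1)
      - (1 / 2) * theta (fun y : {x : Realizations d // quadLab a b u w x = ℓ} => lab u w y.1)
          (fun y => bothIn u w a b y.1) (fun y => sepBy u a b y.1) (fun y => f y.1) ≤
      dot (prj (fun y : {x : Realizations d // quadLab a b u w x = ℓ} => lab a b y.1)
            (fun y => f y.1))
          (prj (fun y : {x : Realizations d // quadLab a b u w x = ℓ} => lab u w y.1)
            (fun y => f y.1)) := by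
  have htotal : ∀ y y' : {x : Realizations d // quadLab a b u w x = ℓ},
      r1 (pat a b u w y.1.1) + r2 (pat a b u w y.1.1) =
        r1 (pat a b u w y'.1.1) + r2 (pat a b u w y'.1.1) := fun y y' =>
    total_of_quadLab h1 h2 h3 h4 h5 h6 (y.2.trans y'.2.symm)
  by_cases ht : ∃ y : {x : Realizations d // quadLab a b u w x = ℓ},
      r1 (pat a b u w y.1.1) + r2 (pat a b u w y.1.1) = 2
  · obtain ⟨y₀, hy₀⟩ := ht
    have hall : ∀ y : {x : Realizations d // quadLab a b u w x = ℓ},
        r1 (pat a b u w y.1.1) + r2 (pat a b u w y.1.1) = 2 := fun y => (htotal y y₀).trans hy₀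
    have main := twofib_main
      (fun y : {x : Realizations d // quadLab a b u w x = ℓ} => lab a b y.1)
      (fun y : {x : Realizations d // quadLab a b u w x = ℓ} => lab u w y.1)
      (fun y => bothIn a b u w y.1) (fun y => bothIn u w a b y.1)
      (by
        intro y y' hyy
        simp only [bothIn_iff]
        have e := cols_of_lab h1 h2 h3 h4 h5 hyy
        rw [e.1, e.2])
      (by
        intro y y' hyy
        simp only [bothIn_iff']
        have e := rows_of_lab h2 h3 h4 h5 h6 hyy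
        rw [e.1, e.2])
      (by
        intro y y'
        have e := card_fibre (d := d) h1 h2 h3 h4 h5 h6 ℓ y y'
        have e2 := (pat_count _ _ (htotal y y')).2 (hall y)
        simp only [bothIn_iff (a := a) (b := b) (u := u) (w := w),
          bothIn_iff' (a := a) (b := b) (u := u) (w := w)]
        convert e.trans e2)
      (fun y => ⟨swQ a b u w y.1, (quadLab_of_lab_ab h1 (lab_swQ a b u w y.1)).trans y.2⟩)
      (fun y _ _ => ⟨lab_swQ a b u w y.1, lab_swQ' a b u w y.1⟩)
      (by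
        intro y h7 h8 h9
        have h10 := congrArg Subtype.val h9
        simp only at h10
        unfold swQ at h10
        split_ifs at h10 with hs
        · exact swOm_ne _ hs h10
        · rcases sw_cases h1 h2 h3 h4 h5 h6 y.1 h7 h8 with h | h
          · exact hs h
          · exact swOm_ne _ h h10)
      (fun y => f y.1)
    have c1' : theta (fun y : {x : Realizations d // quadLab a b u w x = ℓ} => lab a b y.1)
        (fun y => bothIn a b u w y.1) (fun y => sepBy a u w y.1) (fun y => f y.1) =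
      theta (fun y : {x : Realizations d // quadLab a b u w x = ℓ} => lab a b y.1)
        (fun y => bothIn a b u w y.1) (fun y => bothIn u w a b y.1) (fun y => f y.1) := by
      refine theta_congr _ _ _ _ ?_ _
      intro x hx y hy
      have e := cols_of_lab h1 h2 h3 h4 h5 hy
      have hy' : c1 (pat a b u w y.1.1) = 1 ∧ c2 (pat a b u w y.1.1) = 1 := by
        rw [e.1, e.2]
        exact (bothIn_iff x.1).mp hx
      rw [sepBy_iff (b := b) y.1, bothIn_iff' (a := a) (b := b)]
      exact (pat_sep1 _ (hall y) hy').symm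
    have c2' : theta (fun y : {x : Realizations d // quadLab a b u w x = ℓ} => lab u w y.1)
        (fun y => bothIn u w a b y.1) (fun y => sepBy u a b y.1) (fun y => f y.1) =
      theta (fun y : {x : Realizations d // quadLab a b u w x = ℓ} => lab u w y.1)
        (fun y => bothIn u w a b y.1) (fun y => bothIn a b u w y.1) (fun y => f y.1) := by
      refine theta_congr _ _ _ _ ?_ _
      intro x hx y hy
      have e := rows_of_lab h2 h3 h4 h5 h6 hy
      have hy' : r1 (pat a b u w y.1.1) = 1 ∧ r2 (pat a b u w y.1.1) = 1 := by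
        rw [e.1, e.2]
        exact (bothIn_iff' x.1).mp hx
      rw [sepBy_iff' (w := w) y.1, bothIn_iff (a := a) (b := b)]
      exact (pat_sep2 _ (hall y) hy').symm
    rw [c1', c2']
    exact main
  · have hno : ∀ y : {x : Realizations d // quadLab a b u w x = ℓ},
        r1 (pat a b u w y.1.1) + r2 (pat a b u w y.1.1) ≠ 2 := fun y hy => ht ⟨y, hy⟩
    have hn1 : ∀ y : {x : Realizations d // quadLab a b u w x = ℓ}, ¬ bothIn a b u w y.1 :=
      fun y hy => hno y (pat_total_of_cols _ ((bothIn_iff y.1).mp hy))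
    have hn2 : ∀ y : {x : Realizations d // quadLab a b u w x = ℓ}, ¬ bothIn u w a b y.1 :=
      fun y hy => hno y (pat_total_of_rows _ ((bothIn_iff' y.1).mp hy))
    rw [theta_eq_zero _ _ _ hn1, theta_eq_zero _ _ _ hn2, Finset.sum_eq_zero]
    · have := twofib_commuting
        (fun y : {x : Realizations d // quadLab a b u w x = ℓ} => lab a b y.1)
        (fun y : {x : Realizations d // quadLab a b u w x = ℓ} => lab u w y.1)
        (by
          intro y y'
          have e := card_fibre (d := d) h1 h2 h3 h4 h5 h6 ℓ y y'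
          convert e.trans ((pat_count _ _ (htotal y y')).1 (hno y)))
        (fun y => f y.1)
      simpa using this
    · intro y _
      exact if_neg (fun h => hn1 y h.1)

end Quad

end QuadAux

variable {n : ℕ} {d : Fin n → ℕ}

open QuadAux in
open Classical in
theorem disjoint_bound {a b u w : Fin n} (h1 : a ≠ b) (h2 : a ≠ u) (h3 : a ≠ w) (h4 : b ≠ u)
    (h5 : b ≠ w) (h6 : u ≠ w) (f : Realizations d → ℝ) :
    (1 / 4) * (Sq a b u w f + Sq a b w u f) - (1 / 2) * Th a b u w f - (1 / 2) * Th u w a b f ≤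
      dot (prj (lab a b) f) (prj (lab u w) f) := by
  have hμ1 : ∀ x y : Realizations d, lab a b x = lab a b y →
      quadLab a b u w x = quadLab a b u w y := fun x y h => quadLab_of_lab_ab h1 h
  have hμ2 : ∀ x y : Realizations d, lab u w x = lab u w y →
      quadLab a b u w x = quadLab a b u w y := fun x y h => quadLab_of_lab_uw h2 h3 h4 h5 h
  have eS := Sq_add h1 h2 h3 h4 h5 h6 f
  have eT1 : Th a b u w f = _ := theta_restrict (lab a b) (quadLab a b u w) hμ1
    (bothIn a b u w) (sepBy a u w) f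
  have eT2 : Th u w a b f = _ := theta_restrict (lab u w) (quadLab a b u w) hμ2
    (bothIn u w a b) (sepBy u a b) f
  have eD : dot (prj (lab a b) f) (prj (lab u w) f) =
      ∑ ℓ ∈ (univ : Finset (Realizations d)).image (quadLab a b u w),
      dot (prj (fun y : {x : Realizations d // quadLab a b u w x = ℓ} => lab a b y.1)
            (fun y => f y.1))
          (prj (fun y : {x : Realizations d // quadLab a b u w x = ℓ} => lab u w y.1)
            (fun y => f y.1)) := by
    unfold dot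
    rw [sum_by_label (quadLab a b u w)]
    refine Finset.sum_congr rfl (fun ℓ _ => Finset.sum_congr rfl (fun x _ => ?_))
    rw [prj_restrict (lab a b) _ hμ1 ℓ f x, prj_restrict (lab u w) _ hμ2 ℓ f x]
  have eS2 := sum_by_label (quadLab a b u w)
    (fun G => if bothIn a b u w G ∧ bothIn u w a b G then (f (swQ a b u w G) - f G) ^ 2 else 0)
  rw [eS, eS2, eT1, eT2, eD, Finset.mul_sum, Finset.mul_sum, Finset.mul_sum,
    ← Finset.sum_sub_distrib, ← Finset.sum_sub_distrib]
  exact Finset.sum_le_sum (fun ℓ _ => fibre_bound h1 h2 h3 h4 h5 h6 f ℓ)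

end Vale.Agent.P335
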