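import Vale.Agent.P335.Basic

/-!
# P335: the three-row lemma

`Mat r c`: three rows `S i : Finset C` with `|S i| = r i`, each column `j` lies in exactly
`c j` rows.  `E i` = average given row `i`.

`three_row_eigen`: if `(E 0 + E 1 + E 2) F = μ F`, `F ≠ 0`, then `μ ≤ 2` or `μ = 3`.

Proof (maximum principle).  Assume `μ > 2`.  Put `g i = E i F`, so `μ F = g 0 + g 1 + g 2`, `g i`
depends only on row `i`, and for `{i,k,m} = {0,1,2}`
  `(μ - 1) g i = E i (g k + g m)`.                                         (*)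
Given row `i = A`, the rows `k, m` are a uniform re-split of `𝔻(A) = S k Δ S m`; `𝔻(A)` is determined
by `A`: `j ∈ 𝔻(A)` iff (`c j = 1`, `j ∉ A`) or (`c j = 2`, `j ∈ A`).

Stage 1 (columns of equal sum).  For `c j = c l` the column swap `σ = σ_{jl}` acts on `Mat r c` and
maps the fibre `{row i = A}` onto `{row i = σ A}`, so by (*)
  `(μ-1) (g i (σ x) - g i x) = E i ( (g k + g m) ∘ σ - (g k + g m) ) x`.
If row `i` separates `j, l` then at most one other row separates them (parity of the column sums: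
`c j = c l`), and a row that does not separate has `S (σ y) = S y`.  So with `M₁` the maximum of
`|g i (σ x) - g i x|` over all `i, j, l, x` we get `(μ-1) M₁ ≤ M₁`, hence `M₁ = 0`.

Stage 2 (columns of sums 1 and 2).  `Cross i x x'`: `S i x' = insert j ((S i x).erase l)` with
`l ∈ S i x`, `j ∉ S i x`, `c l = 2`, `c j = 1`.  Let `M₂` be the maximum of `|g i x' - g i x|` over
`Cross i x x'`.  Fix a maximiser, `A = S i x`, `A' = S i x'`, `Y`, `Y'` the fibres of `A`, `A'`.
`(μ-1)(g i x' - g i x) = avg_{Y'} H - avg_Y H` with `H = g k + g m`.  Split `Y` by the owners of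
`j` and `l` in rows `k, m`:
* `j ∈ S k`, `l ∉ S k` (so `l ∈ S m`, `j ∉ S m`): `y ↦ y'` := switch rows `i, k` on `j, l` is a
  bijection onto `Y'`; `S m` is unchanged and `S k` moves along a `Cross`, so `|H y - H y'| ≤ M₂`;
* the same with `k, m` exchanged;
* `j, l ∈ S k`, `j, l ∉ S m`: for each `w ∈ S m \ S k` let `y'` be: row `i` as `A'`, row `k`:
  `-j +w`, row `m`: `-w +l`.  This is a relation between this part of `Y` and `Y'` with constant
  degrees `|S m \ S k|` and `|S' k \ S' m|`, both positive when both sets are non-empty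
  (double counting compares the two averages).  If `c w = 1` then `g k y' = g k y` by Stage 1 and
  row `m` moves along a `Cross`; if `c w = 2` then `g m y' = g m y` by Stage 1 and row `k` moves along
  a `Cross`.  So `|H y - H y'| ≤ M₂`;
* the same with `k, m` exchanged.
Therefore `|avg_{Y'} H - avg_Y H| ≤ M₂`, i.e. `(μ-1) M₂ ≤ M₂`, and `M₂ = 0`.

Stage 3.  Two matrices with the same row `i` are joined by switches of rows `k, m`; each changes
`S k` by an exchange of two columns with `c ∈ {1,2}`, so `g k` does not change (Stages 1, 2).  So `g k`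
is constant on the fibres of row `i`, and (*) reads `(μ-1) g i = g k + g m`.  Subtracting,
`μ (g i - g k) = 0`, so all `g i` are equal to one `g` and `(μ-3) g = 0`.  As `F ≠ 0`, `μ = 3`.

`three_window` follows from `eigen_window` in `Basic` with `T = E 0 + E 1 + E 2`, `a = 2`, `b = 3`,
transported along `ρ`: `(3 - T)² - (3 - T) = (3 - T)(2 - T)`.
-/

namespace Vale.Agent.P335

open Finset

set_option linter.unusedSectionVars false
set_option linter.unusedVariables false

variable {C : Type*} [Fintype C] [DecidableEq C]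

/-- A `3`-row `0`-`1` matrix with row sums `r` and column sums `c`, given by its rows. -/
def IsMat (r : Fin 3 → ℕ) (c : C → ℕ) (S : Fin 3 → Finset C) : Prop :=
  (∀ i, (S i).card = r i) ∧ ∀ j, (univ.filter (fun i => j ∈ S i)).card = c j

/-- The `3`-row matrices with margins `r`, `c`. -/
abbrev Mat (r : Fin 3 → ℕ) (c : C → ℕ) := {S : Fin 3 → Finset C // IsMat r c S}

open Classical in
noncomputable instance matFintype (r : Fin 3 → ℕ) (c : C → ℕ) : Fintype (Mat r c) :=
  Subtype.fintype _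

namespace TR

/-- Average over a finset. -/
noncomputable def avgS {α : Type*} (s : Finset α) (φ : α → ℝ) : ℝ :=
  (∑ x ∈ s, φ x) / (s.card : ℝ)

lemma max_principle {I : Type*} [Finite I] (v : I → ℝ) (a : ℝ) (ha : 1 < a)
    (h : ∀ M : ℝ, (∀ i, |v i| ≤ M) → ∀ i, a * |v i| ≤ M) : ∀ i, v i = 0 := by
  classical
  intro i0
  cases nonempty_fintype I
  obtain ⟨i1, -, hi1⟩ := Finset.exists_max_image Finset.univ (fun i => |v i|) ⟨i0, mem_univ _⟩
  have hM : ∀ i, |v i| ≤ |v i1| := fun i => hi1 i (mem_univ _)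
  have h1 := h _ hM i1
  have h0 : |v i1| ≤ 0 := by nlinarith [abs_nonneg (v i1)]
  have h2 : |v i0| ≤ 0 := (hM i0).trans h0
  exact abs_nonpos_iff.mp h2

lemma abs_avgS_sub_le {α : Type*} (s : Finset α) (hs : s.Nonempty) (φ ψ : α → ℝ) (M : ℝ)
    (h : ∀ x ∈ s, |φ x - ψ x| ≤ M) : |avgS s φ - avgS s ψ| ≤ M := by
  have hc : (0 : ℝ) < s.card := by exact_mod_cast Finset.card_pos.mpr hs
  unfold avgS
  rw [← sub_div, ← Finset.sum_sub_distrib, abs_div, abs_of_pos hc, div_le_iff₀ hc]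
  calc |∑ x ∈ s, (φ x - ψ x)| ≤ ∑ x ∈ s, |φ x - ψ x| := Finset.abs_sum_le_sum_abs _ _
    _ ≤ ∑ _x ∈ s, M := Finset.sum_le_sum h
    _ = M * s.card := by rw [Finset.sum_const, nsmul_eq_mul]; ring

/-- The biregular averaging lemma. -/
lemma biregular {α β : Type*} (P : Finset α) (Q : Finset β) (R : α → β → Prop)
    [∀ p, DecidablePred (R p)] [∀ q, DecidablePred (fun p => R p q)]
    (a b : ℕ) (ha : 0 < a) (hQ : Q.Nonempty)
    (hP : ∀ p ∈ P, (Q.filter (R p)).card = a)
    (hQ' : ∀ q ∈ Q, (P.filter (fun p => R p q)).card = b)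
    (φ : α → ℝ) (ψ : β → ℝ) (M : ℝ) (hb : ∀ p ∈ P, ∀ q ∈ Q, R p q → |φ p - ψ q| ≤ M) :
    |∑ p ∈ P, φ p - (P.card : ℝ) * avgS Q ψ| ≤ M * P.card := by
  have hQc : (0 : ℝ) < Q.card := by exact_mod_cast Finset.card_pos.mpr hQ
  have ha' : (0 : ℝ) < a := by exact_mod_cast ha
  -- double counting
  have swap : ∀ w : β → ℝ, ∑ p ∈ P, ∑ q ∈ Q.filter (R p), w q = (b : ℝ) * ∑ q ∈ Q, w q := by
    intro w
    have h1 : ∀ p ∈ P, ∑ q ∈ Q.filter (R p), w q = ∑ q ∈ Q, if R p q then w q else 0 := by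
      intro p _
      rw [Finset.sum_filter]
    rw [Finset.sum_congr rfl h1, Finset.sum_comm, Finset.mul_sum]
    refine Finset.sum_congr rfl fun q hq => ?_
    have h2 : ∑ p ∈ P, (if R p q then w q else 0) = ∑ p ∈ P.filter (fun p => R p q), w q := by
      rw [Finset.sum_filter]
    rw [h2, Finset.sum_const, hQ' q hq, nsmul_eq_mul]
  have hcount : (a : ℝ) * P.card = b * Q.card := by
    have h3 := swap (fun _ => 1)
    have h4 : ∑ p ∈ P, ∑ _q ∈ Q.filter (R p), (1 : ℝ) = (a : ℝ) * P.card := by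
      rw [Finset.sum_congr rfl (fun p hp => by rw [Finset.sum_const, hP p hp, nsmul_eq_mul]),
        Finset.sum_const, nsmul_eq_mul]
      ring
    have h5 : ∑ _q ∈ Q, (1 : ℝ) = Q.card := by simp
    rw [h4, h5] at h3
    exact h3
  have hD : ∑ p ∈ P, ∑ q ∈ Q.filter (R p), (φ p - ψ q)
      = (a : ℝ) * ∑ p ∈ P, φ p - (b : ℝ) * ∑ q ∈ Q, ψ q := by
    have h5 : ∀ p ∈ P, ∑ q ∈ Q.filter (R p), (φ p - ψ q)
        = (a : ℝ) * φ p - ∑ q ∈ Q.filter (R p), ψ q := by
      intro p hp
      rw [Finset.sum_sub_distrib, Finset.sum_const, hP p hp, nsmul_eq_mul]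
    rw [Finset.sum_congr rfl h5, Finset.sum_sub_distrib, ← Finset.mul_sum, swap]
  have hbound : |∑ p ∈ P, ∑ q ∈ Q.filter (R p), (φ p - ψ q)| ≤ (a : ℝ) * (M * P.card) := by
    calc |∑ p ∈ P, ∑ q ∈ Q.filter (R p), (φ p - ψ q)|
        ≤ ∑ p ∈ P, |∑ q ∈ Q.filter (R p), (φ p - ψ q)| := Finset.abs_sum_le_sum_abs _ _
      _ ≤ ∑ p ∈ P, ∑ q ∈ Q.filter (R p), |φ p - ψ q| :=
          Finset.sum_le_sum fun p _ => Finset.abs_sum_le_sum_abs _ _
      _ ≤ ∑ p ∈ P, ∑ _q ∈ Q.filter (R p), M := by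
          refine Finset.sum_le_sum fun p hp => Finset.sum_le_sum fun q hq => ?_
          obtain ⟨hq1, hq2⟩ := Finset.mem_filter.mp hq
          exact hb p hp q hq1 hq2
      _ = (a : ℝ) * (M * P.card) := by
          rw [Finset.sum_congr rfl (fun p hp => by rw [Finset.sum_const, hP p hp, nsmul_eq_mul]),
            Finset.sum_const, nsmul_eq_mul]
          ring
  have key : ∑ p ∈ P, φ p - (P.card : ℝ) * avgS Q ψ
      = ((a : ℝ) * ∑ p ∈ P, φ p - (b : ℝ) * ∑ q ∈ Q, ψ q) / a := by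
    rw [eq_div_iff ha'.ne']
    unfold avgS
    have hP2 : (P.card : ℝ) * ((∑ q ∈ Q, ψ q) / (Q.card : ℝ)) * a = b * ∑ q ∈ Q, ψ q := by
      field_simp
      linear_combination (∑ q ∈ Q, ψ q) * hcount
    linear_combination -hP2
  rw [key, ← hD, abs_div, abs_of_pos ha', div_le_iff₀ ha']
  linarith


/-! ### Tables -/

section tables

variable (r : Fin 3 → ℕ) (c : C → ℕ)

open Classical in
/-- The raw tables with the given margins. -/
noncomputable def tabs : Finset (Fin 3 → Finset C) := univ.filter (IsMat r c)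

lemma mem_tabs {T : Fin 3 → Finset C} : T ∈ tabs r c ↔ IsMat r c T := by
  classical
  simp [tabs]

/-- The fibre of tables with row `i` equal to `A`. -/
noncomputable def fib (i : Fin 3) (A : Finset C) : Finset (Fin 3 → Finset C) :=
  (tabs r c).filter (fun T => T i = A)

lemma mem_fib {i : Fin 3} {A : Finset C} {T : Fin 3 → Finset C} :
    T ∈ fib r c i A ↔ IsMat r c T ∧ T i = A := by
  simp [fib, mem_tabs]

/-- The average of `G` over tables with row `i` equal to `A`. -/
noncomputable def ghat (G : (Fin 3 → Finset C) → ℝ) (i : Fin 3) (A : Finset C) : ℝ :=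
  avgS (fib r c i A) G

end tables

lemma exists_others (i : Fin 3) : ∃ k m : Fin 3, i ≠ k ∧ i ≠ m ∧ k ≠ m := by
  revert i; decide

lemma fin3_cases {i k m : Fin 3} (h1 : i ≠ k) (h2 : i ≠ m) (h3 : k ≠ m) (n : Fin 3) :
    n = i ∨ n = k ∨ n = m := by
  revert i k m n; decide

lemma sum_fin3 {i k m : Fin 3} (h1 : i ≠ k) (h2 : i ≠ m) (h3 : k ≠ m) {M : Type*}
    [AddCommMonoid M] (φ : Fin 3 → M) : ∑ n, φ n = φ i + (φ k + φ m) := by
  have hu : (univ : Finset (Fin 3)) = {i, k, m} := by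
    revert i k m; decide
  rw [hu, Finset.sum_insert (by simp [h1, h2]), Finset.sum_insert (by simp [h3]),
    Finset.sum_singleton]

/-- Membership indicator. -/
def ind (z : C) (B : Finset C) : ℕ := if z ∈ B then 1 else 0

lemma col_count (S : Fin 3 → Finset C) {i k m : Fin 3} (h1 : i ≠ k) (h2 : i ≠ m) (h3 : k ≠ m)
    (z : C) : (univ.filter (fun n => z ∈ S n)).card = ind z (S i) + ind z (S k) + ind z (S m) := by
  rw [Finset.card_filter, sum_fin3 h1 h2 h3]
  simp only [ind]
  ring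

/-- A table from its three rows. -/
def tbl (i k : Fin 3) (A B D : Finset C) : Fin 3 → Finset C :=
  fun n => if n = i then A else if n = k then B else D

@[simp] lemma tbl_i (i k : Fin 3) (A B D : Finset C) : tbl i k A B D i = A := by simp [tbl]

lemma tbl_k {i k : Fin 3} (h : i ≠ k) (A B D : Finset C) : tbl i k A B D k = B := by
  simp [tbl, h.symm]

lemma tbl_m {i k m : Fin 3} (h1 : i ≠ m) (h2 : k ≠ m) (A B D : Finset C) :
    tbl i k A B D m = D := by
  simp [tbl, h1.symm, h2.symm]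

lemma tbl_eta {i k m : Fin 3} (h1 : i ≠ k) (h2 : i ≠ m) (h3 : k ≠ m) (T : Fin 3 → Finset C) :
    tbl i k (T i) (T k) (T m) = T := by
  funext n
  rcases fin3_cases h1 h2 h3 n with rfl | rfl | rfl
  · simp
  · rw [tbl_k h1]
  · rw [tbl_m h2 h3]

lemma isMat_tbl {r : Fin 3 → ℕ} {c : C → ℕ} {i k m : Fin 3} (h1 : i ≠ k) (h2 : i ≠ m) (h3 : k ≠ m)
    {A B D : Finset C} (hA : A.card = r i) (hB : B.card = r k) (hD : D.card = r m)
    (hc : ∀ z, ind z A + ind z B + ind z D = c z) : IsMat r c (tbl i k A B D) := by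
  refine ⟨fun n => ?_, fun z => ?_⟩
  · rcases fin3_cases h1 h2 h3 n with rfl | rfl | rfl
    · simpa using hA
    · rw [tbl_k h1]; exact hB
    · rw [tbl_m h2 h3]; exact hD
  · rw [col_count _ h1 h2 h3, tbl_i, tbl_k h1, tbl_m h2 h3]
    exact hc z

lemma col_sum {r : Fin 3 → ℕ} {c : C → ℕ} {T : Fin 3 → Finset C} (hT : IsMat r c T)
    {i k m : Fin 3} (h1 : i ≠ k) (h2 : i ≠ m) (h3 : k ≠ m) (z : C) :
    ind z (T i) + ind z (T k) + ind z (T m) = c z := by
  rw [← col_count T h1 h2 h3, hT.2 z]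

/-- Replace `l` by `j` in `B`. -/
def ex (B : Finset C) (l j : C) : Finset C := insert j (B.erase l)

lemma mem_ex {B : Finset C} {l j z : C} : z ∈ ex B l j ↔ z = j ∨ (z ≠ l ∧ z ∈ B) := by
  simp [ex]

lemma card_ex {B : Finset C} {l j : C} (hl : l ∈ B) (hj : j ∉ B) : (ex B l j).card = B.card := by
  have : j ∉ B.erase l := fun h => hj (Finset.mem_of_mem_erase h)
  rw [ex, Finset.card_insert_of_notMem this, Finset.card_erase_of_mem hl]
  have : 0 < B.card := Finset.card_pos.mpr ⟨l, hl⟩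
  omega

lemma ind_ex {B : Finset C} {l j z : C} :
    ind z (ex B l j) = if z = j then 1 else if z = l then 0 else ind z B := by
  unfold ind
  by_cases h1 : z = j
  · simp [h1, mem_ex]
  · by_cases h2 : z = l
    · simp [h2, mem_ex]
    · simp [h1, h2, mem_ex]

lemma ex_ex {B : Finset C} {w l : C} (hw : w ∈ B) (hl : l ∉ B) : ex (ex B w l) l w = B := by
  ext z
  simp only [mem_ex]
  have hne : w ≠ l := fun h => hl (h ▸ hw)
  constructor
  · rintro (rfl | ⟨h1, h2 | ⟨_, h3⟩⟩)
    · exact hw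
    · exact absurd h2 h1
    · exact h3
  · intro hz
    by_cases hzw : z = w
    · exact Or.inl hzw
    · have hzl : z ≠ l := fun h => hl (h ▸ hz)
      exact Or.inr ⟨hzl, Or.inr ⟨hzw, hz⟩⟩

/-- The transposition of the columns `j`, `l` acting on a row. -/
def sw (j l : C) (B : Finset C) : Finset C := B.map (Equiv.swap j l).toEmbedding

lemma mem_sw {j l z : C} {B : Finset C} : z ∈ sw j l B ↔ Equiv.swap j l z ∈ B := by
  simp [sw, Finset.mem_map_equiv, Equiv.symm_swap]

lemma card_sw (j l : C) (B : Finset C) : (sw j l B).card = B.card := by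
  simp [sw]

lemma sw_sw (j l : C) (B : Finset C) : sw j l (sw j l B) = B := by
  ext z
  simp [mem_sw]

lemma sw_eq_self {j l : C} {B : Finset C} (h : j ∈ B ↔ l ∈ B) : sw j l B = B := by
  ext z
  rw [mem_sw]
  by_cases h1 : z = j
  · subst h1; simp [h]
  · by_cases h2 : z = l
    · subst h2; simp [h]
    · rw [Equiv.swap_apply_of_ne_of_ne h1 h2]

lemma sw_eq_ex {j l : C} {B : Finset C} (hj : j ∈ B) (hl : l ∉ B) : sw j l B = ex B j l := by
  ext z
  rw [mem_sw, mem_ex]
  by_cases h1 : z = j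
  · subst h1
    simp [hl]
    intro h; exact absurd hj (by rw [h]; exact hl)
  · by_cases h2 : z = l
    · subst h2; simp [hj]
    · rw [Equiv.swap_apply_of_ne_of_ne h1 h2]
      simp [h1, h2]

/-- The transposition of the columns `j`, `l` acting on a table. -/
def act (j l : C) (T : Fin 3 → Finset C) : Fin 3 → Finset C := fun n => sw j l (T n)

lemma act_act (j l : C) (T : Fin 3 → Finset C) : act j l (act j l T) = T := by
  funext n; simp [act, sw_sw]

lemma isMat_act {r : Fin 3 → ℕ} {c : C → ℕ} {T : Fin 3 → Finset C} (hT : IsMat r c T) {j l : C}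
    (hc : c j = c l) : IsMat r c (act j l T) := by
  refine ⟨fun n => ?_, fun z => ?_⟩
  · simp only [act, card_sw]; exact hT.1 n
  · have : c (Equiv.swap j l z) = c z := by
      by_cases h1 : z = j
      · subst h1; simp [hc]
      · by_cases h2 : z = l
        · subst h2; simp [hc]
        · rw [Equiv.swap_apply_of_ne_of_ne h1 h2]
    rw [← this, ← hT.2 (Equiv.swap j l z)]
    simp only [act, mem_sw]

/-! ### The eigenfunction equation -/

section eigen

variable {r : Fin 3 → ℕ} {c : C → ℕ} {G : (Fin 3 → Finset C) → ℝ} {μ : ℝ}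

/-- Equation (*) -/
lemma eq_star (E1 : ∀ T ∈ tabs r c, ∑ n, ghat r c G n (T n) = μ * G T)
    {i k m : Fin 3} (h1 : i ≠ k) (h2 : i ≠ m) (h3 : k ≠ m) {A : Finset C}
    (hne : (fib r c i A).Nonempty) :
    (μ - 1) * ghat r c G i A
      = avgS (fib r c i A) (fun T => ghat r c G k (T k) + ghat r c G m (T m)) := by
  have hc : (0 : ℝ) < (fib r c i A).card := by exact_mod_cast Finset.card_pos.mpr hne
  have hs : ∑ T ∈ fib r c i A, (ghat r c G i A + (ghat r c G k (T k) + ghat r c G m (T m)))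
      = μ * ∑ T ∈ fib r c i A, G T := by
    rw [Finset.mul_sum]
    refine Finset.sum_congr rfl fun T hT => ?_
    obtain ⟨hT1, hT2⟩ := Finset.mem_filter.mp hT
    rw [← E1 T hT1, sum_fin3 h1 h2 h3, hT2]
  rw [Finset.sum_add_distrib, Finset.sum_const, nsmul_eq_mul] at hs
  have hg : ∑ T ∈ fib r c i A, G T = (fib r c i A).card * ghat r c G i A := by
    unfold ghat avgS
    field_simp
  unfold avgS
  rw [eq_div_iff hc.ne']
  rw [hg] at hs
  linear_combination -hs

lemma avgS_empty {α : Type*} (φ : α → ℝ) : avgS (∅ : Finset α) φ = 0 := by simp [avgS]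

/-- Stage 1, one step of the maximum principle. -/
lemma stage1_step (E1 : ∀ T ∈ tabs r c, ∑ n, ghat r c G n (T n) = μ * G T)
    (M : ℝ) (hM : ∀ i j l A, c j = c l → |ghat r c G i (sw j l A) - ghat r c G i A| ≤ M)
    (i : Fin 3) (j l : C) (A : Finset C) (hc : c j = c l) (hμ : 1 ≤ μ - 1) :
    (μ - 1) * |ghat r c G i (sw j l A) - ghat r c G i A| ≤ M := by
  have hM0 : 0 ≤ M := (abs_nonneg _).trans (hM i j l A hc)
  by_cases hsep : j ∈ A ↔ l ∈ A
  · rw [sw_eq_self hsep]; simpa using hM0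
  obtain ⟨k, m, h1, h2, h3⟩ := exists_others i
  by_cases hne : (fib r c i A).Nonempty
  · have hbij : ∀ φ : (Fin 3 → Finset C) → ℝ,
        ∑ T ∈ fib r c i (sw j l A), φ T = ∑ T ∈ fib r c i A, φ (act j l T) := by
      intro φ
      symm
      refine Finset.sum_bij' (fun T _ => act j l T) (fun T _ => act j l T) ?_ ?_ ?_ ?_ ?_
      · intro T hT
        obtain ⟨h4, h5⟩ := (mem_fib r c).mp hT
        exact (mem_fib r c).mpr ⟨isMat_act h4 hc, by simp [act, h5]⟩
      · intro T hT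
        obtain ⟨h4, h5⟩ := (mem_fib r c).mp hT
        refine (mem_fib r c).mpr ⟨isMat_act h4 hc, ?_⟩
        simp [act, h5, sw_sw]
      · intro T _; exact act_act j l T
      · intro T _; exact act_act j l T
      · intro T _; rfl
    have hcard : (fib r c i (sw j l A)).card = (fib r c i A).card := by
      have := hbij (fun _ => 1)
      simp only [Finset.sum_const, nsmul_eq_mul, mul_one] at this
      exact_mod_cast this
    have hne' : (fib r c i (sw j l A)).Nonempty := by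
      rw [← Finset.card_pos, hcard]; exact Finset.card_pos.mpr hne
    have e1 := eq_star E1 h1 h2 h3 hne
    have e2 := eq_star E1 h1 h2 h3 hne'
    have e3 : avgS (fib r c i (sw j l A)) (fun T => ghat r c G k (T k) + ghat r c G m (T m))
        = avgS (fib r c i A) (fun T => ghat r c G k (sw j l (T k)) + ghat r c G m (sw j l (T m))) := by
      unfold avgS
      rw [hbij, hcard]
      rfl
    have e4 : |avgS (fib r c i A) (fun T => ghat r c G k (sw j l (T k)) + ghat r c G m (sw j l (T m)))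
        - avgS (fib r c i A) (fun T => ghat r c G k (T k) + ghat r c G m (T m))| ≤ M := by
      refine abs_avgS_sub_le _ hne _ _ _ fun T hT => ?_
      obtain ⟨h4, h5⟩ := (mem_fib r c).mp hT
      by_cases hk : j ∈ T k ↔ l ∈ T k
      · rw [sw_eq_self hk]
        have := hM m j l (T m) hc
        simpa using this
      · by_cases hm : j ∈ T m ↔ l ∈ T m
        · rw [sw_eq_self hm]
          have := hM k j l (T k) hc
          simpa using this
        · exfalso
          have c1 := col_sum h4 h1 h2 h3 j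
          have c2 := col_sum h4 h1 h2 h3 l
          rw [h5] at c1 c2
          simp only [ind] at c1 c2
          by_cases a1 : j ∈ A <;> by_cases a2 : l ∈ A <;> by_cases a3 : j ∈ T k <;>
            by_cases a4 : l ∈ T k <;> by_cases a5 : j ∈ T m <;> by_cases a6 : l ∈ T m <;>
            simp_all <;> omega
    have e5 : (μ - 1) * (ghat r c G i (sw j l A) - ghat r c G i A)
        = avgS (fib r c i A) (fun T => ghat r c G k (sw j l (T k)) + ghat r c G m (sw j l (T m)))
          - avgS (fib r c i A) (fun T => ghat r c G k (T k) + ghat r c G m (T m)) := by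
      rw [mul_sub, e1, e2, e3]
    have hpos : 0 ≤ μ - 1 := by linarith
    have e6 : (μ - 1) * |ghat r c G i (sw j l A) - ghat r c G i A|
        = |(μ - 1) * (ghat r c G i (sw j l A) - ghat r c G i A)| := by
      rw [abs_mul, abs_of_nonneg hpos]
    rw [e6, e5]
    exact e4
  · rw [Finset.not_nonempty_iff_eq_empty] at hne
    have hne' : fib r c i (sw j l A) = ∅ := by
      rw [Finset.eq_empty_iff_forall_notMem]
      intro T hT
      obtain ⟨h4, h5⟩ := (mem_fib r c).mp hT
      have : act j l T ∈ fib r c i A := (mem_fib r c).mpr ⟨isMat_act h4 hc, by simp [act, h5, sw_sw]⟩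
      rw [hne] at this
      simp at this
    unfold ghat
    rw [hne, hne', avgS_empty]
    simpa using hM0

/-- Stage 1: invariance under swaps of columns with equal sums. -/
theorem stage1 (E1 : ∀ T ∈ tabs r c, ∑ n, ghat r c G n (T n) = μ * G T) (hμ : 2 < μ)
    (i : Fin 3) (j l : C) (A : Finset C) (hc : c j = c l) :
    ghat r c G i (sw j l A) = ghat r c G i A := by
  let I := Fin 3 × {p : C × C // c p.1 = c p.2} × Finset C
  let v : I → ℝ := fun x => ghat r c G x.1 (sw x.2.1.1.1 x.2.1.1.2 x.2.2) - ghat r c G x.1 x.2.2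
  have hv := max_principle v (μ - 1) (by linarith) (fun M hM x => by
    refine stage1_step E1 M (fun i j l A hc => ?_) x.1 x.2.1.1.1 x.2.1.1.2 x.2.2 x.2.1.2 (by linarith)
    exact hM (i, ⟨(j, l), hc⟩, A))
  have := hv (i, ⟨(j, l), hc⟩, A)
  simpa [v, sub_eq_zero] using this

/-- The data of a cross exchange in row `i`. -/
def CrossOK (r : Fin 3 → ℕ) (c : C → ℕ) (i : Fin 3) (A : Finset C) (l j : C) : Prop :=
  l ∈ A ∧ j ∉ A ∧ c l = 2 ∧ c j = 1 ∧ (fib r c i A).Nonempty ∧ (fib r c i (ex A l j)).Nonempty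

lemma bij_bound {α β : Type*} (P : Finset α) (Q : Finset β) (Φ : α → β) (Ψ : β → α)
    (hΦ : ∀ p ∈ P, Φ p ∈ Q) (hΨ : ∀ q ∈ Q, Ψ q ∈ P)
    (inv1 : ∀ p ∈ P, Ψ (Φ p) = p) (inv2 : ∀ q ∈ Q, Φ (Ψ q) = q)
    (φ : α → ℝ) (ψ : β → ℝ) (M : ℝ) (hb : ∀ p ∈ P, |φ p - ψ (Φ p)| ≤ M) :
    |∑ p ∈ P, φ p - (P.card : ℝ) * avgS Q ψ| ≤ M * P.card := by
  have hs : ∀ w : β → ℝ, ∑ q ∈ Q, w q = ∑ p ∈ P, w (Φ p) := by
    intro w
    symm
    exact Finset.sum_bij' (fun p _ => Φ p) (fun q _ => Ψ q) hΦ hΨ inv1 inv2 (fun _ _ => rfl)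
  have hcard : (Q.card : ℝ) = P.card := by
    have := hs (fun _ => 1)
    simpa using this
  by_cases hP : P.Nonempty
  · have hc : (0 : ℝ) < P.card := by exact_mod_cast Finset.card_pos.mpr hP
    have : (P.card : ℝ) * avgS Q ψ = ∑ p ∈ P, ψ (Φ p) := by
      unfold avgS
      rw [hs, hcard]
      field_simp
    rw [this, ← Finset.sum_sub_distrib]
    calc |∑ p ∈ P, (φ p - ψ (Φ p))| ≤ ∑ p ∈ P, |φ p - ψ (Φ p)| := Finset.abs_sum_le_sum_abs _ _
      _ ≤ ∑ _p ∈ P, M := Finset.sum_le_sum hb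
      _ = M * P.card := by rw [Finset.sum_const, nsmul_eq_mul]; ring
  · rw [Finset.not_nonempty_iff_eq_empty] at hP
    simp [hP]

lemma fib_card {r : Fin 3 → ℕ} {c : C → ℕ} {i : Fin 3} {A : Finset C}
    (h : (fib r c i A).Nonempty) : A.card = r i := by
  obtain ⟨T, hT⟩ := h
  obtain ⟨h1, h2⟩ := (mem_fib r c).mp hT
  rw [← h2]; exact h1.1 i

lemma ind_le (z : C) (B : Finset C) : ind z B ≤ 1 := by
  unfold ind; split_ifs <;> omega

lemma ind_eq_one {z : C} {B : Finset C} (h : z ∈ B) : ind z B = 1 := by simp [ind, h]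
lemma ind_eq_zero {z : C} {B : Finset C} (h : z ∉ B) : ind z B = 0 := by simp [ind, h]

/-- Facts about a table with a given row, for a column of sum one not in the row. -/
lemma mem_of_col_j {r : Fin 3 → ℕ} {c : C → ℕ} {T : Fin 3 → Finset C} (hT : IsMat r c T)
    {i k m : Fin 3} (h1 : i ≠ k) (h2 : i ≠ m) (h3 : k ≠ m) {j : C} (hj : j ∉ T i) (hc : c j = 1) :
    (j ∈ T k ∧ j ∉ T m) ∨ (j ∉ T k ∧ j ∈ T m) := by
  have c1 := col_sum hT h1 h2 h3 j
  rw [ind_eq_zero hj, hc] at c1
  by_cases a : j ∈ T k <;> by_cases b : j ∈ T m <;> simp_all [ind]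

lemma mem_of_col_l {r : Fin 3 → ℕ} {c : C → ℕ} {T : Fin 3 → Finset C} (hT : IsMat r c T)
    {i k m : Fin 3} (h1 : i ≠ k) (h2 : i ≠ m) (h3 : k ≠ m) {l : C} (hl : l ∈ T i) (hc : c l = 2) :
    (l ∈ T k ∧ l ∉ T m) ∨ (l ∉ T k ∧ l ∈ T m) := by
  have c1 := col_sum hT h1 h2 h3 l
  rw [ind_eq_one hl, hc] at c1
  by_cases a : l ∈ T k <;> by_cases b : l ∈ T m <;> simp_all [ind]

lemma not_mem_of_col_j' {r : Fin 3 → ℕ} {c : C → ℕ} {T : Fin 3 → Finset C} (hT : IsMat r c T)
    {i k m : Fin 3} (h1 : i ≠ k) (h2 : i ≠ m) (h3 : k ≠ m) {j : C} (hj : j ∈ T i) (hc : c j = 1) :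
    j ∉ T k ∧ j ∉ T m := by
  have c1 := col_sum hT h1 h2 h3 j
  rw [ind_eq_one hj, hc] at c1
  by_cases a : j ∈ T k <;> by_cases b : j ∈ T m <;> simp_all [ind]

lemma mem_of_col_l' {r : Fin 3 → ℕ} {c : C → ℕ} {T : Fin 3 → Finset C} (hT : IsMat r c T)
    {i k m : Fin 3} (h1 : i ≠ k) (h2 : i ≠ m) (h3 : k ≠ m) {l : C} (hl : l ∉ T i) (hc : c l = 2) :
    l ∈ T k ∧ l ∈ T m := by
  have c1 := col_sum hT h1 h2 h3 l
  rw [ind_eq_zero hl, hc] at c1
  by_cases a : l ∈ T k <;> by_cases b : l ∈ T m <;> simp_all [ind]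

/-- The exchange map for the two-row part. -/
lemma partA_bound (M : ℝ)
    (hM : ∀ i A l j, CrossOK r c i A l j → |ghat r c G i (ex A l j) - ghat r c G i A| ≤ M)
    {i k m : Fin 3} (h1 : i ≠ k) (h2 : i ≠ m) (h3 : k ≠ m) {A : Finset C} {l j : C}
    (hC : CrossOK r c i A l j) :
    |∑ T ∈ (fib r c i A).filter (fun T => j ∈ T k ∧ l ∈ T m),
        (ghat r c G k (T k) + ghat r c G m (T m))
      - (((fib r c i A).filter (fun T => j ∈ T k ∧ l ∈ T m)).card : ℝ)
        * avgS (fib r c i (ex A l j)) (fun T => ghat r c G k (T k) + ghat r c G m (T m))|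
      ≤ M * ((fib r c i A).filter (fun T => j ∈ T k ∧ l ∈ T m)).card := by
  obtain ⟨hl, hj, cl, cj, hne, hne'⟩ := hC
  have hjl : j ≠ l := fun h => hj (h ▸ hl)
  have hAc := fib_card hne
  refine bij_bound _ _ (fun T => tbl i k (ex A l j) (ex (T k) j l) (T m))
    (fun T => tbl i k A (ex (T k) l j) (T m)) ?_ ?_ ?_ ?_ _ _ _ ?_
  · intro T hT
    obtain ⟨hT1, hT2, hT3⟩ := Finset.mem_filter.mp hT
    obtain ⟨hT4, hT5⟩ := (mem_fib r c).mp hT1
    subst hT5
    have a1 := mem_of_col_j hT4 h1 h2 h3 hj cj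
    have a2 := mem_of_col_l hT4 h1 h2 h3 hl cl
    have a3 : j ∉ T m := by tauto
    have a4 : l ∉ T k := by tauto
    refine (mem_fib r c).mpr ⟨isMat_tbl h1 h2 h3 ?_ ?_ (hT4.1 m) ?_, by simp⟩
    · rw [card_ex hl hj]; exact hT4.1 i
    · rw [card_ex hT2 a4]; exact hT4.1 k
    · intro z
      have c1 := col_sum hT4 h1 h2 h3 z
      rw [ind_ex, ind_ex]
      by_cases z1 : z = j
      · subst z1
        simp [hjl, ind_eq_zero a3, cj]
      · by_cases z2 : z = l
        · subst z2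
          simp [hjl.symm, ind_eq_one hT3, cl]
        · simp only [z1, z2, if_false]
          exact c1
  · intro T hT
    obtain ⟨hT4, hT5⟩ := (mem_fib r c).mp hT
    have hj' : j ∈ T i := by rw [hT5]; exact mem_ex.mpr (Or.inl rfl)
    have hl' : l ∉ T i := by
      rw [hT5, mem_ex]
      rintro (h | ⟨h, _⟩)
      · exact hjl h.symm
      · exact h rfl
    obtain ⟨a1, a2⟩ := not_mem_of_col_j' hT4 h1 h2 h3 hj' cj
    obtain ⟨a3, a4⟩ := mem_of_col_l' hT4 h1 h2 h3 hl' cl
    refine Finset.mem_filter.mpr ⟨(mem_fib r c).mpr ⟨isMat_tbl h1 h2 h3 hAc ?_ (hT4.1 m) ?_, by simp⟩, ?_, ?_⟩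
    · rw [card_ex a3 a1]; exact hT4.1 k
    · intro z
      have c1 := col_sum hT4 h1 h2 h3 z
      rw [hT5, ind_ex] at c1
      rw [ind_ex]
      by_cases z1 : z = j
      · subst z1
        simp [ind_eq_zero hj, ind_eq_zero a2, cj]
      · by_cases z2 : z = l
        · subst z2
          simp [hjl.symm, ind_eq_one hl, ind_eq_one a4, cl]
        · simp only [z1, z2, if_false] at c1 ⊢
          exact c1
    · rw [tbl_k h1]; exact mem_ex.mpr (Or.inl rfl)
    · rw [tbl_m h2 h3]; exact a4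
  · intro T hT
    obtain ⟨hT1, hT2, hT3⟩ := Finset.mem_filter.mp hT
    obtain ⟨hT4, hT5⟩ := (mem_fib r c).mp hT1
    have a1 := mem_of_col_l hT4 h1 h2 h3 (by rw [hT5]; exact hl) cl
    have a4 : l ∉ T k := by tauto
    simp only [tbl_k h1, tbl_m h2 h3]
    rw [ex_ex hT2 a4, ← hT5, tbl_eta h1 h2 h3]
  · intro T hT
    obtain ⟨hT4, hT5⟩ := (mem_fib r c).mp hT
    have hj' : j ∈ T i := by rw [hT5]; exact mem_ex.mpr (Or.inl rfl)
    have hl' : l ∉ T i := by
      rw [hT5, mem_ex]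
      rintro (h | ⟨h, _⟩)
      · exact hjl h.symm
      · exact h rfl
    obtain ⟨a1, a2⟩ := not_mem_of_col_j' hT4 h1 h2 h3 hj' cj
    obtain ⟨a3, a4⟩ := mem_of_col_l' hT4 h1 h2 h3 hl' cl
    simp only [tbl_k h1, tbl_m h2 h3]
    rw [ex_ex a3 a1, ← hT5, tbl_eta h1 h2 h3]
  · intro T hT
    obtain ⟨hT1, hT2, hT3⟩ := Finset.mem_filter.mp hT
    obtain ⟨hT4, hT5⟩ := (mem_fib r c).mp hT1
    have a1 := mem_of_col_l hT4 h1 h2 h3 (by rw [hT5]; exact hl) cl
    have a4 : l ∉ T k := by tauto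
    simp only [tbl_k h1, tbl_m h2 h3]
    have hmem : tbl i k (ex A l j) (ex (T k) j l) (T m) ∈ fib r c i (ex A l j) := by
      have a5 := mem_of_col_j hT4 h1 h2 h3 (by rw [hT5]; exact hj) cj
      have a3 : j ∉ T m := by tauto
      refine (mem_fib r c).mpr ⟨isMat_tbl h1 h2 h3 ?_ ?_ (hT4.1 m) ?_, by simp⟩
      · rw [card_ex hl hj]; exact hAc
      · rw [card_ex hT2 a4]; exact hT4.1 k
      · intro z
        have c1 := col_sum hT4 h1 h2 h3 z
        rw [hT5] at c1
        rw [ind_ex, ind_ex]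
        by_cases z1 : z = j
        · subst z1
          simp [hjl, ind_eq_zero a3, cj]
        · by_cases z2 : z = l
          · subst z2
            simp [hjl.symm, ind_eq_one hT3, cl]
          · simp only [z1, z2, if_false]
            exact c1
    have hcross : CrossOK r c k (ex (T k) j l) l j := by
      refine ⟨mem_ex.mpr (Or.inl rfl), ?_, cl, cj, ?_, ?_⟩
      · rw [mem_ex]
        rintro (h | ⟨h, _⟩)
        · exact hjl h
        · exact h rfl
      · exact ⟨_, (mem_fib r c).mpr ⟨((mem_fib r c).mp hmem).1, tbl_k h1 _ _ _⟩⟩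
      · rw [ex_ex hT2 a4]
        exact ⟨T, (mem_fib r c).mpr ⟨hT4, rfl⟩⟩
    have := hM _ _ _ _ hcross
    rw [ex_ex hT2 a4] at this
    have e : ghat r c G k (T k) + ghat r c G m (T m)
        - (ghat r c G k (ex (T k) j l) + ghat r c G m (T m))
        = ghat r c G k (T k) - ghat r c G k (ex (T k) j l) := by ring
    rw [e]
    exact this

/-- Columns that are forced into both remaining rows once row `i` is `A`. -/
def F2 (c : C → ℕ) (A : Finset C) : Finset C := univ.filter (fun z => ind z A + 2 = c z)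

lemma inter_eq_F2 {r : Fin 3 → ℕ} {c : C → ℕ} {T : Fin 3 → Finset C} (hT : IsMat r c T)
    {i k m : Fin 3} (h1 : i ≠ k) (h2 : i ≠ m) (h3 : k ≠ m) : T m ∩ T k = F2 c (T i) := by
  ext z
  have c1 := col_sum hT h1 h2 h3 z
  simp only [Finset.mem_inter, F2, Finset.mem_filter, Finset.mem_univ, true_and]
  by_cases a : z ∈ T k <;> by_cases b : z ∈ T m <;> simp_all [ind] <;> omega

lemma card_sdiff_row {r : Fin 3 → ℕ} {c : C → ℕ} {T : Fin 3 → Finset C} (hT : IsMat r c T)
    {i k m : Fin 3} (h1 : i ≠ k) (h2 : i ≠ m) (h3 : k ≠ m) :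
    (T m \ T k).card = r m - (F2 c (T i)).card := by
  have := Finset.card_sdiff_add_card_inter (T m) (T k)
  rw [inter_eq_F2 hT h1 h2 h3, hT.1 m] at this
  omega

lemma phiw_mem {r : Fin 3 → ℕ} {c : C → ℕ} {i k m : Fin 3} (h1 : i ≠ k) (h2 : i ≠ m) (h3 : k ≠ m)
    {A : Finset C} {l j w : C} (hl : l ∈ A) (hj : j ∉ A) (cl : c l = 2) (cj : c j = 1)
    {T : Fin 3 → Finset C} (hT : T ∈ fib r c i A) (hjk : j ∈ T k) (hlk : l ∈ T k)
    (hw1 : w ∈ T m) (hw2 : w ∉ T k) :
    tbl i k (ex A l j) (ex (T k) j w) (ex (T m) w l) ∈ fib r c i (ex A l j) := by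
  obtain ⟨hT4, hT5⟩ := (mem_fib r c).mp hT
  subst hT5
  have hjl : j ≠ l := fun h => hj (h ▸ hl)
  have a1 := mem_of_col_j hT4 h1 h2 h3 hj cj
  have a2 := mem_of_col_l hT4 h1 h2 h3 hl cl
  have a3 : j ∉ T m := by tauto
  have a4 : l ∉ T m := by tauto
  have hwj : w ≠ j := fun h => hw2 (h ▸ hjk)
  have hwl : w ≠ l := fun h => hw2 (h ▸ hlk)
  refine (mem_fib r c).mpr ⟨isMat_tbl h1 h2 h3 ?_ ?_ ?_ ?_, by simp⟩
  · rw [card_ex hl hj]; exact hT4.1 i
  · rw [card_ex hjk hw2]; exact hT4.1 k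
  · rw [card_ex hw1 a4]; exact hT4.1 m
  · intro z
    have c1 := col_sum hT4 h1 h2 h3 z
    rw [ind_ex, ind_ex, ind_ex]
    by_cases z1 : z = j
    · subst z1
      simp [hwj.symm, hjl, ind_eq_zero a3, cj]
    · by_cases z2 : z = l
      · subst z2
        simp [hwl.symm, hjl.symm, ind_eq_one hlk, cl]
      · by_cases z3 : z = w
        · subst z3
          simp only [z1, z2, if_false, if_true]
          rw [← c1, ind_eq_one hw1, ind_eq_zero hw2]
        · simp only [z1, z2, z3, if_false]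
          exact c1

lemma psiw_mem {r : Fin 3 → ℕ} {c : C → ℕ} {i k m : Fin 3} (h1 : i ≠ k) (h2 : i ≠ m) (h3 : k ≠ m)
    {A : Finset C} {l j w : C} (hl : l ∈ A) (hj : j ∉ A) (cl : c l = 2) (cj : c j = 1)
    (hAc : A.card = r i) {T : Fin 3 → Finset C} (hT : T ∈ fib r c i (ex A l j))
    (hw1 : w ∈ T k) (hw2 : w ∉ T m) :
    tbl i k A (ex (T k) w j) (ex (T m) l w) ∈ fib r c i A := by
  obtain ⟨hT4, hT5⟩ := (mem_fib r c).mp hT
  have hjl : j ≠ l := fun h => hj (h ▸ hl)
  have hj' : j ∈ T i := by rw [hT5]; exact mem_ex.mpr (Or.inl rfl)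
  have hl' : l ∉ T i := by
    rw [hT5, mem_ex]
    rintro (h | ⟨h, _⟩)
    · exact hjl h.symm
    · exact h rfl
  obtain ⟨a1, a2⟩ := not_mem_of_col_j' hT4 h1 h2 h3 hj' cj
  obtain ⟨a3, a4⟩ := mem_of_col_l' hT4 h1 h2 h3 hl' cl
  have hwj : w ≠ j := fun h => a1 (h ▸ hw1)
  have hwl : w ≠ l := fun h => hw2 (h ▸ a4)
  refine (mem_fib r c).mpr ⟨isMat_tbl h1 h2 h3 hAc ?_ ?_ ?_, by simp⟩
  · rw [card_ex hw1 a1]; exact hT4.1 k
  · rw [card_ex a4 hw2]; exact hT4.1 m
  · intro z
    have c1 := col_sum hT4 h1 h2 h3 z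
    rw [hT5, ind_ex] at c1
    rw [ind_ex, ind_ex]
    by_cases z1 : z = j
    · subst z1
      simp [hwj.symm, hjl, ind_eq_zero hj, ind_eq_zero a2, cj]
    · by_cases z2 : z = l
      · subst z2
        simp [hwl.symm, hjl.symm, ind_eq_one hl, ind_eq_one a3, cl]
      · by_cases z3 : z = w
        · subst z3
          simp only [z1, z2, if_false, if_true] at c1 ⊢
          rw [← c1, ind_eq_one hw1, ind_eq_zero hw2]
        · simp only [z1, z2, z3, if_false] at c1 ⊢
          exact c1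

/-- The three-row part. -/
lemma partB_bound (M : ℝ)
    (hs1 : ∀ i j l A, c j = c l → ghat r c G i (sw j l A) = ghat r c G i A)
    (hM : ∀ i A l j, CrossOK r c i A l j → |ghat r c G i (ex A l j) - ghat r c G i A| ≤ M)
    {i k m : Fin 3} (h1 : i ≠ k) (h2 : i ≠ m) (h3 : k ≠ m) {A : Finset C} {l j : C}
    (hC : CrossOK r c i A l j) :
    |∑ T ∈ (fib r c i A).filter (fun T => j ∈ T k ∧ l ∈ T k),
        (ghat r c G k (T k) + ghat r c G m (T m))
      - (((fib r c i A).filter (fun T => j ∈ T k ∧ l ∈ T k)).card : ℝ)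
        * avgS (fib r c i (ex A l j)) (fun T => ghat r c G k (T k) + ghat r c G m (T m))|
      ≤ M * ((fib r c i A).filter (fun T => j ∈ T k ∧ l ∈ T k)).card := by
  classical
  obtain ⟨hl, hj, cl, cj, hne, hne'⟩ := hC
  have hjl : j ≠ l := fun h => hj (h ▸ hl)
  have hAc := fib_card hne
  set P := (fib r c i A).filter (fun T => j ∈ T k ∧ l ∈ T k) with hP
  by_cases hPne : P.Nonempty
  swap
  · rw [Finset.not_nonempty_iff_eq_empty] at hPne
    simp [hPne]
  set A' := ex A l j with hA'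
  let Φ : C → (Fin 3 → Finset C) → (Fin 3 → Finset C) :=
    fun w T => tbl i k A' (ex (T k) j w) (ex (T m) w l)
  let Ψ : C → (Fin 3 → Finset C) → (Fin 3 → Finset C) :=
    fun w T => tbl i k A (ex (T k) w j) (ex (T m) l w)
  have hj'A : j ∈ A' := mem_ex.mpr (Or.inl rfl)
  have hl'A : l ∉ A' := by
    rw [hA', mem_ex]
    rintro (h | ⟨h, _⟩)
    · exact hjl h.symm
    · exact h rfl
  -- the relation
  let R : (Fin 3 → Finset C) → (Fin 3 → Finset C) → Prop :=
    fun T T' => ∃ w ∈ T m \ T k, T' = Φ w T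
  have facts : ∀ T ∈ P, IsMat r c T ∧ T i = A ∧ j ∈ T k ∧ l ∈ T k ∧ j ∉ T m ∧ l ∉ T m := by
    intro T hT
    obtain ⟨hT1, hT2, hT3⟩ := Finset.mem_filter.mp hT
    obtain ⟨hT4, hT5⟩ := (mem_fib r c).mp hT1
    have a1 := mem_of_col_j hT4 h1 h2 h3 (by rw [hT5]; exact hj) cj
    have a2 := mem_of_col_l hT4 h1 h2 h3 (by rw [hT5]; exact hl) cl
    exact ⟨hT4, hT5, hT2, hT3, by tauto, by tauto⟩
  have facts' : ∀ T ∈ fib r c i A', IsMat r c T ∧ T i = A' ∧ j ∉ T k ∧ j ∉ T m ∧ l ∈ T k ∧ l ∈ T m := by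
    intro T hT
    obtain ⟨hT4, hT5⟩ := (mem_fib r c).mp hT
    obtain ⟨a1, a2⟩ := not_mem_of_col_j' hT4 h1 h2 h3 (by rw [hT5]; exact hj'A) cj
    obtain ⟨a3, a4⟩ := mem_of_col_l' hT4 h1 h2 h3 (by rw [hT5]; exact hl'A) cl
    exact ⟨hT4, hT5, a1, a2, a3, a4⟩
  have hΦmem : ∀ T ∈ P, ∀ w ∈ T m \ T k, Φ w T ∈ fib r c i A' := by
    intro T hT w hw
    obtain ⟨hT4, hT5, a1, a2, a3, a4⟩ := facts T hT
    obtain ⟨hw1, hw2⟩ := Finset.mem_sdiff.mp hw
    exact phiw_mem h1 h2 h3 hl hj cl cj (Finset.mem_filter.mp hT).1 a1 a2 hw1 hw2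
  have hΨmem : ∀ T ∈ fib r c i A', ∀ w ∈ T k \ T m, Ψ w T ∈ P := by
    intro T hT w hw
    obtain ⟨hT4, hT5, a1, a2, a3, a4⟩ := facts' T hT
    obtain ⟨hw1, hw2⟩ := Finset.mem_sdiff.mp hw
    have hwl : w ≠ l := fun h => hw2 (h ▸ a4)
    refine Finset.mem_filter.mpr ⟨psiw_mem h1 h2 h3 hl hj cl cj hAc hT hw1 hw2, ?_, ?_⟩
    · simp only [Ψ, tbl_k h1]; exact mem_ex.mpr (Or.inl rfl)
    · simp only [Ψ, tbl_k h1]; exact mem_ex.mpr (Or.inr ⟨hwl.symm, a3⟩)
  -- degrees
  have hF2lt : (F2 c A).card < r m := by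
    obtain ⟨T', hT'⟩ := hne'
    obtain ⟨hT4, hT5, a1, a2, a3, a4⟩ := facts' T' hT'
    have hsub : insert l (F2 c A) ⊆ T' m := by
      intro z hz
      rcases Finset.mem_insert.mp hz with rfl | hz
      · exact a4
      · have hzF : ind z A + 2 = c z := by simpa [F2] using hz
        have hzj : z ≠ j := by
          intro h; subst h; omega
        have hzl : z ≠ l := by
          intro h; subst h
          rw [ind_eq_one hl] at hzF; omega
        have : ind z (T' i) + 2 = c z := by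
          rw [hT5, hA', ind_ex]; simpa [hzj, hzl] using hzF
        have : z ∈ F2 c (T' i) := by simpa [F2] using this
        rw [← inter_eq_F2 hT4 h1 h2 h3] at this
        exact (Finset.mem_inter.mp this).1
    have hlF : l ∉ F2 c A := by
      simp only [F2, Finset.mem_filter, Finset.mem_univ, true_and, ind_eq_one hl, cl]
      omega
    have := Finset.card_le_card hsub
    rw [Finset.card_insert_of_notMem hlF, hT4.1 m] at this
    omega
  have hdegP : ∀ T ∈ P, ((fib r c i A').filter (R T)).card = r m - (F2 c A).card := by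
    intro T hT
    obtain ⟨hT4, hT5, a1, a2, a3, a4⟩ := facts T hT
    have : (fib r c i A').filter (R T) = (T m \ T k).image (fun w => Φ w T) := by
      ext T'
      simp only [Finset.mem_filter, Finset.mem_image, R]
      constructor
      · rintro ⟨_, w, hw, rfl⟩; exact ⟨w, hw, rfl⟩
      · rintro ⟨w, hw, rfl⟩; exact ⟨hΦmem T hT w hw, w, hw, rfl⟩
    rw [this, Finset.card_image_of_injOn, card_sdiff_row hT4 h1 h2 h3, hT5]
    intro w hw w' hw' heq
    have hw2 : w ∉ T k := (Finset.mem_sdiff.mp hw).2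
    have e : ex (T k) j w = ex (T k) j w' := by
      have := congrFun heq k
      simpa only [Φ, tbl_k h1] using this
    have : w ∈ ex (T k) j w' := by rw [← e]; exact mem_ex.mpr (Or.inl rfl)
    rcases mem_ex.mp this with h | ⟨_, h⟩
    · exact h
    · exact absurd h hw2
  have hdegQ : ∀ T' ∈ fib r c i A', (P.filter (fun p => R p T')).card = r k - (F2 c A').card := by
    intro T' hT'
    obtain ⟨hT4, hT5, a1, a2, a3, a4⟩ := facts' T' hT'
    have : P.filter (fun p => R p T') = (T' k \ T' m).image (fun w => Ψ w T') := by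
      ext T
      simp only [Finset.mem_filter, Finset.mem_image, R]
      constructor
      · rintro ⟨hT, w, hw, rfl⟩
        obtain ⟨b4, b5, b1, b2, b3, b6⟩ := facts T hT
        obtain ⟨hw1, hw2⟩ := Finset.mem_sdiff.mp hw
        have hwl : w ≠ l := fun h => hw2 (h ▸ b2)
        refine ⟨w, ?_, ?_⟩
        · refine Finset.mem_sdiff.mpr ⟨?_, ?_⟩
          · simp only [Φ, tbl_k h1]; exact mem_ex.mpr (Or.inl rfl)
          · simp only [Φ, tbl_m h2 h3]
            rw [mem_ex]
            rintro (h | ⟨h, _⟩)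
            · exact hwl h
            · exact h rfl
        · simp only [Ψ, Φ, tbl_k h1, tbl_m h2 h3]
          rw [ex_ex b1 hw2, ex_ex hw1 b6, ← b5, tbl_eta h1 h2 h3]
      · rintro ⟨w, hw, rfl⟩
        obtain ⟨hw1, hw2⟩ := Finset.mem_sdiff.mp hw
        have hmem := hΨmem T' hT' w hw
        have hwl : w ≠ l := fun h => hw2 (h ▸ a4)
        have hwj : w ≠ j := fun h => a1 (h ▸ hw1)
        refine ⟨hmem, w, ?_, ?_⟩
        · refine Finset.mem_sdiff.mpr ⟨?_, ?_⟩
          · simp only [Ψ, tbl_m h2 h3]; exact mem_ex.mpr (Or.inl rfl)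
          · simp only [Ψ, tbl_k h1]
            rw [mem_ex]
            rintro (h | ⟨h, _⟩)
            · exact hwj h
            · exact h rfl
        · simp only [Ψ, Φ, tbl_k h1, tbl_m h2 h3]
          rw [ex_ex hw1 a1, ex_ex a4 hw2, ← hT5, tbl_eta h1 h2 h3]
    rw [this, Finset.card_image_of_injOn, card_sdiff_row hT4 h2 h1 h3.symm]
    · rw [hT5]
    · intro w hw w' hw' heq
      have hw2 : w ∉ T' m := (Finset.mem_sdiff.mp hw).2
      have e : ex (T' m) l w = ex (T' m) l w' := by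
        have := congrFun heq m
        simpa only [Ψ, tbl_m h2 h3] using this
      have : w ∈ ex (T' m) l w' := by rw [← e]; exact mem_ex.mpr (Or.inl rfl)
      rcases mem_ex.mp this with h | ⟨_, h⟩
      · exact h
      · exact absurd h hw2
  refine biregular P (fib r c i A') R _ _ (by omega) hne' hdegP hdegQ _ _ M ?_
  rintro T hT T' - ⟨w, hw, rfl⟩
  obtain ⟨hT4, hT5, a1, a2, a3, a4⟩ := facts T hT
  obtain ⟨hw1, hw2⟩ := Finset.mem_sdiff.mp hw
  have hmem := hΦmem T hT w hw
  have hmemk : (fib r c k (ex (T k) j w)).Nonempty :=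
    ⟨Φ w T, (mem_fib r c).mpr ⟨((mem_fib r c).mp hmem).1, by simp only [Φ, tbl_k h1]⟩⟩
  have hmemm : (fib r c m (ex (T m) w l)).Nonempty :=
    ⟨Φ w T, (mem_fib r c).mpr ⟨((mem_fib r c).mp hmem).1, by simp only [Φ, tbl_m h2 h3]⟩⟩
  have hwj : w ≠ j := fun h => hw2 (h ▸ a1)
  have hwl : w ≠ l := fun h => hw2 (h ▸ a2)
  have col := col_sum hT4 h1 h2 h3 w
  rw [ind_eq_one hw1, ind_eq_zero hw2, hT5] at col
  simp only [Φ, tbl_k h1, tbl_m h2 h3]
  by_cases hwA : w ∈ A
  · -- column sum two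
    have cw : c w = 2 := by rw [← col, ind_eq_one hwA]
    have e1 : ghat r c G m (ex (T m) w l) = ghat r c G m (T m) := by
      rw [← sw_eq_ex hw1 a4]
      exact hs1 m w l (T m) (by rw [cw, cl])
    have hcross : CrossOK r c k (ex (T k) j w) w j := by
      refine ⟨mem_ex.mpr (Or.inl rfl), ?_, cw, cj, hmemk, ?_⟩
      · rw [mem_ex]
        rintro (h | ⟨h, _⟩)
        · exact hwj h.symm
        · exact h rfl
      · rw [ex_ex a1 hw2]
        exact ⟨T, (mem_fib r c).mpr ⟨hT4, rfl⟩⟩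
    have := hM _ _ _ _ hcross
    rw [ex_ex a1 hw2] at this
    rw [e1]
    have e : ghat r c G k (T k) + ghat r c G m (T m)
        - (ghat r c G k (ex (T k) j w) + ghat r c G m (T m))
        = ghat r c G k (T k) - ghat r c G k (ex (T k) j w) := by ring
    rw [e]
    exact this
  · -- column sum one
    have cw : c w = 1 := by rw [← col, ind_eq_zero hwA]
    have e1 : ghat r c G k (ex (T k) j w) = ghat r c G k (T k) := by
      rw [← sw_eq_ex a1 hw2]
      exact hs1 k j w (T k) (by rw [cw, cj])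
    have hcross : CrossOK r c m (ex (T m) w l) l w := by
      refine ⟨mem_ex.mpr (Or.inl rfl), ?_, cl, cw, hmemm, ?_⟩
      · rw [mem_ex]
        rintro (h | ⟨h, _⟩)
        · exact hwl h
        · exact h rfl
      · rw [ex_ex hw1 a4]
        exact ⟨T, (mem_fib r c).mpr ⟨hT4, rfl⟩⟩
    have := hM _ _ _ _ hcross
    rw [ex_ex hw1 a4] at this
    rw [e1]
    have e : ghat r c G k (T k) + ghat r c G m (T m)
        - (ghat r c G k (T k) + ghat r c G m (ex (T m) w l))
        = ghat r c G m (T m) - ghat r c G m (ex (T m) w l) := by ring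
    rw [e]
    exact this

/-- Stage 2, one step of the maximum principle. -/
lemma stage2_step (E1 : ∀ T ∈ tabs r c, ∑ n, ghat r c G n (T n) = μ * G T) (hμ : 1 ≤ μ - 1) (M : ℝ)
    (hs1 : ∀ i j l A, c j = c l → ghat r c G i (sw j l A) = ghat r c G i A)
    (hM : ∀ i A l j, CrossOK r c i A l j → |ghat r c G i (ex A l j) - ghat r c G i A| ≤ M)
    {i : Fin 3} {A : Finset C} {l j : C} (hC : CrossOK r c i A l j) :
    (μ - 1) * |ghat r c G i (ex A l j) - ghat r c G i A| ≤ M := by
  classical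
  obtain ⟨k, m, h1, h2, h3⟩ := exists_others i
  have hC' := hC
  obtain ⟨hl, hj, cl, cj, hne, hne'⟩ := hC
  have hY : (0 : ℝ) < (fib r c i A).card := by exact_mod_cast Finset.card_pos.mpr hne
  set Y := fib r c i A with hYdef
  set Q := fib r c i (ex A l j) with hQdef
  set H : (Fin 3 → Finset C) → ℝ := fun T => ghat r c G k (T k) + ghat r c G m (T m) with hH
  set c' := avgS Q H with hc'
  have e1 := eq_star E1 h1 h2 h3 hne
  have e2 := eq_star E1 h1 h2 h3 hne'
  have b1 := partA_bound M hM h1 h2 h3 hC'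
  have b2 := partA_bound M hM h2 h1 h3.symm hC'
  have b3 := partB_bound M hs1 hM h1 h2 h3 hC'
  have b4 := partB_bound M hs1 hM h2 h1 h3.symm hC'
  have hH' : (fun T : Fin 3 → Finset C => ghat r c G m (T m) + ghat r c G k (T k)) = H := by
    funext T; simp only [hH]; ring
  rw [hH'] at b2 b4
  set P1 := Y.filter (fun T => j ∈ T k ∧ l ∈ T m) with hP1
  set P2 := Y.filter (fun T => j ∈ T m ∧ l ∈ T k) with hP2
  set P3 := Y.filter (fun T => j ∈ T k ∧ l ∈ T k) with hP3
  set P4 := Y.filter (fun T => j ∈ T m ∧ l ∈ T m) with hP4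
  have hsplit : ∀ φ : (Fin 3 → Finset C) → ℝ,
      ∑ T ∈ Y, φ T = ∑ T ∈ P1, φ T + ∑ T ∈ P2, φ T + ∑ T ∈ P3, φ T + ∑ T ∈ P4, φ T := by
    intro φ
    rw [hP1, hP2, hP3, hP4, Finset.sum_filter, Finset.sum_filter, Finset.sum_filter,
      Finset.sum_filter, ← Finset.sum_add_distrib, ← Finset.sum_add_distrib,
      ← Finset.sum_add_distrib]
    refine Finset.sum_congr rfl fun T hT => ?_
    obtain ⟨hT4, hT5⟩ := (mem_fib r c).mp hT
    have a1 := mem_of_col_j hT4 h1 h2 h3 (by rw [hT5]; exact hj) cj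
    have a2 := mem_of_col_l hT4 h1 h2 h3 (by rw [hT5]; exact hl) cl
    rcases a1 with ⟨a3, a4⟩ | ⟨a3, a4⟩ <;> rcases a2 with ⟨a5, a6⟩ | ⟨a5, a6⟩ <;>
      simp [a3, a4, a5, a6]
  have hcard : (Y.card : ℝ) = P1.card + P2.card + P3.card + P4.card := by
    have := hsplit (fun _ => 1)
    simpa using this
  have hmain : |∑ T ∈ Y, H T - (Y.card : ℝ) * c'| ≤ M * Y.card := by
    rw [hsplit H, hcard]
    have e : ∑ T ∈ P1, H T + ∑ T ∈ P2, H T + ∑ T ∈ P3, H T + ∑ T ∈ P4, H T
        - ((P1.card : ℝ) + P2.card + P3.card + P4.card) * c'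
        = (∑ T ∈ P1, H T - (P1.card : ℝ) * c') + (∑ T ∈ P2, H T - (P2.card : ℝ) * c')
          + (∑ T ∈ P3, H T - (P3.card : ℝ) * c') + (∑ T ∈ P4, H T - (P4.card : ℝ) * c') := by
      ring
    rw [e]
    have t := abs_add_le ((∑ T ∈ P1, H T - (P1.card : ℝ) * c') + (∑ T ∈ P2, H T - (P2.card : ℝ) * c')
          + (∑ T ∈ P3, H T - (P3.card : ℝ) * c')) (∑ T ∈ P4, H T - (P4.card : ℝ) * c')
    have t2 := abs_add_le ((∑ T ∈ P1, H T - (P1.card : ℝ) * c') + (∑ T ∈ P2, H T - (P2.card : ℝ) * c'))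
          (∑ T ∈ P3, H T - (P3.card : ℝ) * c')
    have t3 := abs_add_le (∑ T ∈ P1, H T - (P1.card : ℝ) * c') (∑ T ∈ P2, H T - (P2.card : ℝ) * c')
    nlinarith [b1, b2, b3, b4]
  have hfinal : |avgS Y H - c'| ≤ M := by
    have : avgS Y H - c' = (∑ T ∈ Y, H T - (Y.card : ℝ) * c') / (Y.card : ℝ) := by
      unfold avgS
      field_simp
    rw [this, abs_div, abs_of_pos hY, div_le_iff₀ hY]
    exact hmain
  have hpos : 0 ≤ μ - 1 := by linarith
  have e6 : (μ - 1) * |ghat r c G i (ex A l j) - ghat r c G i A|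
      = |(μ - 1) * (ghat r c G i (ex A l j) - ghat r c G i A)| := by
    rw [abs_mul, abs_of_nonneg hpos]
  rw [e6, mul_sub, e1, e2, abs_sub_comm]
  exact hfinal

/-- Stage 2. -/
theorem stage2 (E1 : ∀ T ∈ tabs r c, ∑ n, ghat r c G n (T n) = μ * G T) (hμ : 2 < μ)
    {i : Fin 3} {A : Finset C} {l j : C} (hC : CrossOK r c i A l j) :
    ghat r c G i (ex A l j) = ghat r c G i A := by
  have hs1 : ∀ i j l A, c j = c l → ghat r c G i (sw j l A) = ghat r c G i A :=
    fun i j l A hc => stage1 E1 hμ i j l A hc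
  let I := {x : Fin 3 × Finset C × C × C // CrossOK r c x.1 x.2.1 x.2.2.1 x.2.2.2}
  let v : I → ℝ := fun x => ghat r c G x.1.1 (ex x.1.2.1 x.1.2.2.1 x.1.2.2.2) - ghat r c G x.1.1 x.1.2.1
  have hv := max_principle v (μ - 1) (by linarith) (fun M hM x => by
    refine stage2_step E1 (by linarith) M hs1 (fun i A l j hC => ?_) x.2
    exact hM ⟨(i, A, l, j), hC⟩)
  have := hv ⟨(i, A, l, j), hC⟩
  simpa [v, sub_eq_zero] using this

/-- Exchanging two columns of sums in `{1,2}` in a row does not change `ghat`, if both rows occur. -/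
lemma ghat_exchange (E1 : ∀ T ∈ tabs r c, ∑ n, ghat r c G n (T n) = μ * G T) (hμ : 2 < μ)
    {k : Fin 3} {B : Finset C} {a b : C} (ha : a ∈ B) (hb : b ∉ B)
    (ca : c a = 1 ∨ c a = 2) (cb : c b = 1 ∨ c b = 2)
    (h1 : (fib r c k B).Nonempty) (h2 : (fib r c k (ex B a b)).Nonempty) :
    ghat r c G k (ex B a b) = ghat r c G k B := by
  have hab : a ≠ b := fun h => hb (h ▸ ha)
  by_cases hc : c a = c b
  · rw [← sw_eq_ex ha hb]
    exact stage1 E1 hμ k a b B hc
  · rcases ca with ca | ca <;> rcases cb with cb | cb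
    · exact absurd (ca.trans cb.symm) hc
    · -- `b` has sum two, `a` has sum one: go back from `ex B a b`
      have hcr : CrossOK r c k (ex B a b) b a := by
        refine ⟨mem_ex.mpr (Or.inl rfl), ?_, cb, ca, h2, ?_⟩
        · rw [mem_ex]
          rintro (h | ⟨h, _⟩)
          · exact hab h
          · exact h rfl
        · rw [ex_ex ha hb]; exact h1
      have := stage2 E1 hμ hcr
      rw [ex_ex ha hb] at this
      exact this.symm
    · have hcr : CrossOK r c k B a b := ⟨ha, hb, ca, cb, h1, h2⟩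
      exact stage2 E1 hμ hcr
    · exact absurd (ca.trans cb.symm) hc

/-- Stage 3: on a fibre of row `i`, the function `ghat k` is constant. -/
theorem stage3 (E1 : ∀ T ∈ tabs r c, ∑ n, ghat r c G n (T n) = μ * G T) (hμ : 2 < μ)
    {i k m : Fin 3} (h1 : i ≠ k) (h2 : i ≠ m) (h3 : k ≠ m) {A : Finset C} :
    ∀ (n : ℕ) (T₁ T₂ : Fin 3 → Finset C), T₁ ∈ fib r c i A → T₂ ∈ fib r c i A →
      (T₁ k \ T₂ k).card = n → ghat r c G k (T₁ k) = ghat r c G k (T₂ k) := by
  intro n
  induction n with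
  | zero =>
    intro T₁ T₂ hT₁ hT₂ hn
    obtain ⟨a1, a2⟩ := (mem_fib r c).mp hT₁
    obtain ⟨b1, b2⟩ := (mem_fib r c).mp hT₂
    have hsub : T₁ k ⊆ T₂ k := by
      rw [← Finset.sdiff_eq_empty_iff_subset, ← Finset.card_eq_zero]; exact hn
    have : T₁ k = T₂ k := Finset.eq_of_subset_of_card_le hsub (by rw [a1.1 k, b1.1 k])
    rw [this]
  | succ n ih =>
    intro T₁ T₂ hT₁ hT₂ hn
    obtain ⟨a1, a2⟩ := (mem_fib r c).mp hT₁
    obtain ⟨b1, b2⟩ := (mem_fib r c).mp hT₂
    have hpos : 0 < (T₁ k \ T₂ k).card := by omega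
    obtain ⟨a, ha⟩ := Finset.card_pos.mp hpos
    obtain ⟨ha1, ha2⟩ := Finset.mem_sdiff.mp ha
    have hcards : (T₂ k \ T₁ k).card = (T₁ k \ T₂ k).card :=
      Finset.card_sdiff_comm (by rw [a1.1 k, b1.1 k])
    have hpos' : 0 < (T₂ k \ T₁ k).card := by omega
    obtain ⟨b, hb⟩ := Finset.card_pos.mp hpos'
    obtain ⟨hb1, hb2⟩ := Finset.mem_sdiff.mp hb
    have hab : a ≠ b := fun h => hb2 (h ▸ ha1)
    -- membership of `a`, `b` in row `m`
    have ca1 := col_sum a1 h1 h2 h3 a
    have ca2 := col_sum b1 h1 h2 h3 a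
    have cb1 := col_sum a1 h1 h2 h3 b
    have cb2 := col_sum b1 h1 h2 h3 b
    rw [a2] at ca1 cb1
    rw [b2] at ca2 cb2
    have ham1 : a ∉ T₁ m := by
      intro h
      rw [ind_eq_one ha1, ind_eq_one h] at ca1
      rw [ind_eq_zero ha2] at ca2
      have := ind_le a (T₂ m)
      omega
    have hbm1 : b ∈ T₁ m := by
      by_contra h
      rw [ind_eq_zero hb2, ind_eq_zero h] at cb1
      rw [ind_eq_one hb1] at cb2
      have := ind_le b (T₂ m)
      omega
    have ca : c a = 1 ∨ c a = 2 := by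
      rw [ind_eq_one ha1, ind_eq_zero ham1] at ca1
      have := ind_le a A
      omega
    have cb : c b = 1 ∨ c b = 2 := by
      rw [ind_eq_zero hb2, ind_eq_one hbm1] at cb1
      have := ind_le b A
      omega
    -- the intermediate table
    set T₃ := tbl i k A (ex (T₁ k) a b) (ex (T₁ m) b a) with hT₃
    have hT₃mem : T₃ ∈ fib r c i A := by
      refine (mem_fib r c).mpr ⟨isMat_tbl h1 h2 h3 ?_ ?_ ?_ ?_, by simp [hT₃]⟩
      · rw [← a2]; exact a1.1 i
      · rw [card_ex ha1 hb2]; exact a1.1 k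
      · rw [card_ex hbm1 ham1]; exact a1.1 m
      · intro z
        have c1 := col_sum a1 h1 h2 h3 z
        rw [a2] at c1
        rw [ind_ex, ind_ex]
        by_cases z1 : z = a
        · subst z1
          simp only [hab, if_false, if_true]
          rw [← c1, ind_eq_one ha1, ind_eq_zero ham1]
        · by_cases z2 : z = b
          · subst z2
            simp only [z1, if_false, if_true]
            rw [← c1, ind_eq_zero hb2, ind_eq_one hbm1]
          · simp only [z1, z2, if_false]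
            exact c1
    have hk3 : T₃ k = ex (T₁ k) a b := by rw [hT₃, tbl_k h1]
    have e1 : ghat r c G k (ex (T₁ k) a b) = ghat r c G k (T₁ k) :=
      ghat_exchange E1 hμ ha1 hb2 ca cb ⟨T₁, (mem_fib r c).mpr ⟨a1, rfl⟩⟩
        ⟨T₃, (mem_fib r c).mpr ⟨((mem_fib r c).mp hT₃mem).1, hk3⟩⟩
    have hcard3 : (T₃ k \ T₂ k).card = n := by
      have hsd : T₃ k \ T₂ k = (T₁ k \ T₂ k).erase a := by
        ext z
        rw [hk3]
        simp only [Finset.mem_sdiff, Finset.mem_erase, mem_ex]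
        constructor
        · rintro ⟨h | ⟨h4, h5⟩, h6⟩
          · subst h; exact absurd hb1 h6
          · exact ⟨h4, h5, h6⟩
        · rintro ⟨h4, h5, h6⟩
          exact ⟨Or.inr ⟨h4, h5⟩, h6⟩
      rw [hsd, Finset.card_erase_of_mem ha, hn]
      rfl
    rw [← e1, ← hk3]
    exact ih T₃ T₂ hT₃mem hT₂ hcard3

/-- The conclusion at the level of raw tables. -/
theorem raw_eigen (E1 : ∀ T ∈ tabs r c, ∑ n, ghat r c G n (T n) = μ * G T) (hμ : 2 < μ)
    (T : Fin 3 → Finset C) (hT : T ∈ tabs r c) : (μ - 3) * G T = 0 := by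
  have key : ∀ i : Fin 3, ghat r c G i (T i) = G T := by
    intro i
    obtain ⟨k, m, h1, h2, h3⟩ := exists_others i
    have hTm : IsMat r c T := (mem_tabs r c).mp hT
    have hne : (fib r c i (T i)).Nonempty := ⟨T, (mem_fib r c).mpr ⟨hTm, rfl⟩⟩
    have e1 := eq_star E1 h1 h2 h3 hne
    have hconst : avgS (fib r c i (T i)) (fun T' => ghat r c G k (T' k) + ghat r c G m (T' m))
        = ghat r c G k (T k) + ghat r c G m (T m) := by
      have hc : (0 : ℝ) < (fib r c i (T i)).card := by exact_mod_cast Finset.card_pos.mpr hne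
      unfold avgS
      have : ∀ T' ∈ fib r c i (T i), ghat r c G k (T' k) + ghat r c G m (T' m)
          = ghat r c G k (T k) + ghat r c G m (T m) := by
        intro T' hT'
        have hTT : T ∈ fib r c i (T i) := (mem_fib r c).mpr ⟨hTm, rfl⟩
        rw [stage3 E1 hμ h1 h2 h3 _ T' T hT' hTT rfl,
          stage3 E1 hμ h2 h1 h3.symm _ T' T hT' hTT rfl]
      rw [Finset.sum_congr rfl this, Finset.sum_const, nsmul_eq_mul]
      field_simp
    rw [hconst] at e1
    have e2 := E1 T hT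
    rw [sum_fin3 h1 h2 h3] at e2
    have hμ0 : μ ≠ 0 := by linarith
    have : μ * (ghat r c G i (T i) - G T) = 0 := by linear_combination e1 + e2
    rcases mul_eq_zero.mp this with h | h
    · exact absurd h hμ0
    · linarith
  have e2 := E1 T hT
  rw [Fin.sum_univ_three, key, key, key] at e2
  linarith

end eigen

end TR

open TR

section interface

variable {r : Fin 3 → ℕ} {c : C → ℕ}

open Classical in
/-- Extension by zero of a function on matrices to raw tables. -/
noncomputable def extF (F : Mat r c → ℝ) (T : Fin 3 → Finset C) : ℝ :=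
  if h : IsMat r c T then F ⟨T, h⟩ else 0

lemma avg_eq_ghat (F : Mat r c → ℝ) (i : Fin 3) (x : Mat r c) :
    avg (fun y : Mat r c => y.1 i) F x = ghat r c (extF F) i (x.1 i) := by
  classical
  unfold avg ghat avgS
  have hs : ∑ y ∈ univ.filter (fun y : Mat r c => y.1 i = x.1 i), F y
      = ∑ T ∈ fib r c i (x.1 i), extF F T := by
    refine Finset.sum_bij (fun y _ => y.1) ?_ ?_ ?_ ?_
    · intro y hy
      exact (mem_fib r c).mpr ⟨y.2, (Finset.mem_filter.mp hy).2⟩
    · intro y _ y' _ h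
      exact Subtype.ext h
    · intro T hT
      obtain ⟨h1, h2⟩ := (mem_fib r c).mp hT
      exact ⟨⟨T, h1⟩, Finset.mem_filter.mpr ⟨Finset.mem_univ _, h2⟩, rfl⟩
    · intro y _
      simp only [extF]
      rw [dif_pos y.2]
  have hc : (univ.filter (fun y : Mat r c => y.1 i = x.1 i)).card = (fib r c i (x.1 i)).card := by
    refine Finset.card_bij (fun y _ => y.1) ?_ ?_ ?_
    · intro y hy
      exact (mem_fib r c).mpr ⟨y.2, (Finset.mem_filter.mp hy).2⟩
    · intro y _ y' _ h
      exact Subtype.ext h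
    · intro T hT
      obtain ⟨h1, h2⟩ := (mem_fib r c).mp hT
      exact ⟨⟨T, h1⟩, Finset.mem_filter.mpr ⟨Finset.mem_univ _, h2⟩, rfl⟩
  rw [← hs, ← hc]
  congr!

theorem three_row_eigen (r : Fin 3 → ℕ) (c : C → ℕ) (F : Mat r c → ℝ) (hF : F ≠ 0) (μ : ℝ)
    (h : ∀ x, (∑ i, avg (fun y : Mat r c => y.1 i) F x) = μ * F x) : μ ≤ 2 ∨ μ = 3 := by
  by_contra hcon
  push Not at hcon
  obtain ⟨h2, h3⟩ := hcon
  have E1 : ∀ T ∈ tabs r c, ∑ n, ghat r c (extF F) n (T n) = μ * extF F T := by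
    intro T hT
    have hT' := (mem_tabs r c).mp hT
    have := h ⟨T, hT'⟩
    simp only [avg_eq_ghat] at this
    simp only [extF]
    rw [dif_pos hT']
    exact this
  apply hF
  funext x
  have := raw_eigen E1 h2 x.1 ((mem_tabs r c).mpr x.2)
  rcases mul_eq_zero.mp this with h4 | h4
  · exact absurd (by linarith) h3
  · simp only [extF] at h4
    rw [dif_pos x.2] at h4
    simpa using h4

/-- `avg` is additive and homogeneous. -/
lemma avg_add' {Y K : Type*} [Fintype Y] (κ : Y → K) (f g : Y → ℝ) :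
    avg κ (f + g) = avg κ f + avg κ g := by
  classical
  funext x
  simp only [avg, Pi.add_apply, Finset.sum_add_distrib, add_div]

lemma avg_smul' {Y K : Type*} [Fintype Y] (κ : Y → K) (a : ℝ) (f : Y → ℝ) :
    avg κ (a • f) = a • avg κ f := by
  classical
  funext x
  simp only [avg, Pi.smul_apply, smul_eq_mul, ← Finset.mul_sum, mul_div_assoc]

/-- The operator `E_0 + E_1 + E_2` as a linear map. -/
noncomputable def sumAvg {Y K : Type*} [Fintype Y] (κ : Fin 3 → Y → K) : (Y → ℝ) →ₗ[ℝ] (Y → ℝ) where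
  toFun f := fun y => ∑ i, avg (κ i) f y
  map_add' f g := by
    funext y
    simp only [avg_add', Pi.add_apply, Finset.sum_add_distrib]
  map_smul' a f := by
    funext y
    simp only [avg_smul', Pi.smul_apply, smul_eq_mul, RingHom.id_apply, Finset.mul_sum]

theorem three_window {Y K : Type*} [Fintype Y] (r : Fin 3 → ℕ) (c : C → ℕ) (ρ : Y ≃ Mat r c)
    (κ : Fin 3 → Y → K) (hκ : ∀ i y y', κ i y = κ i y' ↔ (ρ y).1 i = (ρ y').1 i) (f : Y → ℝ) :
    dot f (fun y => ∑ i, prj (κ i) f y) ≤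
      dot (fun y => ∑ i, prj (κ i) f y) (fun y => ∑ i, prj (κ i) f y) := by
  classical
  set T := sumAvg κ with hT
  have hsym : ∀ f g, dot (T f) g = dot f (T g) := by
    intro f g
    have hT1 : ∀ f : Y → ℝ, T f = avg (κ 0) f + avg (κ 1) f + avg (κ 2) f := by
      intro f
      funext y
      simp [hT, sumAvg, Fin.sum_univ_three]
    rw [hT1, hT1, dot_add_left, dot_add_left, dot_add_right, dot_add_right, dot_avg_left,
      dot_avg_left, dot_avg_left]
  have heig : ∀ (g : Y → ℝ) (μ : ℝ), g ≠ 0 → T g = μ • g → 0 ≤ (μ - 2) * (μ - 3) := by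
    intro g μ hg hgμ
    -- transport to matrices
    have hfil : ∀ (i : Fin 3) (y : Y), avg (κ i) g y = avg (fun z : Mat r c => z.1 i) (g ∘ ρ.symm) (ρ y) := by
      intro i y
      unfold avg
      have hs : ∑ z ∈ univ.filter (fun z => κ i z = κ i y), g z
          = ∑ z ∈ univ.filter (fun z : Mat r c => z.1 i = (ρ y).1 i), (g ∘ ρ.symm) z := by
        refine Finset.sum_bij' (fun z _ => ρ z) (fun z _ => ρ.symm z) ?_ ?_ ?_ ?_ ?_
        · intro z hz
          exact Finset.mem_filter.mpr ⟨Finset.mem_univ _, (hκ i z y).mp (Finset.mem_filter.mp hz).2⟩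
        · intro z hz
          refine Finset.mem_filter.mpr ⟨Finset.mem_univ _, (hκ i _ y).mpr ?_⟩
          rw [Equiv.apply_symm_apply]
          exact (Finset.mem_filter.mp hz).2
        · intro z _; simp
        · intro z _; simp
        · intro z _; simp
      have hc : (univ.filter (fun z => κ i z = κ i y)).card
          = (univ.filter (fun z : Mat r c => z.1 i = (ρ y).1 i)).card := by
        refine Finset.card_bij' (fun z _ => ρ z) (fun z _ => ρ.symm z) ?_ ?_ ?_ ?_
        · intro z hz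
          exact Finset.mem_filter.mpr ⟨Finset.mem_univ _, (hκ i z y).mp (Finset.mem_filter.mp hz).2⟩
        · intro z hz
          refine Finset.mem_filter.mpr ⟨Finset.mem_univ _, (hκ i _ y).mpr ?_⟩
          rw [Equiv.apply_symm_apply]
          exact (Finset.mem_filter.mp hz).2
        · intro z _; simp
        · intro z _; simp
      rw [hs, hc]
      congr!
    have hne : g ∘ ρ.symm ≠ 0 := by
      intro h0
      apply hg
      funext y
      have := congrFun h0 (ρ y)
      simpa using this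
    have := three_row_eigen r c (g ∘ ρ.symm) hne μ (fun x => by
      have h1 := congrFun hgμ (ρ.symm x)
      simp only [hT, sumAvg, LinearMap.coe_mk, AddHom.coe_mk, Pi.smul_apply, smul_eq_mul] at h1
      simp only [hfil, Equiv.apply_symm_apply] at h1
      simpa using h1)
    rcases this with h2 | h3
    · nlinarith
    · rw [h3]; norm_num
  have hw := eigen_window T hsym 2 3 heig f
  have hW : (fun y => ∑ i, prj (κ i) f y) = (3 : ℝ) • f - T f := by
    funext y
    simp only [prj, Finset.sum_sub_distrib, Pi.sub_apply, Pi.smul_apply, smul_eq_mul, hT, sumAvg,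
      LinearMap.coe_mk, AddHom.coe_mk]
    simp [Fin.sum_univ_three]
  rw [hW]
  have e1 : T f - (2 : ℝ) • f = -((3 : ℝ) • f - T f) + f := by
    funext y; simp; ring
  have e2 : T f - (3 : ℝ) • f = -((3 : ℝ) • f - T f) := by
    funext y; simp
  rw [e1, e2] at hw
  have e3 : ∀ u v : Y → ℝ, dot (-u + v) (-u) = dot u u - dot v u := by
    intro u v
    simp [dot, Finset.sum_neg_distrib, Finset.sum_add_distrib, add_mul, mul_neg, neg_mul]
    ring
  rw [e3] at hw
  linarith

end interface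

end Vale.Agent.P335
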