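import Vale.Agent.P335.GraphCore
import Vale.Agent.P335.ThreeRow

/-!
# P335: the window of three vertices is a `3`-row matrix problem

Fix distinct `p, q, s`, `τ = {p,q,s}`.  Fibre: all `G ∈ Ω_d` with the same cells not meeting `τ`.
Columns `C = Option (Fin n)`.  Rows: for `G` in the fibre
`S p = {some c : c ∉ τ, pc ∈ G} ∪ {none if qs ∉ G}`, `S q = {some c : c ∉ τ, qc ∈ G} ∪ {none if ps ∉ G}`,
`S s = {some c : c ∉ τ, sc ∈ G} ∪ {none if pq ∉ G}`.
The number `T` of edges of `G` inside `τ` is constant on the fibre (sum of the three degrees minus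
the column sums).  So `|S p| = d p + 1 - T`, etc. and the column sums are
`c (some v) = ` number of edges from `v` to `τ` (`0` for `v ∈ τ`), `c none = 3 - T`.
`G ↦ S` is a bijection from the fibre onto `Mat r c`: the inverse puts back the cells.
`lab q s G = lab q s G'` iff `S p G = S p G'` for `G, G'` in the fibre, and symmetrically.

Apply `three_window` on each fibre and sum over the fibres: `prj (lab _ _)` on `Ω_d` restricts to
`prj` on the fibre because `lab q s` refines the fibre label (`Basic`).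
Then `dot W W - dot f W = 2 (sum of the three cross terms)` with `W = ∑ prj`, by `dot_prj_prj`.
-/

namespace Vale.Agent.P335

open Finset

set_option linter.unusedSectionVars false
set_option linter.unusedVariables false

variable {n : ℕ} {d : Fin n → ℕ}

namespace TripleW

/-- The entry of the adjacency matrix of the edge set `E`. -/
def ent (E : Finset (Sym2 (Fin n))) (x y : Fin n) : ℕ := if s(x, y) ∈ E then 1 else 0

lemma ent_comm (E : Finset (Sym2 (Fin n))) (x y : Fin n) : ent E x y = ent E y x := by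
  unfold ent; rw [Sym2.eq_swap]

lemma ent_le (E : Finset (Sym2 (Fin n))) (x y : Fin n) : ent E x y ≤ 1 := by
  unfold ent; split_ifs <;> omega

lemma ent_self {E : Finset (Sym2 (Fin n))} (hE : ∀ e ∈ E, ¬ e.IsDiag) (x : Fin n) :
    ent E x x = 0 := by
  unfold ent
  rw [if_neg]
  intro h
  exact hE _ h (by simp)

/-- The degree as a sum of entries. -/
lemma deg_sum (E : Finset (Sym2 (Fin n))) (v : Fin n) : edgeDegree E v = ∑ u, ent E v u := by
  unfold edgeDegree ent
  rw [← Finset.card_filter]
  symm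
  refine Finset.card_bij (fun u _ => s(v, u)) ?_ ?_ ?_
  · intro u hu
    refine Finset.mem_filter.mpr ⟨(Finset.mem_filter.mp hu).2, by simp⟩
  · intro u _ u' _ h
    exact Sym2.congr_right.mp h
  · intro e he
    obtain ⟨h1, h2⟩ := Finset.mem_filter.mp he
    obtain ⟨u, rfl⟩ := Sym2.mem_iff_exists.mp h2
    exact ⟨u, Finset.mem_filter.mpr ⟨Finset.mem_univ _, h1⟩, rfl⟩

/-- The three window vertices. -/
def tau (p q s' : Fin n) : Finset (Fin n) := {p, q, s'}

lemma mem_tau {p q s' v : Fin n} : v ∈ tau p q s' ↔ v = p ∨ v = q ∨ v = s' := by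
  simp [tau]

lemma sum_tau {p q s' : Fin n} (h1 : p ≠ q) (h2 : p ≠ s') (h3 : q ≠ s') (φ : Fin n → ℕ) :
    ∑ u ∈ tau p q s', φ u = φ p + φ q + φ s' := by
  unfold tau
  rw [Finset.sum_insert (by simp [h1, h2]), Finset.sum_insert (by simp [h3]), Finset.sum_singleton]
  ring

/-- The number of neighbours of `x` outside `τ`. -/
def out (τ : Finset (Fin n)) (E : Finset (Sym2 (Fin n))) (x : Fin n) : ℕ :=
  ∑ v ∈ τᶜ, ent E x v

lemma deg_split (τ : Finset (Fin n)) (E : Finset (Sym2 (Fin n))) (v : Fin n) :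
    edgeDegree E v = out τ E v + ∑ u ∈ τ, ent E v u := by
  rw [deg_sum, out, add_comm, Finset.sum_add_sum_compl]

open Classical in
/-- A row of the window table: the neighbours of `x` outside `τ`, and the virtual column
`none` when the opposite edge `yz` is absent. -/
noncomputable def rowOf (τ : Finset (Fin n)) (x y z : Fin n) (E : Finset (Sym2 (Fin n))) :
    Finset (Option (Fin n)) :=
  univ.filter (fun c => c.elim (s(y, z) ∉ E) (fun v => v ∉ τ ∧ s(x, v) ∈ E))

lemma mem_rowOf_some {τ : Finset (Fin n)} {x y z v : Fin n} {E : Finset (Sym2 (Fin n))} :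
    some v ∈ rowOf τ x y z E ↔ v ∉ τ ∧ s(x, v) ∈ E := by
  simp [rowOf]

lemma mem_rowOf_none {τ : Finset (Fin n)} {x y z : Fin n} {E : Finset (Sym2 (Fin n))} :
    none ∈ rowOf τ x y z E ↔ s(y, z) ∉ E := by
  simp [rowOf]

lemma ind_some (τ : Finset (Fin n)) (x y z v : Fin n) (E : Finset (Sym2 (Fin n))) :
    TR.ind (some v) (rowOf τ x y z E) = if v ∈ τ then 0 else ent E x v := by
  unfold TR.ind ent
  by_cases h : v ∈ τ <;> simp [mem_rowOf_some, h]

lemma ind_none (τ : Finset (Fin n)) (x y z : Fin n) (E : Finset (Sym2 (Fin n))) :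
    TR.ind none (rowOf τ x y z E) = 1 - ent E y z := by
  unfold TR.ind ent
  by_cases h : s(y, z) ∈ E <;> simp [mem_rowOf_none, h]

lemma card_rowOf (τ : Finset (Fin n)) (x y z : Fin n) (E : Finset (Sym2 (Fin n))) :
    (rowOf τ x y z E).card = out τ E x + (1 - ent E y z) := by
  have h1 : (rowOf τ x y z E).card = ∑ c : Option (Fin n), TR.ind c (rowOf τ x y z E) := by
    unfold TR.ind
    rw [← Finset.card_filter]
    congr 1
    ext c; simp
  rw [h1, Fintype.sum_option, ind_none, add_comm]
  congr 1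
  unfold out
  rw [← Finset.sum_filter_add_sum_filter_not univ (fun v => v ∈ τ)]
  have h2 : ∑ v ∈ univ.filter (fun v => v ∈ τ), TR.ind (some v) (rowOf τ x y z E) = 0 := by
    refine Finset.sum_eq_zero fun v hv => ?_
    rw [ind_some, if_pos (Finset.mem_filter.mp hv).2]
  have h3 : univ.filter (fun v => v ∉ τ) = τᶜ := by
    ext v; simp
  rw [h2, zero_add, h3]
  refine Finset.sum_congr rfl fun v hv => ?_
  rw [ind_some, if_neg (Finset.mem_compl.mp hv)]

/-- The three rows of the window. -/
noncomputable def rows (p q s' : Fin n) (E : Finset (Sym2 (Fin n))) :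
    Fin 3 → Finset (Option (Fin n)) :=
  ![rowOf (tau p q s') p q s' E, rowOf (tau p q s') q p s' E, rowOf (tau p q s') s' p q E]

/-- The margins of a table. -/
def rm (T : Fin 3 → Finset (Option (Fin n))) : Fin 3 → ℕ := fun i => (T i).card
def cm (T : Fin 3 → Finset (Option (Fin n))) : Option (Fin n) → ℕ :=
  fun j => (univ.filter (fun i => j ∈ T i)).card

lemma isMat_self (T : Fin 3 → Finset (Option (Fin n))) : IsMat (rm T) (cm T) T :=
  ⟨fun _ => rfl, fun _ => rfl⟩

lemma cm_eq (T : Fin 3 → Finset (Option (Fin n))) (j : Option (Fin n)) :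
    cm T j = TR.ind j (T 0) + TR.ind j (T 1) + TR.ind j (T 2) :=
  TR.col_count T (by decide) (by decide) (by decide) j

/-- The label avoiding `τ`. -/
def avoidLabel (τ : Finset (Fin n)) (E : Finset (Sym2 (Fin n))) : Finset (Sym2 (Fin n)) :=
  E.filter (fun e => ∀ v ∈ τ, v ∉ e)

lemma ent_eq_of_avoid {τ : Finset (Fin n)} {E E' : Finset (Sym2 (Fin n))}
    (h : avoidLabel τ E = avoidLabel τ E') {v u : Fin n} (hv : v ∉ τ) (hu : u ∉ τ) :
    ent E v u = ent E' v u := by
  have hav : ∀ w ∈ τ, w ∉ s(v, u) := by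
    intro w hw hmem
    rcases Sym2.mem_iff.mp hmem with rfl | rfl
    · exact hv hw
    · exact hu hw
  have h1 : s(v, u) ∈ E ↔ s(v, u) ∈ E' := by
    have := Finset.ext_iff.mp h s(v, u)
    simp only [avoidLabel, Finset.mem_filter] at this
    exact ⟨fun h => (this.mp ⟨h, hav⟩).1, fun h => (this.mpr ⟨h, hav⟩).1⟩
  unfold ent
  by_cases h2 : s(v, u) ∈ E
  · rw [if_pos h2, if_pos (h1.mp h2)]
  · rw [if_neg h2, if_neg (fun h3 => h2 (h1.mpr h3))]

lemma out_eq_of_avoid {τ : Finset (Fin n)} {E E' : Finset (Sym2 (Fin n))}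
    (h : avoidLabel τ E = avoidLabel τ E') {v : Fin n} (hv : v ∉ τ) :
    out τ E v = out τ E' v := by
  unfold out
  refine Finset.sum_congr rfl fun u hu => ?_
  exact ent_eq_of_avoid h hv (Finset.mem_compl.mp hu)

section window

variable {p q s' : Fin n} (h1 : p ≠ q) (h2 : p ≠ s') (h3 : q ≠ s')

include h1 h2 h3

lemma deg_p {E : Finset (Sym2 (Fin n))} (hE : ∀ e ∈ E, ¬ e.IsDiag) :
    edgeDegree E p = out (tau p q s') E p + ent E p q + ent E p s' := by
  rw [deg_split (tau p q s'), sum_tau h1 h2 h3, ent_self hE]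
  ring

lemma deg_q {E : Finset (Sym2 (Fin n))} (hE : ∀ e ∈ E, ¬ e.IsDiag) :
    edgeDegree E q = out (tau p q s') E q + ent E p q + ent E q s' := by
  rw [deg_split (tau p q s'), sum_tau h1 h2 h3, ent_self hE, ent_comm E q p]
  ring

lemma deg_s {E : Finset (Sym2 (Fin n))} (hE : ∀ e ∈ E, ¬ e.IsDiag) :
    edgeDegree E s' = out (tau p q s') E s' + ent E p s' + ent E q s' := by
  rw [deg_split (tau p q s'), sum_tau h1 h2 h3, ent_self hE, ent_comm E s' p, ent_comm E s' q]
  ring

lemma deg_out' {E : Finset (Sym2 (Fin n))} {v : Fin n} :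
    edgeDegree E v = out (tau p q s') E v + (ent E p v + ent E q v + ent E s' v) := by
  rw [deg_split (tau p q s'), sum_tau h1 h2 h3, ent_comm E v p, ent_comm E v q, ent_comm E v s']

/-- Double counting of the edges between `τ` and its complement. -/
lemma sum_out (E : Finset (Sym2 (Fin n))) :
    out (tau p q s') E p + out (tau p q s') E q + out (tau p q s') E s'
      = ∑ v ∈ (tau p q s')ᶜ, (ent E p v + ent E q v + ent E s' v) := by
  unfold out
  rw [Finset.sum_add_distrib, Finset.sum_add_distrib]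

lemma cm_some (E : Finset (Sym2 (Fin n))) (v : Fin n) :
    cm (rows p q s' E) (some v)
      = if v ∈ tau p q s' then 0 else ent E p v + ent E q v + ent E s' v := by
  rw [cm_eq]
  simp only [rows, Matrix.cons_val_zero, Matrix.cons_val_one, Matrix.cons_val, ind_some]
  split_ifs <;> rfl

lemma cm_none (E : Finset (Sym2 (Fin n))) :
    cm (rows p q s' E) none = (1 - ent E q s') + (1 - ent E p s') + (1 - ent E p q) := by
  rw [cm_eq]
  simp only [rows, Matrix.cons_val_zero, Matrix.cons_val_one, Matrix.cons_val, ind_none]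

lemma rm_zero (E : Finset (Sym2 (Fin n))) :
    rm (rows p q s' E) 0 = out (tau p q s') E p + (1 - ent E q s') := by
  simp only [rm, rows, Matrix.cons_val_zero, card_rowOf]

lemma rm_one (E : Finset (Sym2 (Fin n))) :
    rm (rows p q s' E) 1 = out (tau p q s') E q + (1 - ent E p s') := by
  simp only [rm, rows, Matrix.cons_val_one, Matrix.cons_val_zero, card_rowOf]

lemma rm_two (E : Finset (Sym2 (Fin n))) :
    rm (rows p q s' E) 2 = out (tau p q s') E s' + (1 - ent E p q) := by
  simp only [rm, rows, Matrix.cons_val, card_rowOf]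

/-- The margins of a graph in the fibre depend only on the fibre. -/
theorem margins_eq {E E' : Finset (Sym2 (Fin n))} (hE : IsRealization d E) (hE' : IsRealization d E')
    (h : avoidLabel (tau p q s') E = avoidLabel (tau p q s') E') :
    rm (rows p q s' E) = rm (rows p q s' E') ∧ cm (rows p q s' E) = cm (rows p q s' E') := by
  -- column sums on ordinary columns
  have hcol : ∀ v ∉ tau p q s', ent E p v + ent E q v + ent E s' v
      = ent E' p v + ent E' q v + ent E' s' v := by
    intro v hv
    have a1 := deg_out' h1 h2 h3 (E := E) (v := v)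
    have a2 := deg_out' h1 h2 h3 (E := E') (v := v)
    rw [hE.2 v] at a1
    rw [hE'.2 v] at a2
    have a3 := out_eq_of_avoid h hv
    omega
  have hsum := sum_out h1 h2 h3 E
  have hsum' := sum_out h1 h2 h3 E'
  have hsum2 : ∑ v ∈ (tau p q s')ᶜ, (ent E p v + ent E q v + ent E s' v)
      = ∑ v ∈ (tau p q s')ᶜ, (ent E' p v + ent E' q v + ent E' s' v) :=
    Finset.sum_congr rfl fun v hv => hcol v (Finset.mem_compl.mp hv)
  have dp := deg_p h1 h2 h3 hE.1
  have dq := deg_q h1 h2 h3 hE.1
  have ds := deg_s h1 h2 h3 hE.1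
  have dp' := deg_p h1 h2 h3 hE'.1
  have dq' := deg_q h1 h2 h3 hE'.1
  have ds' := deg_s h1 h2 h3 hE'.1
  rw [hE.2] at dp dq ds
  rw [hE'.2] at dp' dq' ds'
  have e1 := ent_le E p q
  have e2 := ent_le E p s'
  have e3 := ent_le E q s'
  have e1' := ent_le E' p q
  have e2' := ent_le E' p s'
  have e3' := ent_le E' q s'
  constructor
  · funext i
    fin_cases i
    · show rm _ 0 = rm _ 0
      rw [rm_zero h1 h2 h3, rm_zero h1 h2 h3]; omega
    · show rm _ 1 = rm _ 1
      rw [rm_one h1 h2 h3, rm_one h1 h2 h3]; omega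
    · show rm _ 2 = rm _ 2
      rw [rm_two h1 h2 h3, rm_two h1 h2 h3]; omega
  · funext j
    cases j with
    | none => rw [cm_none h1 h2 h3, cm_none h1 h2 h3]; omega
    | some v =>
      rw [cm_some h1 h2 h3, cm_some h1 h2 h3]
      split_ifs with hv
      · rfl
      · exact hcol v hv

/-- Conversely equal margins in the fibre give equal degrees. -/
theorem deg_eq_of_margins {E E' : Finset (Sym2 (Fin n))} (hE : ∀ e ∈ E, ¬ e.IsDiag)
    (hE' : ∀ e ∈ E', ¬ e.IsDiag)
    (h : avoidLabel (tau p q s') E = avoidLabel (tau p q s') E')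
    (hr : rm (rows p q s' E) = rm (rows p q s' E')) (hc : cm (rows p q s' E) = cm (rows p q s' E'))
    (v : Fin n) : edgeDegree E v = edgeDegree E' v := by
  have e1 := ent_le E p q
  have e2 := ent_le E p s'
  have e3 := ent_le E q s'
  have e1' := ent_le E' p q
  have e2' := ent_le E' p s'
  have e3' := ent_le E' q s'
  have hn := congrFun hc none
  rw [cm_none h1 h2 h3, cm_none h1 h2 h3] at hn
  by_cases hv : v ∈ tau p q s'
  · rcases mem_tau.mp hv with rfl | rfl | rfl
    · have r0 := congrFun hr 0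
      rw [rm_zero h1 h2 h3, rm_zero h1 h2 h3] at r0
      rw [deg_p h1 h2 h3 hE, deg_p h1 h2 h3 hE']
      omega
    · have r0 := congrFun hr 1
      rw [rm_one h1 h2 h3, rm_one h1 h2 h3] at r0
      rw [deg_q h1 h2 h3 hE, deg_q h1 h2 h3 hE']
      omega
    · have r0 := congrFun hr 2
      rw [rm_two h1 h2 h3, rm_two h1 h2 h3] at r0
      rw [deg_s h1 h2 h3 hE, deg_s h1 h2 h3 hE']
      omega
  · have hs := congrFun hc (some v)
    rw [cm_some h1 h2 h3, cm_some h1 h2 h3, if_neg hv, if_neg hv] at hs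
    rw [deg_out' h1 h2 h3, deg_out' h1 h2 h3 (E := E'), hs, out_eq_of_avoid h hv]

/-- Injectivity: a graph in the fibre is determined by its rows. -/
theorem eq_of_rows {E E' : Finset (Sym2 (Fin n))} (hE : ∀ e ∈ E, ¬ e.IsDiag)
    (hE' : ∀ e ∈ E', ¬ e.IsDiag)
    (h : avoidLabel (tau p q s') E = avoidLabel (tau p q s') E')
    (hr : rows p q s' E = rows p q s' E') : E = E' := by
  have r0 : rowOf (tau p q s') p q s' E = rowOf (tau p q s') p q s' E' := congrFun hr 0
  have r1 : rowOf (tau p q s') q p s' E = rowOf (tau p q s') q p s' E' := congrFun hr 1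
  have r2 : rowOf (tau p q s') s' p q E = rowOf (tau p q s') s' p q E' := congrFun hr 2
  have a0 : ∀ v ∉ tau p q s', (s(p, v) ∈ E ↔ s(p, v) ∈ E') := by
    intro v hv
    have := Finset.ext_iff.mp r0 (some v)
    simpa [mem_rowOf_some, hv] using this
  have a1 : ∀ v ∉ tau p q s', (s(q, v) ∈ E ↔ s(q, v) ∈ E') := by
    intro v hv
    have := Finset.ext_iff.mp r1 (some v)
    simpa [mem_rowOf_some, hv] using this
  have a2 : ∀ v ∉ tau p q s', (s(s', v) ∈ E ↔ s(s', v) ∈ E') := by
    intro v hv
    have := Finset.ext_iff.mp r2 (some v)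
    simpa [mem_rowOf_some, hv] using this
  have b0 : s(q, s') ∈ E ↔ s(q, s') ∈ E' := by
    have := Finset.ext_iff.mp r0 none
    rw [mem_rowOf_none, mem_rowOf_none] at this
    exact not_iff_not.mp this
  have b1 : s(p, s') ∈ E ↔ s(p, s') ∈ E' := by
    have := Finset.ext_iff.mp r1 none
    rw [mem_rowOf_none, mem_rowOf_none] at this
    exact not_iff_not.mp this
  have b2 : s(p, q) ∈ E ↔ s(p, q) ∈ E' := by
    have := Finset.ext_iff.mp r2 none
    rw [mem_rowOf_none, mem_rowOf_none] at this
    exact not_iff_not.mp this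
  have hd : ∀ x, (s(x, x) ∈ E ↔ s(x, x) ∈ E') := by
    intro x
    constructor
    · intro h0; exact absurd (by simp) (hE _ h0)
    · intro h0; exact absurd (by simp) (hE' _ h0)
  have key : ∀ x y, x ∈ tau p q s' → (s(x, y) ∈ E ↔ s(x, y) ∈ E') := by
    intro x y hx
    by_cases hy : y ∈ tau p q s'
    · rcases mem_tau.mp hx with rfl | rfl | rfl <;> rcases mem_tau.mp hy with rfl | rfl | rfl
      · exact hd _
      · exact b2
      · exact b1
      · rw [Sym2.eq_swap]; exact b2
      · exact hd _
      · exact b0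
      · rw [Sym2.eq_swap]; exact b1
      · rw [Sym2.eq_swap]; exact b0
      · exact hd _
    · rcases mem_tau.mp hx with rfl | rfl | rfl
      · exact a0 y hy
      · exact a1 y hy
      · exact a2 y hy
  ext e
  induction e using Sym2.ind with
  | _ x y =>
    by_cases hx : x ∈ tau p q s'
    · exact key x y hx
    · by_cases hy : y ∈ tau p q s'
      · rw [Sym2.eq_swap]; exact key y x hy
      · have := ent_eq_of_avoid h hx hy
        unfold ent at this
        by_cases h5 : s(x, y) ∈ E <;> by_cases h6 : s(x, y) ∈ E' <;> simp_all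

end window

open Classical in
/-- The label of a vertex pair corresponds to the row of the third vertex. -/
theorem label_iff {x a b : Fin n} {τ : Finset (Fin n)} (hτ : ∀ v, v ∈ τ ↔ v = x ∨ v = a ∨ v = b)
    (hxa : x ≠ a) (hxb : x ≠ b) (hab : a ≠ b) {E E' : Finset (Sym2 (Fin n))}
    (hE : ∀ e ∈ E, ¬ e.IsDiag) (hE' : ∀ e ∈ E', ¬ e.IsDiag)
    (h : avoidLabel τ E = avoidLabel τ E') :
    ((E.filter (fun e => ¬ Block a b e) = E'.filter (fun e => ¬ Block a b e)) ↔
      rowOf τ x a b E = rowOf τ x a b E') := by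
  have hnotin : ∀ v, v ∉ τ → v ≠ x ∧ v ≠ a ∧ v ≠ b := by
    intro v hv
    rw [hτ] at hv
    tauto
  have hx : x ∈ τ := (hτ x).mpr (Or.inl rfl)
  constructor
  · intro hl
    ext c
    cases c with
    | none =>
      rw [mem_rowOf_none, mem_rowOf_none]
      have hb : ¬ Block a b s(a, b) := fun hb => hb.2 rfl
      have := Finset.ext_iff.mp hl s(a, b)
      simp only [Finset.mem_filter, hb, not_false_eq_true, and_true] at this
      rw [this]
    | some v =>
      rw [mem_rowOf_some, mem_rowOf_some]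
      by_cases hv : v ∈ τ
      · simp [hv]
      · obtain ⟨v1, v2, v3⟩ := hnotin v hv
        have hb : ¬ Block a b s(x, v) := by
          rintro ⟨h4 | h4, _⟩
          · rcases Sym2.mem_iff.mp h4 with h5 | h5
            · exact hxa h5.symm
            · exact v2 h5.symm
          · rcases Sym2.mem_iff.mp h4 with h5 | h5
            · exact hxb h5.symm
            · exact v3 h5.symm
        have := Finset.ext_iff.mp hl s(x, v)
        simp only [Finset.mem_filter, hb, not_false_eq_true, and_true] at this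
        rw [this]
  · intro hr
    have r_none : s(a, b) ∈ E ↔ s(a, b) ∈ E' := by
      have := Finset.ext_iff.mp hr none
      rw [mem_rowOf_none, mem_rowOf_none] at this
      exact not_iff_not.mp this
    have r_some : ∀ v ∉ τ, (s(x, v) ∈ E ↔ s(x, v) ∈ E') := by
      intro v hv
      have := Finset.ext_iff.mp hr (some v)
      simpa [mem_rowOf_some, hv] using this
    have hd : ∀ y, (s(y, y) ∈ E ↔ s(y, y) ∈ E') := by
      intro y
      constructor
      · intro h0; exact absurd (by simp) (hE _ h0)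
      · intro h0; exact absurd (by simp) (hE' _ h0)
    ext e
    induction e using Sym2.ind with
    | _ y z =>
      simp only [Finset.mem_filter]
      by_cases hb : Block a b s(y, z)
      · simp [hb]
      · simp only [hb, not_false_eq_true, and_true]
        by_cases he : s(y, z) = s(a, b)
        · rw [he]; exact r_none
        · have hab' : ¬ (a ∈ s(y, z) ∨ b ∈ s(y, z)) := fun h4 => hb ⟨h4, he⟩
          have hy1 : y ≠ a := by
            rintro rfl; exact hab' (Or.inl (by simp))
          have hy2 : y ≠ b := by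
            rintro rfl; exact hab' (Or.inr (by simp))
          have hz1 : z ≠ a := by
            rintro rfl; exact hab' (Or.inl (by simp))
          have hz2 : z ≠ b := by
            rintro rfl; exact hab' (Or.inr (by simp))
          by_cases hyx : y = x
          · subst hyx
            by_cases hzx : z = y
            · subst hzx; exact hd z
            · exact r_some z (by rw [hτ]; tauto)
          · have hyτ : y ∉ τ := by rw [hτ]; tauto
            by_cases hzx : z = x
            · subst hzx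
              rw [Sym2.eq_swap]
              exact r_some y hyτ
            · have hzτ : z ∉ τ := by rw [hτ]; tauto
              have := ent_eq_of_avoid h hyτ hzτ
              unfold ent at this
              by_cases h5 : s(y, z) ∈ E <;> by_cases h6 : s(y, z) ∈ E' <;> simp_all

section surj

variable {p q s' : Fin n} (h1 : p ≠ q) (h2 : p ≠ s') (h3 : q ≠ s')

/-- The index of a window vertex. -/
def ix (p q x : Fin n) : Fin 3 := if x = p then 0 else if x = q then 1 else 2

/-- The index of the row opposite to the pair `x y` in the window. -/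
def third (p q x y : Fin n) : Fin 3 :=
  if x ≠ p ∧ y ≠ p then 0 else if x ≠ q ∧ y ≠ q then 1 else 2

lemma third_comm (p q x y : Fin n) : third p q x y = third p q y x := by
  unfold third
  simp only [and_comm]

open Classical in
/-- The adjacency relation of the graph with prescribed rows. -/
def adjT (τ : Finset (Fin n)) (p q : Fin n) (T : Fin 3 → Finset (Option (Fin n)))
    (E₀ : Finset (Sym2 (Fin n))) (x y : Fin n) : Prop :=
  if x ∈ τ then (if y ∈ τ then x ≠ y ∧ none ∉ T (third p q x y) else some y ∈ T (ix p q x))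
  else (if y ∈ τ then some x ∈ T (ix p q y) else s(x, y) ∈ E₀)

lemma adjT_comm (τ : Finset (Fin n)) (p q : Fin n) (T : Fin 3 → Finset (Option (Fin n)))
    (E₀ : Finset (Sym2 (Fin n))) (x y : Fin n) : adjT τ p q T E₀ x y = adjT τ p q T E₀ y x := by
  unfold adjT
  by_cases hx : x ∈ τ <;> by_cases hy : y ∈ τ
  · simp only [hx, hy, if_true, third_comm p q x y, ne_comm]
  · simp [hx, hy]
  · simp [hx, hy]
  · simp [hx, hy, Sym2.eq_swap]

open Classical in
/-- The edge set with prescribed rows. -/
noncomputable def edgeT (τ : Finset (Fin n)) (p q : Fin n) (T : Fin 3 → Finset (Option (Fin n)))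
    (E₀ : Finset (Sym2 (Fin n))) : Finset (Sym2 (Fin n)) :=
  univ.filter (fun e => Sym2.lift ⟨fun x y => adjT τ p q T E₀ x y, adjT_comm τ p q T E₀⟩ e)

lemma mem_edgeT {τ : Finset (Fin n)} {p q : Fin n} {T : Fin 3 → Finset (Option (Fin n))}
    {E₀ : Finset (Sym2 (Fin n))} {x y : Fin n} :
    s(x, y) ∈ edgeT τ p q T E₀ ↔ adjT τ p q T E₀ x y := by
  simp [edgeT]

include h1 h2 h3

/-- Surjectivity: every table with the margins of `E₀` comes from a graph of the fibre. -/
theorem exists_of_table {E₀ : Finset (Sym2 (Fin n))} (hE₀ : IsRealization d E₀)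
    {T : Fin 3 → Finset (Option (Fin n))}
    (hT : IsMat (rm (rows p q s' E₀)) (cm (rows p q s' E₀)) T) :
    ∃ E, IsRealization d E ∧ avoidLabel (tau p q s') E = avoidLabel (tau p q s') E₀ ∧
      rows p q s' E = T := by
  set τ := tau p q s' with hτ
  have hpτ : p ∈ τ := mem_tau.mpr (Or.inl rfl)
  have hqτ : q ∈ τ := mem_tau.mpr (Or.inr (Or.inl rfl))
  have hsτ : s' ∈ τ := mem_tau.mpr (Or.inr (Or.inr rfl))
  set E := edgeT τ p q T E₀ with hE
  have hdiag : ∀ e ∈ E, ¬ e.IsDiag := by
    intro e
    induction e using Sym2.ind with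
    | _ x y =>
      intro he hxy
      have hxy' : x = y := hxy
      subst hxy'
      rw [hE, mem_edgeT] at he
      unfold adjT at he
      by_cases hx : x ∈ τ
      · simp [hx] at he
      · simp only [hx, if_false] at he
        exact hE₀.1 _ he (by simp)
  -- no virtual column mistakes: ordinary columns in τ do not occur in T
  have hzero : ∀ v ∈ τ, ∀ i, some v ∉ T i := by
    intro v hv i hi
    have c1 := hT.2 (some v)
    rw [cm_some h1 h2 h3, if_pos hv, Finset.card_eq_zero, Finset.filter_eq_empty_iff] at c1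
    exact c1 (Finset.mem_univ i) hi
  have hrow0 : rowOf τ p q s' E = T 0 := by
    ext c
    cases c with
    | none =>
      rw [mem_rowOf_none, hE, mem_edgeT]
      simp [adjT, hqτ, hsτ, h3, third, h1.symm, h2.symm]
    | some v =>
      rw [mem_rowOf_some, hE, mem_edgeT]
      by_cases hv : v ∈ τ
      · simp [hv, hzero v hv 0]
      · simp [adjT, hpτ, hv, ix]
  have hrow1 : rowOf τ q p s' E = T 1 := by
    ext c
    cases c with
    | none =>
      rw [mem_rowOf_none, hE, mem_edgeT]
      simp [adjT, hpτ, hsτ, h2, third, h1, h2.symm, h3.symm]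
    | some v =>
      rw [mem_rowOf_some, hE, mem_edgeT]
      by_cases hv : v ∈ τ
      · simp [hv, hzero v hv 1]
      · simp [adjT, hqτ, hv, ix, h1.symm]
  have hrow2 : rowOf τ s' p q E = T 2 := by
    ext c
    cases c with
    | none =>
      rw [mem_rowOf_none, hE, mem_edgeT]
      simp [adjT, hpτ, hqτ, h1, third, h1.symm]
    | some v =>
      rw [mem_rowOf_some, hE, mem_edgeT]
      by_cases hv : v ∈ τ
      · simp [hv, hzero v hv 2]
      · simp [adjT, hsτ, hv, ix, h2.symm, h3.symm]
  have hrows : rows p q s' E = T := by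
    funext i
    fin_cases i
    · exact hrow0
    · exact hrow1
    · exact hrow2
  have hav : avoidLabel τ E = avoidLabel τ E₀ := by
    ext e
    simp only [avoidLabel, Finset.mem_filter]
    refine and_congr_left fun hn => ?_
    induction e using Sym2.ind with
    | _ x y =>
      have hx : x ∉ τ := fun h4 => hn x h4 (by simp)
      have hy : y ∉ τ := fun h4 => hn y h4 (by simp)
      rw [hE, mem_edgeT]
      simp [adjT, hx, hy]
  refine ⟨E, ⟨hdiag, fun v => ?_⟩, hav, hrows⟩
  have hr : rm (rows p q s' E) = rm (rows p q s' E₀) := by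
    rw [hrows]; funext i; exact hT.1 i
  have hc : cm (rows p q s' E) = cm (rows p q s' E₀) := by
    rw [hrows]; funext j; exact hT.2 j
  rw [deg_eq_of_margins h1 h2 h3 hdiag hE₀.1 hav hr hc v]
  exact hE₀.2 v

end surj

/-- The split of the pairing of two residuals over the fibres of a coarser label. -/
lemma dot_split {Ω K₁ K₂ L : Type*} [Fintype Ω] [DecidableEq L] (κ₁ : Ω → K₁) (κ₂ : Ω → K₂)
    (μ : Ω → L) (h₁ : ∀ x y, κ₁ x = κ₁ y → μ x = μ y) (h₂ : ∀ x y, κ₂ x = κ₂ y → μ x = μ y)
    [∀ ℓ, Fintype {x // μ x = ℓ}] (f : Ω → ℝ) :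
    dot (prj κ₁ f) (prj κ₂ f) = ∑ ℓ ∈ univ.image μ,
      dot (prj (fun y : {x // μ x = ℓ} => κ₁ y.1) (fun y => f y.1))
        (prj (fun y : {x // μ x = ℓ} => κ₂ y.1) (fun y => f y.1)) := by
  unfold dot
  rw [sum_by_label μ]
  refine Finset.sum_congr rfl fun ℓ _ => Finset.sum_congr rfl fun y _ => ?_
  simp only [prj, avg_restrict κ₁ μ h₁ ℓ f y, avg_restrict κ₂ μ h₂ ℓ f y]

/-- The three cross terms on one fibre are nonnegative, given an equivalence with a table type. -/
lemma three_cross_nonneg {Y K C : Type*} [Fintype Y] [Fintype C] [DecidableEq C]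
    (r : Fin 3 → ℕ) (c : C → ℕ) (ρ : Y ≃ Mat r c)
    (κ : Fin 3 → Y → K) (hκ : ∀ i y y', κ i y = κ i y' ↔ (ρ y).1 i = (ρ y').1 i) (f : Y → ℝ) :
    0 ≤ dot (prj (κ 2) f) (prj (κ 1) f) + dot (prj (κ 2) f) (prj (κ 0) f)
      + dot (prj (κ 1) f) (prj (κ 0) f) := by
  have h := three_window r c ρ κ hκ f
  have hW : (fun y => ∑ i, prj (κ i) f y) = prj (κ 0) f + prj (κ 1) f + prj (κ 2) f := by
    funext y
    simp [Fin.sum_univ_three]
  rw [hW] at h
  simp only [dot_add_left, dot_add_right] at h
  have e0 := dot_prj_prj (κ 0) f f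
  have e1 := dot_prj_prj (κ 1) f f
  have e2 := dot_prj_prj (κ 2) f f
  have c1 := dot_comm (prj (κ 0) f) (prj (κ 1) f)
  have c2 := dot_comm (prj (κ 0) f) (prj (κ 2) f)
  have c3 := dot_comm (prj (κ 1) f) (prj (κ 2) f)
  linarith

end TripleW

open TripleW

theorem overlap_nonneg {p q s' : Fin n} (h1 : p ≠ q) (h2 : p ≠ s') (h3 : q ≠ s')
    (f : Realizations d → ℝ) :
    0 ≤ dot (prj (lab p q) f) (prj (lab p s') f) + dot (prj (lab p q) f) (prj (lab q s') f)
        + dot (prj (lab p s') f) (prj (lab q s') f) := by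
  classical
  set τ := tau p q s' with hτ
  let μ : Realizations d → Finset (Sym2 (Fin n)) := fun G => avoidLabel τ G.1
  have href : ∀ a b : Fin n, a ∈ τ → b ∈ τ → ∀ x y : Realizations d, lab a b x = lab a b y → μ x = μ y := by
    intro a b ha hb x y hxy
    have key : ∀ G : Realizations d, μ G = (lab a b G).filter (fun e => ∀ v ∈ τ, v ∉ e) := by
      intro G
      ext e
      simp only [μ, avoidLabel, lab, Finset.mem_filter]
      constructor
      · rintro ⟨h4, h5⟩
        refine ⟨⟨h4, ?_⟩, h5⟩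
        rintro ⟨h6 | h6, _⟩
        · exact h5 a ha h6
        · exact h5 b hb h6
      · rintro ⟨⟨h4, _⟩, h5⟩
        exact ⟨h4, h5⟩
    rw [key x, key y, hxy]
  have hp : p ∈ τ := mem_tau.mpr (Or.inl rfl)
  have hq : q ∈ τ := mem_tau.mpr (Or.inr (Or.inl rfl))
  have hs : s' ∈ τ := mem_tau.mpr (Or.inr (Or.inr rfl))
  rw [dot_split _ _ μ (href p q hp hq) (href p s' hp hs) f,
    dot_split _ _ μ (href p q hp hq) (href q s' hq hs) f,
    dot_split _ _ μ (href p s' hp hs) (href q s' hq hs) f,
    ← Finset.sum_add_distrib, ← Finset.sum_add_distrib]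
  refine Finset.sum_nonneg fun ℓ hℓ => ?_
  obtain ⟨G₀, -, hG₀⟩ := Finset.mem_image.mp hℓ
  subst hG₀
  set r := rm (rows p q s' G₀.1) with hr
  set c := cm (rows p q s' G₀.1) with hc
  let Y := {x : Realizations d // μ x = μ G₀}
  have hmarg : ∀ y : Y, IsMat r c (rows p q s' y.1.1) := by
    intro y
    obtain ⟨a1, a2⟩ := margins_eq h1 h2 h3 y.1.2 G₀.2 y.2
    rw [hr, hc, ← a1, ← a2]
    exact isMat_self _
  let ρf : Y → Mat r c := fun y => ⟨rows p q s' y.1.1, hmarg y⟩
  have hinj : Function.Injective ρf := by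
    intro y y' hyy
    have e1 : rows p q s' y.1.1 = rows p q s' y'.1.1 := congrArg Subtype.val hyy
    have e2 : y.1.1 = y'.1.1 :=
      eq_of_rows h1 h2 h3 y.1.2.1 y'.1.2.1 (y.2.trans y'.2.symm) e1
    exact Subtype.ext (Subtype.ext e2)
  have hsurj : Function.Surjective ρf := by
    intro T
    obtain ⟨E, hE1, hE2, hE3⟩ := exists_of_table h1 h2 h3 G₀.2 T.2
    exact ⟨⟨⟨E, hE1⟩, hE2⟩, Subtype.ext hE3⟩
  let ρ : Y ≃ Mat r c := Equiv.ofBijective ρf ⟨hinj, hsurj⟩
  let κ : Fin 3 → Y → Finset (Sym2 (Fin n)) :=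
    ![fun y => lab q s' y.1, fun y => lab p s' y.1, fun y => lab p q y.1]
  have hκ : ∀ i y y', κ i y = κ i y' ↔ (ρ y).1 i = (ρ y').1 i := by
    intro i y y'
    have hav : avoidLabel τ y.1.1 = avoidLabel τ y'.1.1 := y.2.trans y'.2.symm
    fin_cases i
    · exact label_iff (τ := τ) (fun v => mem_tau) h1 h2 h3 y.1.2.1 y'.1.2.1 hav
    · exact label_iff (τ := τ) (fun v => by rw [hτ, mem_tau]; tauto) h1.symm h3 h2 y.1.2.1 y'.1.2.1 hav
    · exact label_iff (τ := τ) (fun v => by rw [hτ, mem_tau]; tauto) h2.symm h3.symm h1 y.1.2.1 y'.1.2.1 hav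
  have := three_cross_nonneg r c ρ κ hκ (fun y : Y => f y.1)
  exact this

end Vale.Agent.P335
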