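import Vale.Agent.P335.PairSplit
import Vale.Agent.P335.GraphPair
import Vale.Agent.P335.GraphTriple
import Vale.Agent.P335.GraphQuad
import Vale.Agent.P335.Connect

/-!
# P335: the spectral gap

`W f = ∑_{a ≠ b} prj (lab a b) f`.  By `pair_split` and `dot_prj_prj`:
`‖W f‖² = 2 ⟪f, W f⟫ + 4 Cov + Dis`, with
`Cov = ∑_{a,b,e distinct} dot (prj ab) (prj ae)`, `Dis = ∑_{distinct} dot (prj ab) (prj uw)`.
* `overlap_nonneg` summed over ordered triples gives `Cov ≥ 0`;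
* `disjoint_bound` and `th_sum_le` give `Dis ≥ (1/2) 𝔈 - 𝔈 / 2 = 0` with `𝔈 = ∑ Sq`.
So `‖W f‖² ≥ 2 ⟪f, W f⟫`.  `gap_of_square` (kernel = constants by `const_of_invariant`) gives
`2 ‖f‖² ≤ ⟪f, W f⟫ = ∑_{a≠b} ‖prj (lab a b) f‖² ≤ (1/4) 𝔈` by `var_le_dir`.
-/

namespace Vale.Agent.P335

open Finset

variable {n : ℕ} {d : Fin n → ℕ}

/-- The operator `W`. -/
noncomputable def Wop : (Realizations d → ℝ) →ₗ[ℝ] (Realizations d → ℝ) where
  toFun f := fun G => ∑ a, ∑ b, if a ≠ b then prj (lab a b) f G else 0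
  map_add' f g := by
    funext G
    simp only [prj_add, Pi.add_apply]
    rw [← Finset.sum_add_distrib]
    refine Finset.sum_congr rfl (fun a _ => ?_)
    rw [← Finset.sum_add_distrib]
    refine Finset.sum_congr rfl (fun b _ => ?_)
    split_ifs <;> simp
  map_smul' c f := by
    funext G
    simp only [prj_smul, Pi.smul_apply, RingHom.id_apply, smul_eq_mul, Finset.mul_sum]
    refine Finset.sum_congr rfl (fun a _ => Finset.sum_congr rfl (fun b _ => ?_))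
    split_ifs <;> simp

lemma Wop_apply (f : Realizations d → ℝ) (G : Realizations d) :
    Wop f G = ∑ a, ∑ b, if a ≠ b then prj (lab a b) f G else 0 := rfl

lemma dot_Wop_right (g f : Realizations d → ℝ) :
    dot g (Wop f) = ∑ a, ∑ b, if a ≠ b then dot g (prj (lab a b) f) else 0 := by
  simp only [dot, Wop_apply, Finset.mul_sum]
  rw [Finset.sum_comm]
  refine Finset.sum_congr rfl (fun a _ => ?_)
  rw [Finset.sum_comm]
  refine Finset.sum_congr rfl (fun b _ => ?_)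
  split_ifs <;> simp

lemma dot_Wop_left (g f : Realizations d → ℝ) :
    dot (Wop f) g = ∑ a, ∑ b, if a ≠ b then dot (prj (lab a b) f) g else 0 := by
  rw [dot_comm, dot_Wop_right]
  refine Finset.sum_congr rfl (fun a _ => Finset.sum_congr rfl (fun b _ => ?_))
  rw [dot_comm]

lemma dot_Wop_Wop (f : Realizations d → ℝ) :
    dot (Wop f) (Wop f) = ∑ a, ∑ b, ∑ u, ∑ w, if a ≠ b ∧ u ≠ w then
      dot (prj (lab a b) f) (prj (lab u w) f) else 0 := by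
  rw [dot_Wop_left]
  refine Finset.sum_congr rfl (fun a _ => Finset.sum_congr rfl (fun b _ => ?_))
  by_cases hab : a = b
  · simp [hab]
  · simp only [ne_eq, hab, not_false_eq_true, if_true, true_and]
    rw [dot_Wop_right]

lemma lab_comm' (a b : Fin n) : (lab a b : Realizations d → _) = lab b a := by
  funext G
  exact lab_comm a b G

/-- Permuting the indices of a sum over distinct triples. -/
lemma triple_sum_perm1 {I : Type*} [Fintype I] [DecidableEq I] (F : I → I → I → ℝ) :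
    (∑ p, ∑ q, ∑ s, if p ≠ q ∧ p ≠ s ∧ q ≠ s then F q p s else 0) =
      ∑ p, ∑ q, ∑ s, if p ≠ q ∧ p ≠ s ∧ q ≠ s then F p q s else 0 := by
  rw [Finset.sum_comm]
  refine Finset.sum_congr rfl (fun p _ => Finset.sum_congr rfl (fun q _ =>
    Finset.sum_congr rfl (fun s _ => ?_)))
  by_cases h : p ≠ q ∧ p ≠ s ∧ q ≠ s
  · rw [if_pos ⟨h.1.symm, h.2.2, h.2.1⟩, if_pos h]
  · rw [if_neg (fun h' => h ⟨h'.1.symm, h'.2.2, h'.2.1⟩), if_neg h]

lemma triple_sum_perm2 {I : Type*} [Fintype I] [DecidableEq I] (F : I → I → I → ℝ) :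
    (∑ p, ∑ q, ∑ s, if p ≠ q ∧ p ≠ s ∧ q ≠ s then F s p q else 0) =
      ∑ p, ∑ q, ∑ s, if p ≠ q ∧ p ≠ s ∧ q ≠ s then F p q s else 0 := by
  -- rename `(s, p, q)` to `(p, q, s)`
  calc (∑ p, ∑ q, ∑ s, if p ≠ q ∧ p ≠ s ∧ q ≠ s then F s p q else 0)
      = ∑ p, ∑ s, ∑ q, if p ≠ q ∧ p ≠ s ∧ q ≠ s then F s p q else 0 := by
        refine Finset.sum_congr rfl (fun p _ => ?_)
        rw [Finset.sum_comm]
    _ = ∑ s, ∑ p, ∑ q, if p ≠ q ∧ p ≠ s ∧ q ≠ s then F s p q else 0 := by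
        rw [Finset.sum_comm]
    _ = ∑ p, ∑ q, ∑ s, if p ≠ q ∧ p ≠ s ∧ q ≠ s then F p q s else 0 := by
        refine Finset.sum_congr rfl (fun p _ => Finset.sum_congr rfl (fun q _ =>
          Finset.sum_congr rfl (fun s _ => ?_)))
        by_cases h : p ≠ q ∧ p ≠ s ∧ q ≠ s
        · rw [if_pos ⟨h.2.2, h.1.symm, h.2.1.symm⟩, if_pos h]
        · rw [if_neg (fun h' => h ⟨h'.2.1.symm, h'.2.2.symm, h'.1⟩), if_neg h]

/-- `Cov ≥ 0`. -/
lemma cov_nonneg (f : Realizations d → ℝ) :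
    0 ≤ ∑ a, ∑ b, ∑ e, if a ≠ b ∧ a ≠ e ∧ b ≠ e then
      dot (prj (lab a b) f) (prj (lab a e) f) else 0 := by
  set F : Fin n → Fin n → Fin n → ℝ := fun a b e => dot (prj (lab a b) f) (prj (lab a e) f) with hF
  have h0 : 0 ≤ ∑ p, ∑ q, ∑ s, if p ≠ q ∧ p ≠ s ∧ q ≠ s then
      (F p q s + F q p s + F s p q) else 0 := by
    refine Finset.sum_nonneg (fun p _ => Finset.sum_nonneg (fun q _ =>
      Finset.sum_nonneg (fun s _ => ?_)))
    split_ifs with h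
    · have := overlap_nonneg h.1 h.2.1 h.2.2 f
      simp only [hF]
      rw [lab_comm' q p, lab_comm' s p, lab_comm' s q]
      linarith
    · exact le_rfl
  have h1 : (∑ p, ∑ q, ∑ s, if p ≠ q ∧ p ≠ s ∧ q ≠ s then
      (F p q s + F q p s + F s p q) else 0) =
      (∑ p, ∑ q, ∑ s, if p ≠ q ∧ p ≠ s ∧ q ≠ s then F p q s else 0) +
      (∑ p, ∑ q, ∑ s, if p ≠ q ∧ p ≠ s ∧ q ≠ s then F q p s else 0) +
      (∑ p, ∑ q, ∑ s, if p ≠ q ∧ p ≠ s ∧ q ≠ s then F s p q else 0) := by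
    simp only [← Finset.sum_add_distrib]
    refine Finset.sum_congr rfl (fun p _ => Finset.sum_congr rfl (fun q _ =>
      Finset.sum_congr rfl (fun s _ => ?_)))
    split_ifs <;> simp
  rw [h1, triple_sum_perm1 F, triple_sum_perm2 F] at h0
  linarith

/-- The sum of all the `Sq`. -/
noncomputable def En (f : Realizations d → ℝ) : ℝ := ∑ a, ∑ b, ∑ u, ∑ w, Sq a b u w f

lemma En_eq_dist (f : Realizations d → ℝ) :
    (∑ a, ∑ b, ∑ u, ∑ w, if a ≠ b ∧ u ≠ w ∧ a ≠ u ∧ a ≠ w ∧ b ≠ u ∧ b ≠ w then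
      Sq a b u w f else 0) = En f := by
  unfold En
  refine Finset.sum_congr rfl (fun a _ => Finset.sum_congr rfl (fun b _ =>
    Finset.sum_congr rfl (fun u _ => Finset.sum_congr rfl (fun w _ => ?_))))
  split_ifs with h
  · rfl
  · rw [Sq_eq_zero]
    exact fun h' => h ⟨h'.1, h'.2.2.2.2.2, h'.2.1, h'.2.2.1, h'.2.2.2.1, h'.2.2.2.2.1⟩

lemma En_eq_dist' (f : Realizations d → ℝ) :
    (∑ a, ∑ b, ∑ u, ∑ w, if a ≠ b ∧ u ≠ w ∧ a ≠ u ∧ a ≠ w ∧ b ≠ u ∧ b ≠ w then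
      Sq a b w u f else 0) = En f := by
  rw [← En_eq_dist]
  refine Finset.sum_congr rfl (fun a _ => Finset.sum_congr rfl (fun b _ => ?_))
  rw [Finset.sum_comm]
  refine Finset.sum_congr rfl (fun u _ => Finset.sum_congr rfl (fun w _ => ?_))
  by_cases h : a ≠ b ∧ u ≠ w ∧ a ≠ u ∧ a ≠ w ∧ b ≠ u ∧ b ≠ w
  · rw [if_pos ⟨h.1, h.2.1.symm, h.2.2.2.1, h.2.2.1, h.2.2.2.2.2, h.2.2.2.2.1⟩, if_pos h]
  · rw [if_neg h, if_neg]
    exact fun h' => h ⟨h'.1, h'.2.1.symm, h'.2.2.2.1, h'.2.2.1, h'.2.2.2.2.2, h'.2.2.2.2.1⟩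

/-- The total of the `Th` terms. -/
noncomputable def ThTot (f : Realizations d → ℝ) : ℝ :=
  ∑ a, ∑ b, ∑ u, ∑ w, if a ≠ b ∧ u ≠ w ∧ a ≠ u ∧ a ≠ w ∧ b ≠ u ∧ b ≠ w then
    Th a b u w f else 0

lemma ThTot_swap (f : Realizations d → ℝ) :
    (∑ a, ∑ b, ∑ u, ∑ w, if a ≠ b ∧ u ≠ w ∧ a ≠ u ∧ a ≠ w ∧ b ≠ u ∧ b ≠ w then
      Th u w a b f else 0) = ThTot f := by
  unfold ThTot
  calc (∑ a, ∑ b, ∑ u, ∑ w, if a ≠ b ∧ u ≠ w ∧ a ≠ u ∧ a ≠ w ∧ b ≠ u ∧ b ≠ w then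
        Th u w a b f else 0)
      = ∑ a, ∑ u, ∑ b, ∑ w, if a ≠ b ∧ u ≠ w ∧ a ≠ u ∧ a ≠ w ∧ b ≠ u ∧ b ≠ w then
        Th u w a b f else 0 := by
        refine Finset.sum_congr rfl (fun a _ => ?_)
        rw [Finset.sum_comm]
    _ = ∑ u, ∑ a, ∑ b, ∑ w, if a ≠ b ∧ u ≠ w ∧ a ≠ u ∧ a ≠ w ∧ b ≠ u ∧ b ≠ w then
        Th u w a b f else 0 := by
        rw [Finset.sum_comm]
    _ = ∑ u, ∑ a, ∑ w, ∑ b, if a ≠ b ∧ u ≠ w ∧ a ≠ u ∧ a ≠ w ∧ b ≠ u ∧ b ≠ w then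
        Th u w a b f else 0 := by
        refine Finset.sum_congr rfl (fun u _ => Finset.sum_congr rfl (fun a _ => ?_))
        rw [Finset.sum_comm]
    _ = ∑ u, ∑ w, ∑ a, ∑ b, if a ≠ b ∧ u ≠ w ∧ a ≠ u ∧ a ≠ w ∧ b ≠ u ∧ b ≠ w then
        Th u w a b f else 0 := by
        refine Finset.sum_congr rfl (fun u _ => ?_)
        rw [Finset.sum_comm]
    _ = _ := by
        refine Finset.sum_congr rfl (fun p _ => Finset.sum_congr rfl (fun q _ =>
          Finset.sum_congr rfl (fun s _ => Finset.sum_congr rfl (fun t _ => ?_))))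
        by_cases h : p ≠ q ∧ s ≠ t ∧ p ≠ s ∧ p ≠ t ∧ q ≠ s ∧ q ≠ t
        · rw [if_pos h, if_pos ⟨h.2.1, h.1, h.2.2.1.symm, h.2.2.2.2.1.symm, h.2.2.2.1.symm,
            h.2.2.2.2.2.symm⟩]
        · rw [if_neg h, if_neg]
          exact fun h' => h ⟨h'.2.1, h'.1, h'.2.2.1.symm, h'.2.2.2.2.1.symm, h'.2.2.2.1.symm,
            h'.2.2.2.2.2.symm⟩

lemma ThTot_le (f : Realizations d → ℝ) : ThTot f ≤ (1 / 2) * En f := by
  unfold ThTot En
  rw [Finset.mul_sum]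
  refine Finset.sum_le_sum (fun a _ => ?_)
  rw [Finset.mul_sum]
  refine Finset.sum_le_sum (fun b _ => ?_)
  by_cases hab : a = b
  · subst hab
    simp only [ne_eq, not_true_eq_false, false_and, if_false, Finset.sum_const_zero]
    have : 0 ≤ ∑ u, ∑ w, Sq a a u w f :=
      Finset.sum_nonneg (fun _ _ => Finset.sum_nonneg (fun _ _ => Sq_nonneg _ _ _ _ _))
    linarith
  · have h := th_sum_le hab f
    refine le_trans (le_of_eq ?_) h
    refine Finset.sum_congr rfl (fun u _ => Finset.sum_congr rfl (fun w _ => ?_))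
    by_cases h2 : a ≠ u ∧ a ≠ w ∧ b ≠ u ∧ b ≠ w ∧ u ≠ w
    · rw [if_pos ⟨hab, h2.2.2.2.2, h2.1, h2.2.1, h2.2.2.1, h2.2.2.2.1⟩, if_pos h2]
    · rw [if_neg (fun h' => h2 ⟨h'.2.2.1, h'.2.2.2.1, h'.2.2.2.2.1, h'.2.2.2.2.2, h'.2.1⟩),
        if_neg h2]

/-- `Dis ≥ 0`. -/
lemma dis_nonneg (f : Realizations d → ℝ) :
    0 ≤ ∑ a, ∑ b, ∑ u, ∑ w, if a ≠ b ∧ u ≠ w ∧ a ≠ u ∧ a ≠ w ∧ b ≠ u ∧ b ≠ w then
      dot (prj (lab a b) f) (prj (lab u w) f) else 0 := by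
  have h1 : (∑ a, ∑ b, ∑ u, ∑ w, if a ≠ b ∧ u ≠ w ∧ a ≠ u ∧ a ≠ w ∧ b ≠ u ∧ b ≠ w then
        ((1 / 4) * (Sq a b u w f + Sq a b w u f) - (1 / 2) * Th a b u w f -
          (1 / 2) * Th u w a b f) else 0) ≤
      ∑ a, ∑ b, ∑ u, ∑ w, if a ≠ b ∧ u ≠ w ∧ a ≠ u ∧ a ≠ w ∧ b ≠ u ∧ b ≠ w then
        dot (prj (lab a b) f) (prj (lab u w) f) else 0 := by
    refine Finset.sum_le_sum (fun a _ => Finset.sum_le_sum (fun b _ =>
      Finset.sum_le_sum (fun u _ => Finset.sum_le_sum (fun w _ => ?_))))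
    split_ifs with h
    · exact disjoint_bound h.1 h.2.2.1 h.2.2.2.1 h.2.2.2.2.1 h.2.2.2.2.2 h.2.1 f
    · exact le_rfl
  have h2 : (∑ a, ∑ b, ∑ u, ∑ w, if a ≠ b ∧ u ≠ w ∧ a ≠ u ∧ a ≠ w ∧ b ≠ u ∧ b ≠ w then
        ((1 / 4) * (Sq a b u w f + Sq a b w u f) - (1 / 2) * Th a b u w f -
          (1 / 2) * Th u w a b f) else 0) =
      (1 / 4) * ((∑ a, ∑ b, ∑ u, ∑ w, if a ≠ b ∧ u ≠ w ∧ a ≠ u ∧ a ≠ w ∧ b ≠ u ∧ b ≠ w then
          Sq a b u w f else 0) +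
        (∑ a, ∑ b, ∑ u, ∑ w, if a ≠ b ∧ u ≠ w ∧ a ≠ u ∧ a ≠ w ∧ b ≠ u ∧ b ≠ w then
          Sq a b w u f else 0))
      - (1 / 2) * ThTot f
      - (1 / 2) * (∑ a, ∑ b, ∑ u, ∑ w, if a ≠ b ∧ u ≠ w ∧ a ≠ u ∧ a ≠ w ∧ b ≠ u ∧ b ≠ w then
          Th u w a b f else 0) := by
    unfold ThTot
    simp only [Finset.mul_sum, ← Finset.sum_add_distrib, ← Finset.sum_sub_distrib]
    refine Finset.sum_congr rfl (fun a _ => Finset.sum_congr rfl (fun b _ =>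
      Finset.sum_congr rfl (fun u _ => Finset.sum_congr rfl (fun w _ => ?_))))
    split_ifs <;> ring
  rw [h2, En_eq_dist, En_eq_dist', ThTot_swap] at h1
  have h3 := ThTot_le f
  linarith

lemma dot_f_Wop (f : Realizations d → ℝ) :
    dot f (Wop f) = ∑ a, ∑ b, if a ≠ b then
      dot (prj (lab a b) f) (prj (lab a b) f) else 0 := by
  rw [dot_Wop_right]
  refine Finset.sum_congr rfl (fun a _ => Finset.sum_congr rfl (fun b _ => ?_))
  rw [dot_prj_prj]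

/-- `W² ≥ 2 W`. -/
theorem Wop_square (f : Realizations d → ℝ) : 2 * dot f (Wop f) ≤ dot (Wop f) (Wop f) := by
  rw [dot_Wop_Wop, pair_split (fun a b u w => dot (prj (lab a b) f) (prj (lab u w) f))
    (fun a b u w => by simp only [lab_comm' a b])
    (fun a b u w => by simp only [lab_comm' u w])]
  have h1 := cov_nonneg f
  have h2 := dis_nonneg f
  rw [dot_f_Wop]
  linarith

lemma Wop_sym (f g : Realizations d → ℝ) : dot (Wop f) g = dot f (Wop g) := by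
  rw [dot_Wop_left, dot_Wop_right]
  refine Finset.sum_congr rfl (fun a _ => Finset.sum_congr rfl (fun b _ => ?_))
  rw [dot_prj_comm]

lemma Wop_psd (f : Realizations d → ℝ) : 0 ≤ dot f (Wop f) := by
  rw [dot_f_Wop]
  refine Finset.sum_nonneg (fun a _ => Finset.sum_nonneg (fun b _ => ?_))
  split_ifs
  · exact dot_self_nonneg _
  · exact le_rfl

lemma Wop_ker (f : Realizations d → ℝ) (h : Wop f = 0) (G H : Realizations d) : f G = f H := by
  refine const_of_invariant f (fun a b u w G => ?_) G H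
  by_cases hab : a = b
  · rw [swOm_eq_self]
    exact fun h' => h'.1 hab
  have h0 : dot f (Wop f) = 0 := by
    rw [h]
    simp [dot]
  rw [dot_f_Wop] at h0
  have hnn : ∀ a b : Fin n, 0 ≤ (if a ≠ b then dot (prj (lab a b) f) (prj (lab a b) f) else 0) := by
    intro a b
    split_ifs
    · exact dot_self_nonneg _
    · exact le_rfl
  have h1 := (Finset.sum_eq_zero_iff_of_nonneg
    (fun a _ => Finset.sum_nonneg (fun b _ => hnn a b))).mp h0 a (Finset.mem_univ a)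
  have h2 := (Finset.sum_eq_zero_iff_of_nonneg (fun b _ => hnn a b)).mp h1 b (Finset.mem_univ b)
  rw [if_pos hab] at h2
  exact const_on_fibres_of_prj _ f h2 _ _ (lab_swOm a b u w G)

theorem main_gap (f : Realizations d → ℝ) (hf : ∑ G, f G = 0) :
    8 * dot f f ≤ ∑ a, ∑ b, ∑ u, ∑ w, Sq a b u w f := by
  have h1 := gap_of_square Wop Wop_sym Wop_psd (θ := 2) (by norm_num) Wop_square
    (fun f hf => Wop_ker f hf) f hf
  have h2 : dot f (Wop f) ≤ (1 / 4) * ∑ a, ∑ b, ∑ u, ∑ w, Sq a b u w f := by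
    rw [dot_f_Wop, Finset.mul_sum]
    refine Finset.sum_le_sum (fun a _ => ?_)
    rw [Finset.mul_sum]
    refine Finset.sum_le_sum (fun b _ => ?_)
    split_ifs with hab
    · exact var_le_dir hab f
    · have : 0 ≤ ∑ u, ∑ w, Sq a b u w f :=
        Finset.sum_nonneg (fun _ _ => Finset.sum_nonneg (fun _ _ => Sq_nonneg _ _ _ _ _))
      linarith
  linarith

end Vale.Agent.P335
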