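import Vale.Agent.P335.Basic

/-!
# P335: two fibrations with constant intersection numbers

`Y` finite, labels `κ₁`, `κ₂`.  `E₁ = avg κ₁`, `E₂ = avg κ₂`, `P_i = I - E_i`.  For any `u, v`:
`⟪E₁ u, E₂ v⟫ = ∑_{A,B} ι(A,B) (∑_A u) (∑_B v) / (|A| |B|)`, `ι(A,B) = |A ∩ B|`.

`twofib_commuting`: if `ι ≡ 1` then `E₁ E₂ = E₂ E₁ = mean`, and
`⟪P₁ f, P₂ f⟫ = ‖f‖² - ‖E₁ f‖² - ‖E₂ f‖² + |Y| m² ≥ 0` by Bessel for `f - m`.

`twofib_main`: types `t₁` (constant on `κ₁`-fibres), `t₂` (constant on `κ₂`-fibres),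
`ι = 2` on type (I, I), `1` on (I, II), (II, I), `0` on (II, II), where I means `t_i` true.
Classes: `D = t₁ ∧ t₂`, `R = t₁ ∧ ¬ t₂`, `C = ¬ t₁ ∧ t₂`; (`¬ t₁ ∧ ¬ t₂` is empty).
`n₁, n₂` = numbers of `κ₂`-labels of type I, II; `m₁, m₂` = numbers of `κ₁`-labels of type I, II.
`|A| = 2 n₁ + n₂` for `A` of type I, `|A| = n₁` for type II, `|B| = 2 m₁ + m₂`, `m₁`;
`|A ∩ D| = 2 n₁`, `|A ∩ R| = n₂`, `|B ∩ D| = 2 m₁`, `|B ∩ C| = m₂`.
So `E₁, E₂` send class functions to class functions.  Let `f = f^c + h`, `f^c` = class means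
`(φ_D, φ_R, φ_C)`.  The formula for `⟪E₁ u, E₂ v⟫` depends only on class sums of `u, v`, hence:
* `⟪P₁ f^c, P₂ h⟫ = 0 = ⟪P₁ h, P₂ f^c⟫`;
* `⟪P₁ h, P₂ h⟫ = ‖h‖² - ‖E₁ h‖² - ‖E₂ h‖² ≥ ‖a‖²`, where `a = (h - h ∘ sw) / 2` on `D`, `0` else:
  `E₁ h`, `E₂ h`, `a` are pairwise orthogonal, `⟪h, E_i h⟫ = ‖E_i h‖²`, `⟪h, a⟫ = ‖a‖²`, so
  `0 ≤ ‖h - E₁ h - E₂ h - a‖²` gives it.  Here `‖a‖² = (1/4) ∑_D (f (sw y) - f y)²`
  (class means do not matter; note `sw` maps `D` to `D`, and it need not be assumed an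
  involution if one uses that each `A ∩ B` of type (I, I) has exactly two points).
* `⟪P₁ f^c, P₂ f^c⟫ = |D| r r' (φ_D - φ_R)(φ_D - φ_C)`, with `r = n₂ / (2 n₁ + n₂)`,
  `r' = m₂ / (2 m₁ + m₂)`.
* `2 (r X) (r' Z) ≥ - r² X² - r'² Z²`.  And `|D| r² (φ_D - φ_R)² ≤ theta κ₁ t₁ t₂ f`: on a type I
  fibre `A`, with `X_A = φ_D^A - φ_R^A` and `S_A = ∑_{A ∩ D} (f - mean_A) = (|A ∩ D| |A ∩ R| / |A|) X_A`,
  the fibre contributes `S_A² / |A ∩ D| = r² |A ∩ D| X_A²`, and `φ_D - φ_R` is the average of the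
  `X_A` over the `m₁` fibres of type I (Jensen).  Same for `κ₂`.
-/

namespace Vale.Agent.P335

open Finset

variable {Y K₁ K₂ : Type*} [Fintype Y]

open Classical in
/-- Sum over the `κ`-fibres of type `tA` of the squared sum of the centred `f` over the part of the
fibre where `tB` holds, divided by the size of that part.  It is written as a sum over points,
each fibre being weighted by the inverse of its size. -/
noncomputable def theta (κ : Y → K₁) (tA tB : Y → Prop) (f : Y → ℝ) : ℝ :=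
  ∑ x, if tA x then
    ((∑ y ∈ univ.filter (fun y => κ y = κ x ∧ tB y), (f y - avg κ f x)) ^ 2 /
      ((univ.filter (fun y => κ y = κ x ∧ tB y)).card : ℝ)) /
      ((univ.filter (fun y => κ y = κ x)).card : ℝ)
  else 0

section General

open Classical

/-- The number of points in the intersection of the fibre of `κ₁` through `y` and the fibre of `κ₂`
through `z`. -/
noncomputable def inum (κ₁ : Y → K₁) (κ₂ : Y → K₂) (y z : Y) : ℕ :=
  (univ.filter (fun w => κ₁ w = κ₁ y ∧ κ₂ w = κ₂ z)).card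

/-- The size of the fibre. -/
noncomputable def fsize (κ : Y → K₁) (y : Y) : ℕ := (univ.filter (fun w => κ w = κ y)).card

lemma fsize_congr (κ : Y → K₁) {x y : Y} (h : κ x = κ y) : fsize κ x = fsize κ y := by
  simp only [fsize, h]

lemma fsize_pos (κ : Y → K₁) (y : Y) : 0 < fsize κ y :=
  Finset.card_pos.mpr ⟨y, by simp⟩

lemma fsize_pos' (κ : Y → K₁) (y : Y) : (0 : ℝ) < fsize κ y := by
  exact_mod_cast fsize_pos κ y

lemma avg_eq_sum (κ : Y → K₁) (u : Y → ℝ) (x : Y) :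
    avg κ u x = ∑ y, (if κ y = κ x then u y else 0) / (fsize κ x : ℝ) := by
  unfold avg fsize
  rw [Finset.sum_filter, Finset.sum_div]

/-- The bilinear form of two averagings in terms of the intersection numbers. -/
theorem dot_avg_avg (κ₁ : Y → K₁) (κ₂ : Y → K₂) (u v : Y → ℝ) :
    dot (avg κ₁ u) (avg κ₂ v) =
      ∑ y, ∑ z, u y * v z * ((inum κ₁ κ₂ y z : ℝ) / ((fsize κ₁ y : ℝ) * (fsize κ₂ z : ℝ))) := by
  unfold dot
  simp only [avg_eq_sum, Finset.sum_mul_sum]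
  rw [Finset.sum_comm]
  refine Finset.sum_congr rfl (fun y _ => ?_)
  rw [Finset.sum_comm]
  refine Finset.sum_congr rfl (fun z _ => ?_)
  have key : ∀ x, (if κ₁ y = κ₁ x then u y else 0) / (fsize κ₁ x : ℝ) *
      ((if κ₂ z = κ₂ x then v z else 0) / (fsize κ₂ x : ℝ)) =
      if κ₁ x = κ₁ y ∧ κ₂ x = κ₂ z then
        u y * v z / ((fsize κ₁ y : ℝ) * (fsize κ₂ z : ℝ)) else 0 := by
    intro x
    by_cases h1 : κ₁ x = κ₁ y
    · by_cases h2 : κ₂ x = κ₂ z
      · rw [if_pos h1.symm, if_pos h2.symm, if_pos ⟨h1, h2⟩, fsize_congr κ₁ h1, fsize_congr κ₂ h2]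
        field_simp
      · have a : ¬ κ₂ z = κ₂ x := fun h => h2 h.symm
        have b : ¬ (κ₁ x = κ₁ y ∧ κ₂ x = κ₂ z) := fun h => h2 h.2
        simp only [a, b, if_false]
        simp
    · have a : ¬ κ₁ y = κ₁ x := fun h => h1 h.symm
      have b : ¬ (κ₁ x = κ₁ y ∧ κ₂ x = κ₂ z) := fun h => h1 h.1
      simp only [a, b, if_false]
      simp
  simp only [key]
  rw [Finset.sum_ite, Finset.sum_const_zero, add_zero, Finset.sum_const, nsmul_eq_mul]
  unfold inum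
  ring

/-- Cauchy-Schwarz for `theta`. -/
theorem theta_bound (κ : Y → K₁) (t s : Y → Prop) (ht : ∀ y y', κ y = κ y' → (t y ↔ t y'))
    (f : Y → ℝ) :
    (∑ y, if t y ∧ s y then prj κ f y else 0) ^ 2 ≤
      ((univ.filter (fun y => t y ∧ s y)).card : ℝ) * theta κ t s f := by
  -- pointwise data
  set pp : Y → ℝ := fun x => ((univ.filter (fun y => κ y = κ x ∧ s y)).card : ℝ) with hpp
  set S : Y → ℝ := fun x => ∑ y ∈ univ.filter (fun y => κ y = κ x ∧ s y), (f y - avg κ f x)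
    with hS
  set cc : Y → ℝ := fun x => ((univ.filter (fun y => κ y = κ x)).card : ℝ) with hcc
  have hcpos : ∀ x, 0 < cc x := fun x => fibre_card_pos κ x
  have hpnn : ∀ x, 0 ≤ pp x := fun x => Nat.cast_nonneg _
  -- the weighted sums as averages
  have h1 : (∑ y, if t y ∧ s y then prj κ f y else 0) =
      ∑ x ∈ univ.filter t, S x / cc x := by
    rw [← sum_fibre_avg κ, Finset.sum_filter]
    refine Finset.sum_congr rfl (fun x _ => ?_)
    simp only [avg]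
    split_ifs with htx
    · congr 1
      rw [Finset.sum_filter, hS]
      simp only
      rw [Finset.sum_filter]
      refine Finset.sum_congr rfl (fun y _ => ?_)
      by_cases hy : κ y = κ x
      · have hty : t y := (ht y x hy).mpr htx
        simp only [hy, true_and, hty, if_true]
        by_cases hsy : s y
        · simp only [hsy, if_true, prj]
          rw [avg_congr κ f hy]
        · simp [hsy]
      · simp [hy]
    · rw [Finset.sum_eq_zero]
      · simp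
      · intro y hy
        have hy' := (Finset.mem_filter.mp hy).2
        rw [if_neg]
        exact fun h => htx ((ht y x hy').mp h.1)
  have h2 : ((univ.filter (fun y => t y ∧ s y)).card : ℝ) =
      ∑ x ∈ univ.filter t, pp x / cc x := by
    have : ((univ.filter (fun y => t y ∧ s y)).card : ℝ) =
        ∑ y, if t y ∧ s y then (1 : ℝ) else 0 := by
      rw [Finset.card_filter]
      push_cast
      rfl
    rw [this, ← sum_fibre_avg κ, Finset.sum_filter]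
    refine Finset.sum_congr rfl (fun x _ => ?_)
    simp only [avg]
    split_ifs with htx
    · congr 1
      rw [hpp]
      simp only
      rw [Finset.card_filter, Finset.sum_filter]
      push_cast
      refine Finset.sum_congr rfl (fun y _ => ?_)
      by_cases hy : κ y = κ x
      · have hty : t y := (ht y x hy).mpr htx
        simp [hy, hty]
      · simp [hy]
    · rw [Finset.sum_eq_zero]
      · simp
      · intro y hy
        have hy' := (Finset.mem_filter.mp hy).2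
        rw [if_neg]
        exact fun h => htx ((ht y x hy').mp h.1)
  have h3 : theta κ t s f = ∑ x ∈ univ.filter t, S x ^ 2 / pp x / cc x := by
    unfold theta
    rw [Finset.sum_filter]
  rw [h1, h2, h3]
  refine Finset.sum_sq_le_sum_mul_sum_of_sq_le_mul _ (fun x _ => ?_) (fun x _ => ?_)
    (fun x _ => le_of_eq ?_)
  · exact div_nonneg (hpnn x) (hcpos x).le
  · exact div_nonneg (div_nonneg (sq_nonneg _) (hpnn x)) (hcpos x).le
  · by_cases hp : pp x = 0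
    · have hempty : univ.filter (fun y => κ y = κ x ∧ s y) = ∅ := by
        have hp' : ((univ.filter (fun y => κ y = κ x ∧ s y)).card : ℝ) = 0 := hp
        have : (univ.filter (fun y => κ y = κ x ∧ s y)).card = 0 := by
          exact_mod_cast hp'
        exact Finset.card_eq_zero.mp this
      have hS0 : S x = 0 := by
        simp only [hS, hempty, Finset.sum_empty]
      simp [hS0, hp]
    · have hc := (hcpos x).ne'
      field_simp

/-- A function constant on the fibres is its own average. -/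
lemma avg_of_const (κ : Y → K₁) {c : Y → ℝ} (hc : ∀ y z, κ z = κ y → c z = c y) : avg κ c = c := by
  funext y
  have hp := fibre_card_pos κ y
  unfold avg
  have h2 : (∑ z ∈ univ.filter (fun z => κ z = κ y), c z) =
      ((univ.filter (fun z => κ z = κ y)).card : ℝ) * c y := by
    rw [← nsmul_eq_mul, ← Finset.sum_const]
    exact Finset.sum_congr rfl (fun z hz => hc y z (Finset.mem_filter.mp hz).2)
  rw [h2]
  field_simp

lemma theta_nonneg (κ : Y → K₁) (t s : Y → Prop) (f : Y → ℝ) : 0 ≤ theta κ t s f := by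
  unfold theta
  refine Finset.sum_nonneg (fun x _ => ?_)
  split_ifs
  · exact div_nonneg (div_nonneg (sq_nonneg _) (Nat.cast_nonneg _)) (Nat.cast_nonneg _)
  · exact le_rfl

end General

section Grid

open Classical

/-- The hypotheses on two fibrations with types. -/
structure Grid (κ₁ : Y → K₁) (κ₂ : Y → K₂) (t₁ t₂ : Y → Prop) : Prop where
  ht₁ : ∀ y y', κ₁ y = κ₁ y' → (t₁ y ↔ t₁ y')
  ht₂ : ∀ y y', κ₂ y = κ₂ y' → (t₂ y ↔ t₂ y')
  hι : ∀ y y', (univ.filter (fun z => κ₁ z = κ₁ y ∧ κ₂ z = κ₂ y')).card =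
    if t₁ y then (if t₂ y' then 2 else 1) else (if t₂ y' then 1 else 0)

variable {κ₁ : Y → K₁} {κ₂ : Y → K₂} {t₁ t₂ : Y → Prop}

lemma Grid.symm (h : Grid κ₁ κ₂ t₁ t₂) : Grid κ₂ κ₁ t₂ t₁ := by
  refine ⟨h.ht₂, h.ht₁, fun y y' => ?_⟩
  have h1 : (univ.filter (fun z => κ₂ z = κ₂ y ∧ κ₁ z = κ₁ y')) =
      (univ.filter (fun z => κ₁ z = κ₁ y' ∧ κ₂ z = κ₂ y)) := by
    ext z
    simp [and_comm]
  rw [h1, h.hι]
  by_cases a : t₁ y' <;> by_cases b : t₂ y <;> simp [a, b]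

lemma Grid.one_of (h : Grid κ₁ κ₂ t₁ t₂) (y : Y) : t₁ y ∨ t₂ y := by
  by_contra hc
  push Not at hc
  have h1 := h.hι y y
  rw [if_neg hc.1, if_neg hc.2] at h1
  have h2 : y ∈ univ.filter (fun z => κ₁ z = κ₁ y ∧ κ₂ z = κ₂ y) := by simp
  rw [Finset.card_eq_zero] at h1
  rw [h1] at h2
  simp at h2

/-- Number of `κ`-labels on the part `t`. -/
noncomputable def nlab (κ : Y → K₁) (t : Y → Prop) : ℕ := ((univ.filter t).image κ).card

/-- Number of `κ`-labels off the part `t`. -/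
noncomputable def nlab' (κ : Y → K₁) (t : Y → Prop) : ℕ :=
  ((univ.filter (fun z => ¬ t z)).image κ).card

lemma Grid.fib_t (h : Grid κ₁ κ₂ t₁ t₂) (x : Y) :
    (univ.filter (fun z => κ₁ z = κ₁ x ∧ t₂ z)).card =
      nlab κ₂ t₂ * (if t₁ x then 2 else 1) := by
  rw [Finset.card_eq_sum_card_fiberwise (f := κ₂) (t := (univ.filter t₂).image κ₂)]
  · unfold nlab
    rw [← smul_eq_mul, ← Finset.sum_const]
    refine Finset.sum_congr rfl (fun b hb => ?_)
    obtain ⟨y', hy', rfl⟩ := Finset.mem_image.mp hb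
    have hy'' := (Finset.mem_filter.mp hy').2
    have h1 : (univ.filter (fun z => κ₁ z = κ₁ x ∧ t₂ z)).filter (fun z => κ₂ z = κ₂ y') =
        univ.filter (fun z => κ₁ z = κ₁ x ∧ κ₂ z = κ₂ y') := by
      ext z
      simp only [Finset.mem_filter, Finset.mem_univ, true_and]
      constructor
      · rintro ⟨⟨a, _⟩, b⟩
        exact ⟨a, b⟩
      · rintro ⟨a, b⟩
        exact ⟨⟨a, (h.ht₂ _ _ b).mpr hy''⟩, b⟩
    rw [h1, h.hι]
    by_cases a : t₁ x <;> simp [a, hy'']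
  · intro z hz
    have hz' := Finset.mem_filter.mp (Finset.mem_coe.mp hz)
    exact Finset.mem_coe.mpr (Finset.mem_image_of_mem _ (by simp [hz'.2.2]))

lemma Grid.fib_nt (h : Grid κ₁ κ₂ t₁ t₂) (x : Y) :
    (univ.filter (fun z => κ₁ z = κ₁ x ∧ ¬ t₂ z)).card =
      nlab' κ₂ t₂ * (if t₁ x then 1 else 0) := by
  rw [Finset.card_eq_sum_card_fiberwise (f := κ₂) (t := (univ.filter (fun z => ¬ t₂ z)).image κ₂)]
  · unfold nlab'
    rw [← smul_eq_mul, ← Finset.sum_const]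
    refine Finset.sum_congr rfl (fun b hb => ?_)
    obtain ⟨y', hy', rfl⟩ := Finset.mem_image.mp hb
    have hy'' := (Finset.mem_filter.mp hy').2
    have h1 : (univ.filter (fun z => κ₁ z = κ₁ x ∧ ¬ t₂ z)).filter (fun z => κ₂ z = κ₂ y') =
        univ.filter (fun z => κ₁ z = κ₁ x ∧ κ₂ z = κ₂ y') := by
      ext z
      simp only [Finset.mem_filter, Finset.mem_univ, true_and]
      constructor
      · rintro ⟨⟨a, _⟩, b⟩
        exact ⟨a, b⟩
      · rintro ⟨a, b⟩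
        exact ⟨⟨a, fun hz => hy'' ((h.ht₂ _ _ b).mp hz)⟩, b⟩
    rw [h1, h.hι]
    by_cases a : t₁ x <;> simp [a, hy'']
  · intro z hz
    have hz' := Finset.mem_filter.mp (Finset.mem_coe.mp hz)
    exact Finset.mem_coe.mpr (Finset.mem_image_of_mem _ (by simp [hz'.2.2]))

/-- The fibre of `κ₁` has size a function of the type of the fibre. -/
lemma Grid.fsize_eq (h : Grid κ₁ κ₂ t₁ t₂) (x : Y) :
    fsize κ₁ x = nlab κ₂ t₂ * (if t₁ x then 2 else 1) +
      nlab' κ₂ t₂ * (if t₁ x then 1 else 0) := by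
  rw [← h.fib_t, ← h.fib_nt]
  unfold fsize
  rw [← Finset.card_filter_add_card_filter_not (s := univ.filter (fun w => κ₁ w = κ₁ x)) t₂]
  rw [Finset.filter_filter, Finset.filter_filter]

/-- Functions of the two types. -/
def IsCl (t₁ t₂ : Y → Prop) (c : Y → ℝ) : Prop := ∃ C : Prop → Prop → ℝ, ∀ y, c y = C (t₁ y) (t₂ y)

lemma IsCl.flip {c : Y → ℝ} (h : IsCl t₁ t₂ c) : IsCl t₂ t₁ c := by
  obtain ⟨C, hC⟩ := h
  exact ⟨fun p q => C q p, hC⟩

lemma IsCl.sub {c c' : Y → ℝ} (h : IsCl t₁ t₂ c) (h' : IsCl t₁ t₂ c') :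
    IsCl t₁ t₂ (c - c') := by
  obtain ⟨C, hC⟩ := h
  obtain ⟨C', hC'⟩ := h'
  exact ⟨fun p q => C p q - C' p q, fun y => by simp [hC, hC']⟩

/-- The average of a function of the types along `κ₁`, as a sum. -/
lemma Grid.sum_fib (h : Grid κ₁ κ₂ t₁ t₂) (C : Prop → Prop → ℝ) (x : Y) :
    (∑ z ∈ univ.filter (fun z => κ₁ z = κ₁ x), C (t₁ z) (t₂ z)) =
      (nlab κ₂ t₂ * (if t₁ x then 2 else 1) : ℕ) * C (t₁ x) True +
      (nlab' κ₂ t₂ * (if t₁ x then 1 else 0) : ℕ) * C (t₁ x) False := by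
  rw [← h.fib_t, ← h.fib_nt,
    ← Finset.sum_filter_add_sum_filter_not (univ.filter (fun z => κ₁ z = κ₁ x)) t₂,
    Finset.filter_filter, Finset.filter_filter]
  congr 1
  · rw [← nsmul_eq_mul, ← Finset.sum_const]
    refine Finset.sum_congr rfl (fun z hz => ?_)
    have hz' := (Finset.mem_filter.mp hz).2
    have e1 : t₁ z = t₁ x := propext (h.ht₁ _ _ hz'.1)
    have e2 : t₂ z = True := propext ⟨fun _ => trivial, fun _ => hz'.2⟩
    rw [e1, e2]
  · rw [← nsmul_eq_mul, ← Finset.sum_const]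
    refine Finset.sum_congr rfl (fun z hz => ?_)
    have hz' := (Finset.mem_filter.mp hz).2
    have e1 : t₁ z = t₁ x := propext (h.ht₁ _ _ hz'.1)
    have e2 : t₂ z = False := propext ⟨fun a => hz'.2 a, False.elim⟩
    rw [e1, e2]

lemma Grid.avg_cl (h : Grid κ₁ κ₂ t₁ t₂) {c : Y → ℝ} (hc : IsCl t₁ t₂ c) :
    IsCl t₁ t₂ (avg κ₁ c) := by
  obtain ⟨C, hC⟩ := hc
  refine ⟨fun p _ => (((nlab κ₂ t₂ * (if p then 2 else 1) : ℕ) : ℝ) * C p True +
      ((nlab' κ₂ t₂ * (if p then 1 else 0) : ℕ) : ℝ) * C p False) /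
      (((nlab κ₂ t₂ * (if p then 2 else 1) + nlab' κ₂ t₂ * (if p then 1 else 0) : ℕ)) :
        ℝ), fun y => ?_⟩
  have h1 : avg κ₁ c y = (∑ z ∈ univ.filter (fun z => κ₁ z = κ₁ y), C (t₁ z) (t₂ z)) /
      (fsize κ₁ y : ℝ) := by
    simp only [avg, fsize, hC]
  rw [h1, h.sum_fib, h.fsize_eq]

lemma Grid.avg_cl₂ (h : Grid κ₁ κ₂ t₁ t₂) {c : Y → ℝ} (hc : IsCl t₁ t₂ c) :
    IsCl t₁ t₂ (avg κ₂ c) := (h.symm.avg_cl hc.flip).flip

lemma Grid.prj_cl (h : Grid κ₁ κ₂ t₁ t₂) {c : Y → ℝ} (hc : IsCl t₁ t₂ c) :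
    IsCl t₁ t₂ (prj κ₁ c) := hc.sub (h.avg_cl hc)

lemma Grid.prj_cl₂ (h : Grid κ₁ κ₂ t₁ t₂) {c : Y → ℝ} (hc : IsCl t₁ t₂ c) :
    IsCl t₁ t₂ (prj κ₂ c) := hc.sub (h.avg_cl₂ hc)

/-- On fibres of type II the function of the types is constant. -/
lemma Grid.prj_vanish (h : Grid κ₁ κ₂ t₁ t₂) {c : Y → ℝ} (hc : IsCl t₁ t₂ c) {y : Y}
    (hy : ¬ t₁ y) : prj κ₁ c y = 0 := by
  obtain ⟨C, hC⟩ := hc
  have h1 : avg κ₁ c y = (∑ z ∈ univ.filter (fun z => κ₁ z = κ₁ y), c z) /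
      (fsize κ₁ y : ℝ) := by
    simp only [avg, fsize]
  have h2 : (∑ z ∈ univ.filter (fun z => κ₁ z = κ₁ y), c z) =
      (fsize κ₁ y : ℝ) * c y := by
    unfold fsize
    rw [← nsmul_eq_mul, ← Finset.sum_const]
    refine Finset.sum_congr rfl (fun z hz => ?_)
    have hz' := (Finset.mem_filter.mp hz).2
    have hz1 : ¬ t₁ z := fun a => hy ((h.ht₁ _ _ hz').mp a)
    have hz2 : t₂ z := (h.one_of z).resolve_left hz1
    have hy2 : t₂ y := (h.one_of y).resolve_left hy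
    rw [hC z, hC y]
    have e1 : t₁ z = t₁ y := propext ⟨fun a => absurd a hz1, fun a => absurd a hy⟩
    have e2 : t₂ z = t₂ y := propext ⟨fun _ => hy2, fun _ => hz2⟩
    rw [e1, e2]
  have hp := fsize_pos' κ₁ y
  simp only [prj]
  rw [h1, h2]
  field_simp
  ring

/-- The label of types. -/
def tyl (t₁ t₂ : Y → Prop) (y : Y) : Prop × Prop := (t₁ y, t₂ y)

/-- `v` is orthogonal to the functions of the types. -/
def Perp (t₁ t₂ : Y → Prop) (v : Y → ℝ) : Prop := ∀ c, IsCl t₁ t₂ c → dot c v = 0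

lemma Perp.flip {v : Y → ℝ} (h : Perp t₁ t₂ v) : Perp t₂ t₁ v := fun c hc => h c hc.flip

lemma avg_tyl_cl (f : Y → ℝ) : IsCl t₁ t₂ (avg (tyl t₁ t₂) f) := by
  refine ⟨fun p q => if h : ∃ z, tyl t₁ t₂ z = (p, q) then avg (tyl t₁ t₂) f h.choose else 0,
    fun y => ?_⟩
  have h : ∃ z, tyl t₁ t₂ z = (t₁ y, t₂ y) := ⟨y, rfl⟩
  simp only
  rw [dif_pos h]
  exact avg_congr _ _ h.choose_spec.symm

lemma avg_tyl_of_cl {c : Y → ℝ} (hc : IsCl t₁ t₂ c) : avg (tyl t₁ t₂) c = c := by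
  obtain ⟨C, hC⟩ := hc
  refine avg_of_const _ (fun y z hz => ?_)
  have e := Prod.mk.inj hz
  rw [hC z, hC y, e.1, e.2]

lemma perp_prj_tyl (f : Y → ℝ) : Perp t₁ t₂ (prj (tyl t₁ t₂) f) := by
  intro c hc
  rw [← avg_tyl_of_cl hc, prj_eq, dot_sub_right, dot_avg_left, dot_avg_left, avg_avg, sub_self]

/-- The intersection weights are functions of the types. -/
lemma Grid.weight_cl (h : Grid κ₁ κ₂ t₁ t₂) (y : Y) :
    IsCl t₁ t₂ (fun z => (inum κ₁ κ₂ y z : ℝ) / ((fsize κ₁ y : ℝ) * (fsize κ₂ z : ℝ))) := by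
  refine ⟨fun _ q => (((if t₁ y then (if q then 2 else 1) else (if q then 1 else 0) : ℕ)) : ℝ) /
    ((fsize κ₁ y : ℝ) * (((nlab κ₁ t₁ * (if q then 2 else 1) +
      nlab' κ₁ t₁ * (if q then 1 else 0) : ℕ)) : ℝ)), fun z => ?_⟩
  have h1 : inum κ₁ κ₂ y z = _ := h.hι y z
  simp only
  rw [h1, h.symm.fsize_eq z]

lemma Grid.K_zero (h : Grid κ₁ κ₂ t₁ t₂) (u : Y → ℝ) {v : Y → ℝ} (hv : Perp t₁ t₂ v) :
    dot (avg κ₁ u) (avg κ₂ v) = 0 := by
  rw [dot_avg_avg]
  refine Finset.sum_eq_zero (fun y _ => ?_)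
  have h1 := hv _ (h.weight_cl y)
  have h2 : (∑ z, u y * v z * ((inum κ₁ κ₂ y z : ℝ) / ((fsize κ₁ y : ℝ) * (fsize κ₂ z : ℝ)))) =
      u y * dot (fun z => (inum κ₁ κ₂ y z : ℝ) / ((fsize κ₁ y : ℝ) * (fsize κ₂ z : ℝ))) v := by
    unfold dot
    rw [Finset.mul_sum]
    refine Finset.sum_congr rfl (fun z _ => ?_)
    ring
  rw [h2, h1, mul_zero]

lemma Grid.K_zero' (h : Grid κ₁ κ₂ t₁ t₂) {u : Y → ℝ} (hu : Perp t₁ t₂ u) (v : Y → ℝ) :
    dot (avg κ₁ u) (avg κ₂ v) = 0 := by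
  rw [dot_comm]
  exact h.symm.K_zero v hu.flip

/-- Mixed terms vanish. -/
lemma Grid.mixed (h : Grid κ₁ κ₂ t₁ t₂) {c v : Y → ℝ} (hc : IsCl t₁ t₂ c) (hv : Perp t₁ t₂ v) :
    dot (prj κ₁ c) (prj κ₂ v) = 0 := by
  rw [prj_eq κ₂ v, dot_sub_right, hv _ (h.prj_cl hc), prj_eq κ₁ c, dot_sub_left,
    h.K_zero _ hv, ← dot_avg_left κ₂ c v, hv _ (h.avg_cl₂ hc)]
  ring

lemma Grid.mixed' (h : Grid κ₁ κ₂ t₁ t₂) {c v : Y → ℝ} (hc : IsCl t₁ t₂ c) (hv : Perp t₁ t₂ v) :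
    dot (prj κ₁ v) (prj κ₂ c) = 0 := by
  rw [dot_comm]
  exact h.symm.mixed hc.flip hv.flip

lemma dot_avg_self (κ : Y → K₁) (u : Y → ℝ) : dot u (avg κ u) = dot (avg κ u) (avg κ u) := by
  rw [dot_avg_left κ u (avg κ u), avg_avg]

/-- The case `f` of the `Perp` part. -/
lemma Grid.perp_part (h : Grid κ₁ κ₂ t₁ t₂) (sw : Y → Y)
    (hsw1 : ∀ y, t₁ y → t₂ y → κ₁ (sw y) = κ₁ y ∧ κ₂ (sw y) = κ₂ y)
    (hsw2 : ∀ y, t₁ y → t₂ y → sw y ≠ y) {v : Y → ℝ} (hv : Perp t₁ t₂ v) :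
    (1 / 4 : ℝ) * (∑ y, if t₁ y ∧ t₂ y then (v (sw y) - v y) ^ 2 else 0) ≤
      dot (prj κ₁ v) (prj κ₂ v) := by
  -- `sw` is an involution of the set `D`
  set D := univ.filter (fun y => t₁ y ∧ t₂ y) with hD
  have hsD : ∀ y ∈ D, sw y ∈ D := by
    intro y hy
    have hy' := (Finset.mem_filter.mp hy).2
    have e := hsw1 y hy'.1 hy'.2
    exact Finset.mem_filter.mpr ⟨Finset.mem_univ _, (h.ht₁ _ _ e.1).mpr hy'.1,
      (h.ht₂ _ _ e.2).mpr hy'.2⟩
  have hinv : ∀ y ∈ D, sw (sw y) = y := by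
    intro y hy
    have hy' := (Finset.mem_filter.mp hy).2
    have hsy' := (Finset.mem_filter.mp (hsD y hy)).2
    have e := hsw1 y hy'.1 hy'.2
    have e2 := hsw1 (sw y) hsy'.1 hsy'.2
    by_contra hne
    have hcard := h.hι y y
    rw [if_pos hy'.1, if_pos hy'.2] at hcard
    have hsub : ({y, sw y, sw (sw y)} : Finset Y) ⊆
        univ.filter (fun z => κ₁ z = κ₁ y ∧ κ₂ z = κ₂ y) := by
      intro z hz
      simp only [Finset.mem_insert, Finset.mem_singleton] at hz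
      rcases hz with rfl | rfl | rfl
      · simp
      · simp [e.1, e.2]
      · simp [e.1, e.2, e2.1, e2.2]
    have h3 : ({y, sw y, sw (sw y)} : Finset Y).card = 3 := by
      rw [Finset.card_eq_three]
      exact ⟨y, sw y, sw (sw y), (hsw2 y hy'.1 hy'.2).symm, fun a => hne a.symm,
        (hsw2 _ hsy'.1 hsy'.2).symm, rfl⟩
    have := Finset.card_le_card hsub
    omega
  have hreindex : ∀ φ : Y → ℝ, (∑ y ∈ D, φ (sw y)) = ∑ y ∈ D, φ y := by
    intro φ
    exact Finset.sum_nbij' sw sw hsD hsD hinv hinv (fun _ _ => rfl)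
  -- the antisymmetric part
  set a : Y → ℝ := fun y => if t₁ y ∧ t₂ y then (v y - v (sw y)) / 2 else 0 with ha
  have hdot : ∀ g : Y → ℝ, dot g a = ∑ y ∈ D, g y * ((v y - v (sw y)) / 2) := by
    intro g
    unfold dot
    rw [hD, Finset.sum_filter]
    refine Finset.sum_congr rfl (fun y _ => ?_)
    simp only [ha]
    split_ifs <;> simp
  have horth : ∀ g : Y → ℝ, (∀ y ∈ D, g (sw y) = g y) → dot g a = 0 := by
    intro g hg
    rw [hdot]
    have h1 : (∑ y ∈ D, g y * v (sw y)) = ∑ y ∈ D, g y * v y := by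
      rw [← hreindex (fun y => g y * v y)]
      exact Finset.sum_congr rfl (fun y hy => by rw [hg y hy])
    have h2 : (∑ y ∈ D, g y * ((v y - v (sw y)) / 2)) =
        (1 / 2) * ((∑ y ∈ D, g y * v y) - ∑ y ∈ D, g y * v (sw y)) := by
      rw [← Finset.sum_sub_distrib, Finset.mul_sum]
      exact Finset.sum_congr rfl (fun y _ => by ring)
    rw [h2, h1]
    ring
  have hh1 : dot v a = (1 / 4) * ∑ y ∈ D, (v (sw y) - v y) ^ 2 := by
    rw [hdot]
    have h1 := hreindex (fun y => v y ^ 2)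
    have h2 : (∑ y ∈ D, (v (sw y) - v y) ^ 2) =
        (∑ y ∈ D, v (sw y) ^ 2) + (∑ y ∈ D, v y ^ 2) - 2 * ∑ y ∈ D, v y * v (sw y) := by
      rw [Finset.mul_sum, ← Finset.sum_add_distrib, ← Finset.sum_sub_distrib]
      exact Finset.sum_congr rfl (fun y _ => by ring)
    have h3 : (∑ y ∈ D, v y * ((v y - v (sw y)) / 2)) =
        (1 / 2) * ((∑ y ∈ D, v y ^ 2) - ∑ y ∈ D, v y * v (sw y)) := by
      rw [← Finset.sum_sub_distrib, Finset.mul_sum]
      exact Finset.sum_congr rfl (fun y _ => by ring)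
    rw [h3, h2, h1]
    ring
  have hh2 : dot a a = (1 / 4) * ∑ y ∈ D, (v (sw y) - v y) ^ 2 := by
    rw [hdot, Finset.mul_sum]
    refine Finset.sum_congr rfl (fun y hy => ?_)
    have hy' := (Finset.mem_filter.mp hy).2
    simp only [ha]
    rw [if_pos hy']
    ring
  -- the square
  have hg1 : ∀ y ∈ D, avg κ₁ v (sw y) = avg κ₁ v y := fun y hy => by
    have hy' := (Finset.mem_filter.mp hy).2
    exact avg_congr κ₁ v (hsw1 y hy'.1 hy'.2).1
  have hg2 : ∀ y ∈ D, avg κ₂ v (sw y) = avg κ₂ v y := fun y hy => by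
    have hy' := (Finset.mem_filter.mp hy).2
    exact avg_congr κ₂ v (hsw1 y hy'.1 hy'.2).2
  have hsq := dot_self_nonneg (v - avg κ₁ v - avg κ₂ v - a)
  have e12 := h.K_zero' hv v
  have e1a := horth _ hg1
  have e2a := horth _ hg2
  have e1 := dot_avg_self κ₁ v
  have e2 := dot_avg_self κ₂ v
  simp only [dot_sub_left, dot_sub_right] at hsq
  have c1 := dot_comm (avg κ₁ v) v
  have c2 := dot_comm (avg κ₂ v) v
  have c3 := dot_comm a v
  have c4 := dot_comm (avg κ₂ v) (avg κ₁ v)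
  have c5 := dot_comm a (avg κ₁ v)
  have c6 := dot_comm a (avg κ₂ v)
  have hmain : dot (prj κ₁ v) (prj κ₂ v) =
      dot v v - dot (avg κ₁ v) (avg κ₁ v) - dot (avg κ₂ v) (avg κ₂ v) := by
    rw [prj_eq, prj_eq, dot_sub_left, dot_sub_right, dot_sub_right, e12]
    linarith
  have hsum : (∑ y, if t₁ y ∧ t₂ y then (v (sw y) - v y) ^ 2 else 0) =
      ∑ y ∈ D, (v (sw y) - v y) ^ 2 := by
    rw [hD, Finset.sum_filter]
  rw [hsum, hmain]
  linarith

/-- The main estimate. -/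
theorem Grid.main (h : Grid κ₁ κ₂ t₁ t₂) (sw : Y → Y)
    (hsw1 : ∀ y, t₁ y → t₂ y → κ₁ (sw y) = κ₁ y ∧ κ₂ (sw y) = κ₂ y)
    (hsw2 : ∀ y, t₁ y → t₂ y → sw y ≠ y) (f : Y → ℝ) :
    (1 / 4 : ℝ) * (∑ y, if t₁ y ∧ t₂ y then (f (sw y) - f y) ^ 2 else 0)
        - (1 / 2) * theta κ₁ t₁ t₂ f - (1 / 2) * theta κ₂ t₂ t₁ f ≤
      dot (prj κ₁ f) (prj κ₂ f) := by
  set c₀ := avg (tyl t₁ t₂) f with hc₀
  set v := prj (tyl t₁ t₂) f with hv
  have hfd : f = c₀ + v := by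
    funext y
    simp [hc₀, hv, prj]
  have hcl : IsCl t₁ t₂ c₀ := avg_tyl_cl f
  have hperp : Perp t₁ t₂ v := perp_prj_tyl f
  set D := univ.filter (fun y => t₁ y ∧ t₂ y) with hD
  -- decomposition of the bilinear form
  have hdec : dot (prj κ₁ f) (prj κ₂ f) = dot (prj κ₁ c₀) (prj κ₂ c₀) + dot (prj κ₁ v) (prj κ₂ v) := by
    conv_lhs => rw [hfd, prj_add, prj_add]
    rw [dot_add_left, dot_add_right, dot_add_right, h.mixed hcl hperp, h.mixed' hcl hperp]
    ring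
  -- the antisymmetric part sees only `v`
  have hq : (∑ y, if t₁ y ∧ t₂ y then (f (sw y) - f y) ^ 2 else 0) =
      ∑ y, if t₁ y ∧ t₂ y then (v (sw y) - v y) ^ 2 else 0 := by
    refine Finset.sum_congr rfl (fun y _ => ?_)
    split_ifs with hy
    · have e := hsw1 y hy.1 hy.2
      have h1 : tyl t₁ t₂ (sw y) = tyl t₁ t₂ y := by
        unfold tyl
        rw [propext (h.ht₁ _ _ e.1), propext (h.ht₂ _ _ e.2)]
      have h2 : c₀ (sw y) = c₀ y := avg_congr _ _ h1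
      rw [hfd]
      simp only [Pi.add_apply]
      rw [h2]
      ring
    · rfl
  -- the class part
  obtain ⟨C₁, hC₁⟩ := h.prj_cl hcl
  obtain ⟨C₂, hC₂⟩ := h.prj_cl₂ hcl
  have hdm : ∀ y ∈ D, t₁ y ∧ t₂ y := fun y hy => (Finset.mem_filter.mp hy).2
  have htt : ∀ y ∈ D, t₁ y = True ∧ t₂ y = True := fun y hy =>
    ⟨propext ⟨fun _ => trivial, fun _ => (hdm y hy).1⟩,
      propext ⟨fun _ => trivial, fun _ => (hdm y hy).2⟩⟩
  have hcc : dot (prj κ₁ c₀) (prj κ₂ c₀) = (D.card : ℝ) * (C₁ True True * C₂ True True) := by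
    rw [← nsmul_eq_mul, ← Finset.sum_const]
    unfold dot
    rw [← Finset.sum_subset (Finset.subset_univ D)]
    · refine Finset.sum_congr rfl (fun y hy => ?_)
      have e := htt y hy
      rw [hC₁ y, hC₂ y, e.1, e.2]
    · intro y _ hy
      have hy' : ¬ (t₁ y ∧ t₂ y) := fun a => hy (Finset.mem_filter.mpr ⟨Finset.mem_univ _, a⟩)
      by_cases a : t₁ y
      · have b : ¬ t₂ y := fun b => hy' ⟨a, b⟩
        rw [h.symm.prj_vanish hcl.flip b, mul_zero]
      · rw [h.prj_vanish hcl a, zero_mul]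
  -- the sums over `D`
  have hindD : IsCl t₁ t₂ (fun y => if t₁ y ∧ t₂ y then (1 : ℝ) else 0) :=
    ⟨fun p q => if p ∧ q then 1 else 0, fun _ => rfl⟩
  have hW₁ : (∑ y, if t₁ y ∧ t₂ y then prj κ₁ f y else 0) = (D.card : ℝ) * C₁ True True := by
    have h0 : dot (fun y => if t₁ y ∧ t₂ y then (1 : ℝ) else 0) (prj κ₁ v) = 0 := by
      rw [dot_comm, dot_prj_comm, dot_comm]
      exact hperp _ (h.prj_cl hindD)
    have h1 : (∑ y, if t₁ y ∧ t₂ y then prj κ₁ v y else 0) = 0 := by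
      have e : (∑ y, if t₁ y ∧ t₂ y then prj κ₁ v y else 0) =
          dot (fun y => if t₁ y ∧ t₂ y then (1 : ℝ) else 0) (prj κ₁ v) := by
        unfold dot
        refine Finset.sum_congr rfl (fun y _ => ?_)
        by_cases hy : t₁ y ∧ t₂ y
        · simp only [if_pos hy, one_mul]
        · simp only [if_neg hy, zero_mul]
      rw [e, h0]
    have h2 : (∑ y, if t₁ y ∧ t₂ y then prj κ₁ c₀ y else 0) = (D.card : ℝ) * C₁ True True := by
      rw [← nsmul_eq_mul, ← Finset.sum_const, hD, Finset.sum_filter]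
      refine Finset.sum_congr rfl (fun y _ => ?_)
      split_ifs with hy
      · have e : t₁ y = True ∧ t₂ y = True :=
          ⟨propext ⟨fun _ => trivial, fun _ => hy.1⟩, propext ⟨fun _ => trivial, fun _ => hy.2⟩⟩
        rw [hC₁ y, e.1, e.2]
      · rfl
    rw [← h2, ← add_zero (∑ y, if t₁ y ∧ t₂ y then prj κ₁ c₀ y else 0), ← h1,
      ← Finset.sum_add_distrib]
    refine Finset.sum_congr rfl (fun y _ => ?_)
    split_ifs
    · conv_lhs => rw [hfd, prj_add]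
      rfl
    · simp
  have hW₂ : (∑ y, if t₁ y ∧ t₂ y then prj κ₂ f y else 0) = (D.card : ℝ) * C₂ True True := by
    have h0 : dot (fun y => if t₁ y ∧ t₂ y then (1 : ℝ) else 0) (prj κ₂ v) = 0 := by
      rw [dot_comm, dot_prj_comm, dot_comm]
      exact hperp _ (h.prj_cl₂ hindD)
    have h1 : (∑ y, if t₁ y ∧ t₂ y then prj κ₂ v y else 0) = 0 := by
      have e : (∑ y, if t₁ y ∧ t₂ y then prj κ₂ v y else 0) =
          dot (fun y => if t₁ y ∧ t₂ y then (1 : ℝ) else 0) (prj κ₂ v) := by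
        unfold dot
        refine Finset.sum_congr rfl (fun y _ => ?_)
        by_cases hy : t₁ y ∧ t₂ y
        · simp only [if_pos hy, one_mul]
        · simp only [if_neg hy, zero_mul]
      rw [e, h0]
    have h2 : (∑ y, if t₁ y ∧ t₂ y then prj κ₂ c₀ y else 0) = (D.card : ℝ) * C₂ True True := by
      rw [← nsmul_eq_mul, ← Finset.sum_const, hD, Finset.sum_filter]
      refine Finset.sum_congr rfl (fun y _ => ?_)
      split_ifs with hy
      · have e : t₁ y = True ∧ t₂ y = True :=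
          ⟨propext ⟨fun _ => trivial, fun _ => hy.1⟩, propext ⟨fun _ => trivial, fun _ => hy.2⟩⟩
        rw [hC₂ y, e.1, e.2]
      · rfl
    rw [← h2, ← add_zero (∑ y, if t₁ y ∧ t₂ y then prj κ₂ c₀ y else 0), ← h1,
      ← Finset.sum_add_distrib]
    refine Finset.sum_congr rfl (fun y _ => ?_)
    split_ifs
    · conv_lhs => rw [hfd, prj_add]
      rfl
    · simp
  -- Cauchy-Schwarz
  have hth₁ := theta_bound κ₁ t₁ t₂ h.ht₁ f
  have hth₂ := theta_bound κ₂ t₂ t₁ h.ht₂ f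
  have hD' : (univ.filter (fun y => t₂ y ∧ t₁ y)) = D := by
    rw [hD]
    exact Finset.filter_congr (fun y _ => and_comm)
  have hsum2 : (∑ y, if t₂ y ∧ t₁ y then prj κ₂ f y else 0) =
      ∑ y, if t₁ y ∧ t₂ y then prj κ₂ f y else 0 :=
    Finset.sum_congr rfl (fun y _ => by simp only [and_comm])
  rw [hsum2, hD', hW₂] at hth₂
  rw [← hD, hW₁] at hth₁
  have hn₁ := theta_nonneg κ₁ t₁ t₂ f
  have hn₂ := theta_nonneg κ₂ t₂ t₁ f
  have hfinal₁ : (D.card : ℝ) * (C₁ True True) ^ 2 ≤ theta κ₁ t₁ t₂ f := by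
    by_cases hd : D.card = 0
    · simpa [hd] using hn₁
    · have hpos : (0 : ℝ) < D.card := by exact_mod_cast Nat.pos_of_ne_zero hd
      have : (D.card : ℝ) * ((D.card : ℝ) * (C₁ True True) ^ 2) ≤
          (D.card : ℝ) * theta κ₁ t₁ t₂ f := by nlinarith
      exact le_of_mul_le_mul_left this hpos
  have hfinal₂ : (D.card : ℝ) * (C₂ True True) ^ 2 ≤ theta κ₂ t₂ t₁ f := by
    by_cases hd : D.card = 0
    · simpa [hd] using hn₂
    · have hpos : (0 : ℝ) < D.card := by exact_mod_cast Nat.pos_of_ne_zero hd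
      have : (D.card : ℝ) * ((D.card : ℝ) * (C₂ True True) ^ 2) ≤
          (D.card : ℝ) * theta κ₂ t₂ t₁ f := by nlinarith
      exact le_of_mul_le_mul_left this hpos
  have hpp := h.perp_part sw hsw1 hsw2 hperp
  have hcard : (0 : ℝ) ≤ D.card := Nat.cast_nonneg _
  have hprod : -(1 / 2) * ((D.card : ℝ) * (C₁ True True) ^ 2) -
      (1 / 2) * ((D.card : ℝ) * (C₂ True True) ^ 2) ≤
      (D.card : ℝ) * (C₁ True True * C₂ True True) := by
    nlinarith [mul_nonneg hcard (sq_nonneg (C₁ True True + C₂ True True))]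
  rw [hdec, hcc, hq]
  linarith

end Grid

open Classical in
theorem twofib_main (κ₁ : Y → K₁) (κ₂ : Y → K₂) (t₁ t₂ : Y → Prop)
    (ht₁ : ∀ y y', κ₁ y = κ₁ y' → (t₁ y ↔ t₁ y')) (ht₂ : ∀ y y', κ₂ y = κ₂ y' → (t₂ y ↔ t₂ y'))
    (hι : ∀ y y', (univ.filter (fun z => κ₁ z = κ₁ y ∧ κ₂ z = κ₂ y')).card =
      if t₁ y then (if t₂ y' then 2 else 1) else (if t₂ y' then 1 else 0))
    (sw : Y → Y) (hsw1 : ∀ y, t₁ y → t₂ y → κ₁ (sw y) = κ₁ y ∧ κ₂ (sw y) = κ₂ y)
    (hsw2 : ∀ y, t₁ y → t₂ y → sw y ≠ y) (f : Y → ℝ) :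
    (1 / 4 : ℝ) * (∑ y, if t₁ y ∧ t₂ y then (f (sw y) - f y) ^ 2 else 0)
        - (1 / 2) * theta κ₁ t₁ t₂ f - (1 / 2) * theta κ₂ t₂ t₁ f ≤
      dot (prj κ₁ f) (prj κ₂ f) :=
  Grid.main ⟨ht₁, ht₂, hι⟩ sw hsw1 hsw2 f

open Classical in
theorem twofib_commuting (κ₁ : Y → K₁) (κ₂ : Y → K₂)
    (hι : ∀ y y', (univ.filter (fun z => κ₁ z = κ₁ y ∧ κ₂ z = κ₂ y')).card = 1) (f : Y → ℝ) :
    0 ≤ dot (prj κ₁ f) (prj κ₂ f) := by
  have h := twofib_main κ₁ κ₂ (fun _ => True) (fun _ => False)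
    (fun _ _ _ => Iff.rfl) (fun _ _ _ => Iff.rfl) (fun y y' => by simpa using hι y y') id
    (fun _ _ hf => hf.elim) (fun _ _ hf => hf.elim) f
  have h1 : theta κ₁ (fun _ => True) (fun _ => False) f = 0 := by
    unfold theta
    simp
  have h2 : theta κ₂ (fun _ => False) (fun _ => True) f = 0 := by
    unfold theta
    simp
  rw [h1, h2] at h
  simpa using h

end Vale.Agent.P335
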