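import Vale.Agent.P335.Defs
import Vale.Agent.P335.TwoFib

/-!
# P335: basic objects on `Ω_d`

`Block a b`: the cells (potential edges) `s(a,c)`, `s(b,c)`, `c ∉ {a,b}`; the re-split of the vertex
pair `(a,b)` changes only those.  `lab a b G`: the edge set of `G` with these cells erased; the
fibres of `lab a b` in `Ω_d` are the re-split classes.
`SW a b u w E`: `a,b,u,w` distinct, `au, bw ∈ E`, `aw, bu ∉ E`, `swE` performs the switch.
-/

namespace Vale.Agent.P335

open Finset

variable {n : ℕ} {d : Fin n → ℕ}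

/-- The cells in the block of the vertex pair `(a,b)`. -/
def Block (a b : Fin n) (e : Sym2 (Fin n)) : Prop := (a ∈ e ∨ b ∈ e) ∧ e ≠ s(a, b)

open Classical in
/-- The label of `G`: its edges outside the block. -/
noncomputable def lab (a b : Fin n) (G : Realizations d) : Finset (Sym2 (Fin n)) :=
  G.1.filter (fun e => ¬ Block a b e)

/-- The four vertices are distinct and the alternating `4`-cycle `a u b w` is present. -/
def SW (a b u w : Fin n) (E : Finset (Sym2 (Fin n))) : Prop :=
  a ≠ b ∧ a ≠ u ∧ a ≠ w ∧ b ≠ u ∧ b ≠ w ∧ u ≠ w ∧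
    s(a, u) ∈ E ∧ s(b, w) ∈ E ∧ s(a, w) ∉ E ∧ s(b, u) ∉ E

/-- The switch: remove `au`, `bw`, insert `aw`, `bu`. -/
def swE (a b u w : Fin n) (E : Finset (Sym2 (Fin n))) : Finset (Sym2 (Fin n)) :=
  insert s(a, w) (insert s(b, u) ((E.erase s(a, u)).erase s(b, w)))

/-- Degree as a sum. -/
lemma edgeDegree_eq_sum (E : Finset (Sym2 (Fin n))) (v : Fin n) :
    edgeDegree E v = ∑ e ∈ E, if v ∈ e then 1 else 0 := by
  unfold edgeDegree
  rw [Finset.card_filter]

theorem swE_mem (a b u w : Fin n) (G : Realizations d) (h : SW a b u w G.1) :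
    IsRealization d (swE a b u w G.1) := by
  obtain ⟨hab, hau, haw, hbu, hbw, huw, h1, h2, h3, h4⟩ := h
  have hne1 : s(a, u) ≠ s(b, w) := by
    intro h
    rcases Sym2.eq_iff.mp h with ⟨h, _⟩ | ⟨h, _⟩
    · exact hab h
    · exact haw h
  have hne2 : s(a, w) ≠ s(b, u) := by
    intro h
    rcases Sym2.eq_iff.mp h with ⟨h, _⟩ | ⟨h, _⟩
    · exact hab h
    · exact hau h
  have hdiag := G.2.1
  constructor
  · intro e he
    simp only [swE, Finset.mem_insert, Finset.mem_erase] at he
    rcases he with rfl | rfl | ⟨_, _, he⟩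
    · simpa using haw
    · simpa using hbu
    · exact hdiag e he
  · intro v
    rw [← G.2.2 v, edgeDegree_eq_sum, edgeDegree_eq_sum]
    have hm1 : s(b, u) ∉ (G.1.erase s(a, u)).erase s(b, w) := by
      intro h
      exact h4 (Finset.mem_of_mem_erase (Finset.mem_of_mem_erase h))
    have hm2 : s(a, w) ∉ insert s(b, u) ((G.1.erase s(a, u)).erase s(b, w)) := by
      intro h
      rcases Finset.mem_insert.mp h with h | h
      · exact hne2 h
      · exact h3 (Finset.mem_of_mem_erase (Finset.mem_of_mem_erase h))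
    have hm3 : s(b, w) ∈ G.1.erase s(a, u) := Finset.mem_erase.mpr ⟨hne1.symm, h2⟩
    unfold swE
    rw [Finset.sum_insert hm2, Finset.sum_insert hm1]
    have e1 := Finset.add_sum_erase (G.1.erase s(a, u)) (fun e => if v ∈ e then 1 else 0) hm3
    have e2 := Finset.add_sum_erase G.1 (fun e => if v ∈ e then 1 else 0) h1
    have key : (if v ∈ s(a, w) then 1 else 0) + (if v ∈ s(b, u) then 1 else 0) =
        (if v ∈ s(a, u) then 1 else 0) + (if v ∈ s(b, w) then 1 else 0) := by
      simp only [Sym2.mem_iff]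
      by_cases h1 : v = a <;> by_cases h2 : v = b <;> by_cases h3 : v = u <;>
        by_cases h4 : v = w <;> simp [h1, h2, h3, h4] <;> simp_all
    omega

open Classical in
/-- The switch as a map of `Ω_d` (identity when the switch is not available). -/
noncomputable def swOm (a b u w : Fin n) (G : Realizations d) : Realizations d :=
  if h : SW a b u w G.1 then ⟨swE a b u w G.1, swE_mem a b u w G h⟩ else G

/-- The Dirichlet sum of `f` over the switches of pattern `(a,b,u,w)`. -/
noncomputable def Sq (a b u w : Fin n) (f : Realizations d → ℝ) : ℝ :=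
  ∑ G, (f (swOm a b u w G) - f G) ^ 2

/-- `u` and `w` both lie in the symmetric difference of the neighbourhoods of `a` and `b`. -/
def bothIn (a b u w : Fin n) (G : Realizations d) : Prop :=
  (s(a, u) ∈ G.1 ↔ s(b, u) ∉ G.1) ∧ (s(a, w) ∈ G.1 ↔ s(b, w) ∉ G.1)

/-- The neighbourhood of `a` separates `u` and `w`. -/
def sepBy (a u w : Fin n) (G : Realizations d) : Prop := s(a, u) ∈ G.1 ↔ s(a, w) ∉ G.1

/-- The Johnson functional of the pair `(a,b)` along `(u,w)`. -/
noncomputable def Th (a b u w : Fin n) (f : Realizations d → ℝ) : ℝ :=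
  theta (lab a b) (bothIn a b u w) (sepBy a u w) f

lemma Block_comm (a b : Fin n) (e : Sym2 (Fin n)) : Block a b e ↔ Block b a e := by
  unfold Block
  rw [Sym2.eq_swap (a := a) (b := b), or_comm]

lemma lab_comm (a b : Fin n) (G : Realizations d) : lab a b G = lab b a G := by
  ext e
  simp only [lab, Finset.mem_filter, Block_comm a b e]

/-- The switch changes only cells in the block. -/
theorem lab_swOm (a b u w : Fin n) (G : Realizations d) : lab a b (swOm a b u w G) = lab a b G := by
  classical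
  unfold swOm
  split_ifs with h
  · obtain ⟨hab, hau, haw, hbu, hbw, huw, h1, h2, h3, h4⟩ := h
    have b1 : Block a b s(a, w) := by
      refine ⟨Or.inl (by simp), fun h => ?_⟩
      rcases Sym2.eq_iff.mp h with ⟨_, h⟩ | ⟨h, _⟩
      · exact hbw h.symm
      · exact hab h
    have b2 : Block a b s(b, u) := by
      refine ⟨Or.inr (by simp), fun h => ?_⟩
      rcases Sym2.eq_iff.mp h with ⟨h, _⟩ | ⟨_, h⟩
      · exact hab h.symm
      · exact hau h.symm
    have b3 : Block a b s(a, u) := by
      refine ⟨Or.inl (by simp), fun h => ?_⟩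
      rcases Sym2.eq_iff.mp h with ⟨_, h⟩ | ⟨h, _⟩
      · exact hbu h.symm
      · exact hab h
    have b4 : Block a b s(b, w) := by
      refine ⟨Or.inr (by simp), fun h => ?_⟩
      rcases Sym2.eq_iff.mp h with ⟨h, _⟩ | ⟨_, h⟩
      · exact hab h.symm
      · exact haw h.symm
    ext e
    simp only [lab, swE, Finset.mem_filter, Finset.mem_insert, Finset.mem_erase]
    constructor
    · rintro ⟨h | h | ⟨_, _, he⟩, hb⟩
      · exact absurd (h ▸ b1) hb
      · exact absurd (h ▸ b2) hb
      · exact ⟨he, hb⟩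
    · rintro ⟨he, hb⟩
      refine ⟨Or.inr (Or.inr ⟨fun h => hb (h ▸ b4), fun h => hb (h ▸ b3), he⟩), hb⟩
  · rfl

/-- The switch is the identity unless the four vertices are distinct. -/
lemma swOm_eq_self {a b u w : Fin n} (G : Realizations d)
    (h : ¬ (a ≠ b ∧ a ≠ u ∧ a ≠ w ∧ b ≠ u ∧ b ≠ w ∧ u ≠ w)) : swOm a b u w G = G := by
  classical
  unfold swOm
  split_ifs with h1
  · exact absurd ⟨h1.1, h1.2.1, h1.2.2.1, h1.2.2.2.1, h1.2.2.2.2.1, h1.2.2.2.2.2.1⟩ h
  · rfl

lemma Sq_eq_zero {a b u w : Fin n} (f : Realizations d → ℝ)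
    (h : ¬ (a ≠ b ∧ a ≠ u ∧ a ≠ w ∧ b ≠ u ∧ b ≠ w ∧ u ≠ w)) : Sq a b u w f = 0 := by
  unfold Sq
  refine Finset.sum_eq_zero (fun G _ => ?_)
  rw [swOm_eq_self G h]
  simp

lemma Sq_nonneg (a b u w : Fin n) (f : Realizations d → ℝ) : 0 ≤ Sq a b u w f :=
  Finset.sum_nonneg (fun _ _ => sq_nonneg _)

end Vale.Agent.P335
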