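import Vale.Agent.P335.Gap

/-!
# P335: from the gap to the mixing time

`P = switchKernel d`.  Facts about the kernel:
* the step preserves `Ω_d` (a perfect matching of `S` covers each vertex of `S` once), so each row of
  `P` sums to `1` (there are exactly `6 C(n,4)` choices); `P` is symmetric (reverse `(S, F, F')` to
  `(S, F', F)`); entries are nonnegative and `P = (I + Q)/2` with `Q` symmetric stochastic;
* Dirichlet form: `∑_t (f (step t G) - f G)² ≥ (1/4) ∑_{a,b,u,w} (f (swOm a b u w G) - f G)²`: every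
  available `(a,b,u,w)` gives the choice `S = {a,b,u,w}`, `F = {au, bw}`, `F' = {aw, bu}` and at most
  `4` quadruples give the same choice.
Hence for mean-zero `f`, with `C = C(n,4)`:
`⟪f, (I - P) f⟫ = (1/2) ∑ P(G,H) (f G - f H)² ≥ (1/(2*12*C)) (1/4) 𝔈 ≥ ‖f‖²/(12 C)` by `main_gap`.
`γ = 1/(12 C)`.  `‖P f‖² ≤ ⟪f, P f⟫` because `P (I - P) = (I - Q²)/4` and `Q` is a contraction.  So
`‖P f‖² ≤ (1 - γ) ‖f‖²` on mean-zero functions, and `P` preserves mean zero.
For `v = P^t δ_G - π`: `‖v‖² ≤ (1-γ)^t`, `TV ≤ (1/2) √|Ω| ‖v‖`, so `TV² ≤ |Ω| (1-γ)^t / 4`.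
`(1-γ)^m ≤ 1/2` for `m = 12 C` (as `(1-γ)^m ≤ 1/(1+mγ)`), and `|Ω| ≤ 2^(C(n,2))`.
With `k = C(n,2) + 2`, `4 |Ω| (1-γ)^(m k) ≤ 1`, and `m k ≤ n^6` for `n ≥ 4`.
-/

namespace Vale.Agent.P335

open Finset

section Abstract

variable {Ω : Type*} [Fintype Ω] [DecidableEq Ω]

/-- Rows of powers of a stochastic matrix sum to one. -/
lemma pow_row_sum (P : Matrix Ω Ω ℝ) (hrow : ∀ G, ∑ H, P G H = 1) (t : ℕ) (G : Ω) :
    ∑ H, (P ^ t) G H = 1 := by
  induction t generalizing G with
  | zero =>
    simp [Matrix.one_apply]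
  | succ k ih =>
    have : ∀ H, (P ^ (k + 1)) G H = ∑ K, P G K * (P ^ k) K H := by
      intro H
      rw [pow_succ', Matrix.mul_apply]
    simp only [this]
    rw [Finset.sum_comm]
    simp only [← Finset.mul_sum, ih, mul_one, hrow]

/-- The abstract bound: a symmetric stochastic matrix contracting mean-zero functions by `1 - γ`
satisfies the `L²` bound for total variation. -/
theorem tv_bound (P : Matrix Ω Ω ℝ) (γ : ℝ) (hγ1 : γ ≤ 1)
    (hsym : ∀ G H, P G H = P H G) (hrow : ∀ G, ∑ H, P G H = 1)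
    (hcontr : ∀ f : Ω → ℝ, ∑ G, f G = 0 → dot (P.mulVec f) (P.mulVec f) ≤ (1 - γ) * dot f f)
    (t : ℕ) (G : Ω) :
    ((1 / 2) * ∑ H, |(P ^ t) G H - 1 / (Fintype.card Ω : ℝ)|) ^ 2 ≤
      (1 / 4) * (Fintype.card Ω : ℝ) * (1 - γ) ^ t := by
  classical
  have hNpos : 0 < Fintype.card Ω := Fintype.card_pos_iff.mpr ⟨G⟩
  have hN : (0 : ℝ) < (Fintype.card Ω : ℝ) := by exact_mod_cast hNpos
  set N : ℝ := (Fintype.card Ω : ℝ) with hNdef
  let v : ℕ → Ω → ℝ := fun k H => (P ^ k) G H - 1 / N
  have hsum : ∀ k, ∑ H, v k H = 0 := by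
    intro k
    simp only [v, Finset.sum_sub_distrib, pow_row_sum P hrow, Finset.sum_const, Finset.card_univ,
      nsmul_eq_mul]
    field_simp
    simp [hNdef]
  have hstep : ∀ k, v (k + 1) = P.mulVec (v k) := by
    intro k
    funext H
    simp only [v, Matrix.mulVec, dotProduct]
    have h1 : (P ^ (k + 1)) G H = ∑ K, (P ^ k) G K * P K H := by
      rw [pow_succ, Matrix.mul_apply]
    have h2 : ∑ K, P H K * ((P ^ k) G K - 1 / N) =
        ∑ K, (P ^ k) G K * P K H - (1 / N) * ∑ K, P H K := by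
      rw [Finset.mul_sum, ← Finset.sum_sub_distrib]
      refine Finset.sum_congr rfl (fun K _ => ?_)
      rw [hsym H K]; ring
    rw [h2, hrow H, h1]; ring
  have hdec : ∀ k, dot (v k) (v k) ≤ (1 - γ) ^ k := by
    intro k
    induction k with
    | zero =>
      have : dot (v 0) (v 0) = 1 - 1 / N := by
        simp only [dot, v, pow_zero, Matrix.one_apply]
        have h1 : ∀ H, ((if G = H then (1 : ℝ) else 0) - 1 / N) * ((if G = H then (1 : ℝ) else 0) - 1 / N)
            = (if G = H then (1 : ℝ) else 0) * (1 - 2 / N) + 1 / N ^ 2 := by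
          intro H
          split_ifs <;> field_simp <;> ring
        simp only [h1, Finset.sum_add_distrib, ← Finset.sum_mul, Finset.sum_ite_eq,
          Finset.mem_univ, if_true, Finset.sum_const, Finset.card_univ, nsmul_eq_mul]
        rw [← hNdef]
        field_simp
        ring
      rw [this]
      have : 0 < 1 / N := by positivity
      simp only [pow_zero]
      linarith
    | succ k ih =>
      rw [hstep k]
      have h1 := hcontr (v k) (hsum k)
      have h2 : 0 ≤ 1 - γ := by linarith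
      calc _ ≤ (1 - γ) * dot (v k) (v k) := h1
        _ ≤ (1 - γ) * (1 - γ) ^ k := mul_le_mul_of_nonneg_left ih h2
        _ = (1 - γ) ^ (k + 1) := by ring
  have hcs : (∑ H, |v t H|) ^ 2 ≤ N * dot (v t) (v t) := by
    have := sq_sum_le_card_mul_sum_sq (s := (univ : Finset Ω)) (f := fun H => |v t H|)
    simp only [sq_abs, Finset.card_univ] at this
    simpa [dot, sq, hNdef] using this
  have hfin := hdec t
  calc _ = (1 / 4) * (∑ H, |v t H|) ^ 2 := by ring
    _ ≤ (1 / 4) * (N * dot (v t) (v t)) := by linarith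
    _ ≤ (1 / 4) * (N * (1 - γ) ^ t) := by
        have := mul_le_mul_of_nonneg_left hfin hN.le
        linarith
    _ = _ := by ring


/-- Contraction for a lazy symmetric stochastic matrix from a Dirichlet form bound. -/
theorem contr_half (Q P : Matrix Ω Ω ℝ) (hQ0 : ∀ G H, 0 ≤ Q G H) (hQsym : ∀ G H, Q G H = Q H G)
    (hQrow : ∀ G, ∑ H, Q G H = 1)
    (hP : ∀ G H, P G H = (if G = H then (1 / 2 : ℝ) else 0) + (1 / 2) * Q G H)
    (γ : ℝ) (f : Ω → ℝ)
    (hgap : γ * dot f f ≤ (1 / 4) * ∑ G, ∑ H, Q G H * (f G - f H) ^ 2) :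
    dot (P.mulVec f) (P.mulVec f) ≤ (1 - γ) * dot f f := by
  classical
  set g : Ω → ℝ := Q.mulVec f with hg
  have hgG : ∀ G, g G = ∑ H, Q G H * f H := fun G => rfl
  have hPf : ∀ G, P.mulVec f G = (1 / 2) * f G + (1 / 2) * g G := by
    intro G
    simp only [Matrix.mulVec, dotProduct, hP, add_mul, Finset.sum_add_distrib, ite_mul, zero_mul,
      Finset.sum_ite_eq, Finset.mem_univ, if_true, hgG, Finset.mul_sum, mul_assoc]
  have hcolsum : ∀ H, ∑ G, Q G H = 1 := by
    intro H
    rw [← hQrow H]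
    exact Finset.sum_congr rfl (fun G _ => hQsym G H)
  have hD : ∑ G, ∑ H, Q G H * (f G - f H) ^ 2 = 2 * dot f f - 2 * dot f g := by
    have h1 : ∀ G H, Q G H * (f G - f H) ^ 2 =
        Q G H * f G ^ 2 + Q G H * f H ^ 2 - 2 * (f G * (Q G H * f H)) := by
      intro G H; ring
    simp only [h1, Finset.sum_sub_distrib, Finset.sum_add_distrib, ← Finset.sum_mul, hQrow,
      ← Finset.mul_sum, ← hgG]
    have h2 : ∑ G, ∑ H, Q G H * f H ^ 2 = ∑ H, f H ^ 2 := by
      rw [Finset.sum_comm]
      refine Finset.sum_congr rfl (fun H _ => ?_)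
      rw [← Finset.sum_mul, hcolsum, one_mul]
    rw [h2]
    simp only [dot, one_mul, sq]
    ring
  have hgg : dot g g ≤ dot f f := by
    have h1 : ∀ G, g G * g G ≤ ∑ H, Q G H * f H ^ 2 := by
      intro G
      have h2 : 0 ≤ ∑ H, Q G H * (f H - g G) ^ 2 :=
        Finset.sum_nonneg (fun H _ => mul_nonneg (hQ0 G H) (sq_nonneg _))
      have h3 : ∑ H, Q G H * (f H - g G) ^ 2 =
          ∑ H, Q G H * f H ^ 2 - 2 * g G * (∑ H, Q G H * f H) + g G ^ 2 * ∑ H, Q G H := by
        rw [Finset.mul_sum, Finset.mul_sum, ← Finset.sum_sub_distrib, ← Finset.sum_add_distrib]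
        refine Finset.sum_congr rfl (fun H _ => ?_)
        ring
      rw [h3, hQrow, ← hgG] at h2
      nlinarith
    calc dot g g = ∑ G, g G * g G := rfl
      _ ≤ ∑ G, ∑ H, Q G H * f H ^ 2 := Finset.sum_le_sum (fun G _ => h1 G)
      _ = ∑ H, f H ^ 2 := by
        rw [Finset.sum_comm]
        refine Finset.sum_congr rfl (fun H _ => ?_)
        rw [← Finset.sum_mul, hcolsum, one_mul]
      _ = dot f f := by simp [dot, sq]
  have hPP : dot (P.mulVec f) (P.mulVec f) =
      (1 / 4) * (dot f f + 2 * dot f g + dot g g) := by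
    simp only [dot, hPf, Finset.mul_sum, ← Finset.sum_add_distrib]
    refine Finset.sum_congr rfl (fun G _ => ?_)
    ring
  rw [hPP]
  rw [hD] at hgap
  nlinarith


end Abstract

variable {n : ℕ} {d : Fin n → ℕ}

section PM

/-- In a perfect matching on `S`, a vertex lies in exactly one edge if it is in `S`, and none else. -/
lemma pm_count {S : Finset (Fin n)} {F : Finset (Sym2 (Fin n))} (h : IsPerfectMatchingOn S F)
    (v : Fin n) : (∑ e ∈ F, if v ∈ e then 1 else 0) = if v ∈ S then 1 else 0 := by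
  classical
  by_cases hv : v ∈ S
  · rw [if_pos hv]
    obtain ⟨e0, ⟨he0, hve0⟩, huniq⟩ := h.2 v hv
    rw [Finset.sum_eq_single e0]
    · simp [hve0]
    · intro e he hne
      rw [if_neg]
      intro hve
      exact hne (huniq e ⟨he, hve⟩)
    · intro h'; exact absurd he0 h'
  · rw [if_neg hv]
    refine Finset.sum_eq_zero (fun e he => ?_)
    rw [if_neg]
    intro hve
    exact hv ((h.1 e he).2 v hve)

/-- A switch step between perfect matchings of the same set keeps the degrees. -/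
lemma step_real {S : Finset (Fin n)} {F F' : Finset (Sym2 (Fin n))}
    (hF : IsPerfectMatchingOn S F) (hF' : IsPerfectMatchingOn S F') (G : Realizations d) :
    IsRealization d (switchStep F F' G.1) := by
  classical
  unfold switchStep
  split_ifs with h
  · obtain ⟨hsub, hdis⟩ := h
    constructor
    · intro e he
      rcases Finset.mem_union.mp he with he | he
      · exact G.2.1 e (Finset.mem_sdiff.mp he).1
      · exact (hF'.1 e he).1
    · intro v
      rw [← G.2.2 v, edgeDegree_eq_sum, edgeDegree_eq_sum]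
      have hd : Disjoint (G.1 \ F) F' := by
        rw [Finset.disjoint_left]
        intro e he he'
        exact (Finset.disjoint_left.mp hdis he') (Finset.mem_sdiff.mp he).1
      rw [Finset.sum_union hd]
      have h1 := Finset.sum_sdiff (f := fun e => if v ∈ e then 1 else 0) hsub
      have h2 := pm_count hF v
      have h3 := pm_count hF' v
      omega
  · exact G.2

end PM

section Four

variable {a b c e : Fin n}

/-- Two disjoint edges form a perfect matching of the four-element set. -/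
lemma pm_of_four {S : Finset (Fin n)} {a b c e : Fin n} (hS : ∀ x, x ∈ S ↔ x = a ∨ x = b ∨ x = c ∨ x = e)
    (hab : a ≠ b) (hac : a ≠ c) (hae : a ≠ e) (hbc : b ≠ c) (hbe : b ≠ e) (hce : c ≠ e) :
    IsPerfectMatchingOn S {s(a, b), s(c, e)} := by
  classical
  constructor
  · intro f hf
    simp only [Finset.mem_insert, Finset.mem_singleton] at hf
    rcases hf with rfl | rfl
    · refine ⟨by simpa using hab, fun v hv => ?_⟩
      rw [hS]
      simp only [Sym2.mem_iff] at hv
      tauto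
    · refine ⟨by simpa using hce, fun v hv => ?_⟩
      rw [hS]
      simp only [Sym2.mem_iff] at hv
      tauto
  · intro v hv
    rw [hS] at hv
    rcases hv with rfl | rfl | rfl | rfl
    · refine ⟨s(v, b), ⟨by simp, by simp⟩, ?_⟩
      rintro f ⟨hf, hvf⟩
      simp only [Finset.mem_insert, Finset.mem_singleton] at hf
      rcases hf with rfl | rfl
      · rfl
      · simp only [Sym2.mem_iff] at hvf; tauto
    · refine ⟨s(a, v), ⟨by simp, by simp⟩, ?_⟩
      rintro f ⟨hf, hvf⟩
      simp only [Finset.mem_insert, Finset.mem_singleton] at hf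
      rcases hf with rfl | rfl
      · rfl
      · simp only [Sym2.mem_iff] at hvf; tauto
    · refine ⟨s(v, e), ⟨by simp, by simp⟩, ?_⟩
      rintro f ⟨hf, hvf⟩
      simp only [Finset.mem_insert, Finset.mem_singleton] at hf
      rcases hf with rfl | rfl
      · simp only [Sym2.mem_iff] at hvf; tauto
      · rfl
    · refine ⟨s(c, v), ⟨by simp, by simp⟩, ?_⟩
      rintro f ⟨hf, hvf⟩
      simp only [Finset.mem_insert, Finset.mem_singleton] at hf
      rcases hf with rfl | rfl
      · simp only [Sym2.mem_iff] at hvf; tauto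
      · rfl

/-- If a perfect matching of `{a,b,c,e}` contains `ab` then it is `{ab, ce}`. -/
lemma pm_classify {S : Finset (Fin n)} {F : Finset (Sym2 (Fin n))} {a b c e : Fin n}
    (hS : ∀ x, x ∈ S ↔ x = a ∨ x = b ∨ x = c ∨ x = e)
    (hab : a ≠ b) (hac : a ≠ c) (hae : a ≠ e) (hbc : b ≠ c) (hbe : b ≠ e) (hce : c ≠ e)
    (hF : IsPerfectMatchingOn S F) (h : s(a, b) ∈ F) : F = {s(a, b), s(c, e)} := by
  classical
  have hcS : c ∈ S := (hS c).2 (by tauto)
  obtain ⟨f, ⟨hf, hcf⟩, _⟩ := hF.2 c hcS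
  obtain ⟨y, rfl⟩ := hcf
  have hy : y ∈ S := (hF.1 _ hf).2 y (by simp)
  have hne : c ≠ y := by
    have := (hF.1 _ hf).1
    simpa using this
  have haS : a ∈ S := (hS a).2 (by tauto)
  have hbS : b ∈ S := (hS b).2 (by tauto)
  have heS : e ∈ S := (hS e).2 (by tauto)
  have hye : y = e := by
    rw [hS] at hy
    rcases hy with rfl | rfl | rfl | rfl
    · -- y = a
      obtain ⟨g, _, hg⟩ := hF.2 y haS
      have h1 := hg s(c, y) ⟨hf, by simp⟩
      have h2 := hg s(y, b) ⟨h, by simp⟩
      have h3 : s(c, y) = s(y, b) := h1.trans h2.symm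
      rcases Sym2.eq_iff.mp h3 with ⟨h4, _⟩ | ⟨h4, _⟩
      · exact absurd h4 hac.symm
      · exact absurd h4 hbc.symm
    · obtain ⟨g, _, hg⟩ := hF.2 y hbS
      have h1 := hg s(c, y) ⟨hf, by simp⟩
      have h2 := hg s(a, y) ⟨h, by simp⟩
      have h3 : s(c, y) = s(a, y) := h1.trans h2.symm
      rcases Sym2.eq_iff.mp h3 with ⟨h4, _⟩ | ⟨h4, h5⟩
      · exact absurd h4.symm hac
      · exact absurd h4 hbc.symm
    · exact absurd rfl hne
    · rfl
  subst hye
  ext g
  simp only [Finset.mem_insert, Finset.mem_singleton]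
  constructor
  · intro hg
    induction g using Sym2.ind with
    | _ v w =>
      have hvS : v ∈ S := (hF.1 _ hg).2 v (by simp)
      obtain ⟨g', _, hg'⟩ := hF.2 v hvS
      rw [hS] at hvS
      rcases hvS with rfl | rfl | rfl | rfl
      · left
        exact (hg' _ ⟨hg, by simp⟩).trans (hg' _ ⟨h, by simp⟩).symm
      · left
        exact (hg' _ ⟨hg, by simp⟩).trans (hg' _ ⟨h, by simp⟩).symm
      · right
        exact (hg' _ ⟨hg, by simp⟩).trans (hg' _ ⟨hf, by simp⟩).symm
      · right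
        exact (hg' _ ⟨hg, by simp⟩).trans (hg' _ ⟨hf, by simp⟩).symm
  · rintro (rfl | rfl)
    · exact h
    · exact hf

end Four


section Count

open Classical in
/-- A four-element set has exactly three perfect matchings. -/
lemma pm_three {S : Finset (Fin n)} (hS : S.card = 4) :
    (univ.filter (fun F => IsPerfectMatchingOn S F)).card = 3 := by
  obtain ⟨a, S', ha, rfl, hS'⟩ := Finset.card_eq_succ.mp hS
  obtain ⟨b, c, e, hbc, hbe, hce, rfl⟩ := Finset.card_eq_three.mp hS'
  simp only [Finset.mem_insert, Finset.mem_singleton, not_or] at ha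
  obtain ⟨hab, hac, hae⟩ := ha
  have h1 : ∀ x, x ∈ insert a ({b, c, e} : Finset (Fin n)) ↔ x = a ∨ x = b ∨ x = c ∨ x = e := by
    intro x; simp
  have h2 : ∀ x, x ∈ insert a ({b, c, e} : Finset (Fin n)) ↔ x = a ∨ x = c ∨ x = b ∨ x = e := by
    intro x; simp; tauto
  have h3 : ∀ x, x ∈ insert a ({b, c, e} : Finset (Fin n)) ↔ x = a ∨ x = e ∨ x = b ∨ x = c := by
    intro x; simp; tauto
  have hF : (univ.filter (fun F => IsPerfectMatchingOn (insert a ({b, c, e} : Finset (Fin n))) F)) =
      {{s(a, b), s(c, e)}, {s(a, c), s(b, e)}, {s(a, e), s(b, c)}} := by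
    ext F
    simp only [Finset.mem_filter, Finset.mem_univ, true_and, Finset.mem_insert,
      Finset.mem_singleton]
    constructor
    · intro hF
      have haS : a ∈ insert a ({b, c, e} : Finset (Fin n)) := by simp
      obtain ⟨f, ⟨hf, haf⟩, _⟩ := hF.2 a haS
      obtain ⟨y, rfl⟩ := haf
      have hy := (hF.1 _ hf).2 y (by simp)
      have hne : a ≠ y := by simpa using (hF.1 _ hf).1
      rw [h1] at hy
      rcases hy with rfl | rfl | rfl | rfl
      · exact absurd rfl hne
      · left; exact pm_classify h1 hab hac hae hbc hbe hce hF hf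
      · right; left; exact pm_classify h2 hac hab hae hbc.symm hce hbe hF hf
      · right; right; exact pm_classify h3 hae hab hac hbe.symm hce.symm hbc hF hf
    · rintro (rfl | rfl | rfl)
      · exact pm_of_four h1 hab hac hae hbc hbe hce
      · exact pm_of_four h2 hac hab hae hbc.symm hce hbe
      · exact pm_of_four h3 hae hab hac hbe.symm hce.symm hbc
  rw [hF]
  have n1 : ({s(a, b), s(c, e)} : Finset (Sym2 (Fin n))) ≠ {s(a, c), s(b, e)} := by
    intro h
    have : s(a, b) ∈ ({s(a, c), s(b, e)} : Finset (Sym2 (Fin n))) := by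
      rw [← h]; simp
    simp only [Finset.mem_insert, Finset.mem_singleton, Sym2.eq_iff] at this
    tauto
  have n2 : ({s(a, b), s(c, e)} : Finset (Sym2 (Fin n))) ≠ {s(a, e), s(b, c)} := by
    intro h
    have : s(a, b) ∈ ({s(a, e), s(b, c)} : Finset (Sym2 (Fin n))) := by
      rw [← h]; simp
    simp only [Finset.mem_insert, Finset.mem_singleton, Sym2.eq_iff] at this
    tauto
  have n3 : ({s(a, c), s(b, e)} : Finset (Sym2 (Fin n))) ≠ {s(a, e), s(b, c)} := by
    intro h
    have : s(a, c) ∈ ({s(a, e), s(b, c)} : Finset (Sym2 (Fin n))) := by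
      rw [← h]; simp
    simp only [Finset.mem_insert, Finset.mem_singleton, Sym2.eq_iff] at this
    tauto
  rw [Finset.card_eq_three]
  exact ⟨_, _, _, n1, n2, n3, rfl⟩

lemma mem_switchChoices {t : Finset (Fin n) × Finset (Sym2 (Fin n)) × Finset (Sym2 (Fin n))} :
    t ∈ switchChoices n ↔ t.1.card = 4 ∧ IsPerfectMatchingOn t.1 t.2.1 ∧
      IsPerfectMatchingOn t.1 t.2.2 ∧ t.2.1 ≠ t.2.2 := by
  classical
  simp [switchChoices]

/-- There are exactly `6 C(n,4)` choices. -/
lemma card_switchChoices : (switchChoices n).card = 6 * n.choose 4 := by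
  classical
  have hmaps : ∀ t ∈ switchChoices n, t.1 ∈ (univ : Finset (Fin n)).powersetCard 4 := by
    intro t ht
    rw [Finset.mem_powersetCard]
    exact ⟨Finset.subset_univ _, (mem_switchChoices.mp ht).1⟩
  rw [Finset.card_eq_sum_card_fiberwise hmaps]
  have hfib : ∀ S ∈ (univ : Finset (Fin n)).powersetCard 4,
      ((switchChoices n).filter (fun t => t.1 = S)).card = 6 := by
    intro S hS
    have hS4 : S.card = 4 := (Finset.mem_powersetCard.mp hS).2
    have h3 := pm_three hS4
    set PM := univ.filter (fun F => IsPerfectMatchingOn S F) with hPM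
    have hEq : (switchChoices n).filter (fun t => t.1 = S) =
        PM.offDiag.image (fun p => (S, p)) := by
      ext t
      simp only [Finset.mem_filter, Finset.mem_image, Finset.mem_offDiag, mem_switchChoices]
      constructor
      · rintro ⟨⟨_, h1, h2, h4⟩, rfl⟩
        refine ⟨t.2, ⟨?_, ?_, h4⟩, rfl⟩
        · simpa [hPM] using h1
        · simpa [hPM] using h2
      · rintro ⟨p, ⟨h1, h2, h4⟩, rfl⟩
        simp only [hPM, Finset.mem_filter, Finset.mem_univ, true_and] at h1 h2
        exact ⟨⟨hS4, h1, h2, h4⟩, rfl⟩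
    rw [hEq, Finset.card_image_of_injective, Finset.offDiag_card, h3]
    intro p q h
    simpa using h
  rw [Finset.sum_congr rfl hfib]
  simp [Finset.card_powersetCard, mul_comm]

end Count

section Step

open Classical in
/-- The step of a choice as a map of `Ω_d`. -/
noncomputable def stepR (t : Finset (Fin n) × Finset (Sym2 (Fin n)) × Finset (Sym2 (Fin n)))
    (G : Realizations d) : Realizations d :=
  if h : t ∈ switchChoices n then
    ⟨switchStep t.2.1 t.2.2 G.1,
      step_real (mem_switchChoices.mp h).2.1 (mem_switchChoices.mp h).2.2.1 G⟩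
  else G

lemma stepR_val {t : Finset (Fin n) × Finset (Sym2 (Fin n)) × Finset (Sym2 (Fin n))}
    (h : t ∈ switchChoices n) (G : Realizations d) :
    (stepR t G).1 = switchStep t.2.1 t.2.2 G.1 := by
  simp [stepR, h]

open Classical in
/-- The number of choices leading from `G` to `H`. -/
noncomputable def cnt (G H : Realizations d) : ℕ :=
  ((switchChoices n).filter (fun t => stepR t G = H)).card

open Classical in
lemma switchKernel_apply (G H : Realizations d) :
    switchKernel d G H = (if G = H then (1 / 2 : ℝ) else 0) +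
      (1 / 2) * (1 / (n.choose 4 : ℝ)) * (1 / 6) * (cnt G H : ℝ) := by
  have : ((switchChoices n).filter (fun t => switchStep t.2.1 t.2.2 G.1 = H.1)) =
      ((switchChoices n).filter (fun t => stepR t G = H)) := by
    refine Finset.filter_congr (fun t ht => ?_)
    rw [Subtype.ext_iff, stepR_val ht]
  simp only [switchKernel, Matrix.of_apply, cnt, this]

/-- The reversal of a choice. -/
def revT (t : Finset (Fin n) × Finset (Sym2 (Fin n)) × Finset (Sym2 (Fin n))) :
    Finset (Fin n) × Finset (Sym2 (Fin n)) × Finset (Sym2 (Fin n)) := (t.1, t.2.2, t.2.1)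

lemma revT_mem {t : Finset (Fin n) × Finset (Sym2 (Fin n)) × Finset (Sym2 (Fin n))}
    (h : t ∈ switchChoices n) : revT t ∈ switchChoices n := by
  rw [mem_switchChoices] at h ⊢
  obtain ⟨h1, h2, h3, h4⟩ := h
  exact ⟨h1, h3, h2, h4.symm⟩

lemma revT_step {t : Finset (Fin n) × Finset (Sym2 (Fin n)) × Finset (Sym2 (Fin n))}
    (ht : t ∈ switchChoices n) {G H : Realizations d} (hne : G ≠ H) (h : stepR t G = H) :
    stepR (revT t) H = G := by
  classical
  have h1 := stepR_val ht G
  rw [h] at h1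
  have hb : t.2.1 ⊆ G.1 ∧ Disjoint t.2.2 G.1 := by
    by_contra hcon
    unfold switchStep at h1
    rw [if_neg hcon] at h1
    exact hne (Subtype.ext h1.symm)
  rw [Subtype.ext_iff, stepR_val (revT_mem ht)]
  unfold switchStep at h1
  rw [if_pos hb] at h1
  simp only [revT]
  unfold switchStep
  obtain ⟨hsub, hdis⟩ := hb
  have hc : t.2.2 ⊆ H.1 ∧ Disjoint t.2.1 H.1 := by
    rw [h1]
    constructor
    · exact Finset.subset_union_right
    · rw [Finset.disjoint_left]
      intro e he he'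
      rcases Finset.mem_union.mp he' with h2 | h2
      · exact (Finset.mem_sdiff.mp h2).2 he
      · exact (Finset.disjoint_left.mp hdis h2) (hsub he)
  rw [if_pos hc, h1]
  ext e
  simp only [Finset.mem_union, Finset.mem_sdiff]
  constructor
  · rintro (⟨h2 | h2, h3⟩ | h2)
    · exact h2.1
    · exact absurd h2 h3
    · exact hsub h2
  · intro h2
    by_cases h3 : e ∈ t.2.1
    · exact Or.inr h3
    · refine Or.inl ⟨Or.inl ⟨h2, h3⟩, fun h4 => ?_⟩
      exact (Finset.disjoint_left.mp hdis h4) h2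

lemma revT_inj : Function.Injective
    (revT : Finset (Fin n) × Finset (Sym2 (Fin n)) × Finset (Sym2 (Fin n)) → _) := by
  rintro ⟨a, b, c⟩ ⟨a', b', c'⟩ h
  simp only [revT, Prod.mk.injEq] at h
  obtain ⟨rfl, rfl, rfl⟩ := h
  rfl

lemma cnt_le_symm (G H : Realizations d) : cnt G H ≤ cnt H G := by
  classical
  by_cases hGH : G = H
  · rw [hGH]
  · unfold cnt
    refine Finset.card_le_card_of_injOn revT ?_ revT_inj.injOn
    intro t ht
    have ht' := Finset.mem_filter.mp (Finset.mem_coe.mp ht)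
    exact Finset.mem_coe.mpr (Finset.mem_filter.mpr ⟨revT_mem ht'.1, revT_step ht'.1 hGH ht'.2⟩)

lemma cnt_symm (G H : Realizations d) : cnt G H = cnt H G :=
  le_antisymm (cnt_le_symm G H) (cnt_le_symm H G)

lemma cnt_sum (G : Realizations d) (x : Realizations d → ℝ) :
    ∑ H, (cnt G H : ℝ) * x H = ∑ t ∈ switchChoices n, x (stepR t G) := by
  classical
  rw [← Finset.sum_fiberwise (s := switchChoices n) (g := fun t => stepR t G)]
  refine Finset.sum_congr rfl (fun H _ => ?_)
  rw [Finset.sum_congr rfl (g := fun _ => x H)]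
  · rw [Finset.sum_const, nsmul_eq_mul]; rfl
  · intro t ht
    rw [(Finset.mem_filter.mp ht).2]

end Step


section Phi

/-- The choice of a switch pattern. -/
def phiT (a b u w : Fin n) : Finset (Fin n) × Finset (Sym2 (Fin n)) × Finset (Sym2 (Fin n)) :=
  ({a, b, u, w}, {s(a, u), s(b, w)}, {s(a, w), s(b, u)})

lemma phiT_mem {a b u w : Fin n} (hab : a ≠ b) (hau : a ≠ u) (haw : a ≠ w) (hbu : b ≠ u)
    (hbw : b ≠ w) (huw : u ≠ w) : phiT a b u w ∈ switchChoices n := by
  rw [mem_switchChoices]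
  simp only [phiT]
  refine ⟨?_, ?_, ?_, ?_⟩
  · rw [Finset.card_insert_of_notMem, Finset.card_insert_of_notMem, Finset.card_insert_of_notMem,
      Finset.card_singleton]
    · simpa using huw
    · simp [hbu, hbw]
    · simp [hab, hau, haw]
  · refine pm_of_four (fun x => ?_) hau hab haw hbu.symm huw hbw
    simp; tauto
  · refine pm_of_four (fun x => ?_) haw hab hau hbw.symm huw.symm hbu
    simp; tauto
  · intro h
    have : s(a, u) ∈ ({s(a, w), s(b, u)} : Finset (Sym2 (Fin n))) := by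
      rw [← h]; simp
    simp only [Finset.mem_insert, Finset.mem_singleton, Sym2.eq_iff] at this
    tauto

lemma step_phi {a b u w : Fin n} (G : Realizations d) (h : SW a b u w G.1) :
    stepR (phiT a b u w) G = swOm a b u w G := by
  classical
  obtain ⟨hab, hau, haw, hbu, hbw, huw, h1, h2, h3, h4⟩ := id h
  rw [Subtype.ext_iff, stepR_val (phiT_mem hab hau haw hbu hbw huw)]
  have : swOm a b u w G = ⟨swE a b u w G.1, swE_mem a b u w G h⟩ := by
    simp [swOm, h]
  rw [this]
  simp only [phiT]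
  unfold switchStep
  have hc : ({s(a, u), s(b, w)} : Finset (Sym2 (Fin n))) ⊆ G.1 ∧
      Disjoint ({s(a, w), s(b, u)} : Finset (Sym2 (Fin n))) G.1 := by
    constructor
    · intro e he
      simp only [Finset.mem_insert, Finset.mem_singleton] at he
      rcases he with rfl | rfl
      · exact h1
      · exact h2
    · rw [Finset.disjoint_left]
      intro e he
      simp only [Finset.mem_insert, Finset.mem_singleton] at he
      rcases he with rfl | rfl
      · exact h3
      · exact h4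
  rw [if_pos hc]
  ext e
  simp only [swE, Finset.mem_union, Finset.mem_sdiff, Finset.mem_insert, Finset.mem_singleton,
    Finset.mem_erase]
  tauto

/-- At most four patterns give the same choice. -/
lemma phiT_fiber {a b u w a' b' u' w' : Fin n} (hab : a ≠ b) (hau : a ≠ u) (haw : a ≠ w)
    (hbu : b ≠ u) (hbw : b ≠ w) (huw : u ≠ w)
    (hab' : a' ≠ b') (hau' : a' ≠ u') (haw' : a' ≠ w') (hbu' : b' ≠ u') (hbw' : b' ≠ w')
    (huw' : u' ≠ w') (h : phiT a' b' u' w' = phiT a b u w) :
    (a', b', u', w') = (a, b, u, w) ∨ (a', b', u', w') = (b, a, w, u) ∨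
      (a', b', u', w') = (u, w, a, b) ∨ (a', b', u', w') = (w, u, b, a) := by
  simp only [phiT, Prod.mk.injEq] at h
  obtain ⟨_, hF, hF'⟩ := h
  have e1 : s(a', u') ∈ ({s(a, u), s(b, w)} : Finset (Sym2 (Fin n))) := by rw [← hF]; simp
  have e2 : s(b', w') ∈ ({s(a, u), s(b, w)} : Finset (Sym2 (Fin n))) := by rw [← hF]; simp
  have e3 : s(a', w') ∈ ({s(a, w), s(b, u)} : Finset (Sym2 (Fin n))) := by rw [← hF']; simp
  have e4 : s(b', u') ∈ ({s(a, w), s(b, u)} : Finset (Sym2 (Fin n))) := by rw [← hF']; simp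
  simp only [Finset.mem_insert, Finset.mem_singleton, Sym2.eq_iff, Prod.mk.injEq] at e1 e2 e3 e4 ⊢
  clear hF hF'
  rcases e1 with (⟨rfl, rfl⟩ | ⟨rfl, rfl⟩) | ⟨rfl, rfl⟩ | ⟨rfl, rfl⟩ <;>
    rcases e3 with (⟨h3, h3'⟩ | ⟨h3, h3'⟩) | ⟨h3, h3'⟩ | ⟨h3, h3'⟩ <;>
    rcases e2 with (⟨h2, h2'⟩ | ⟨h2, h2'⟩) | ⟨h2, h2'⟩ | ⟨h2, h2'⟩ <;>
    simp_all

/-- The Dirichlet comparison at a single graph. -/
lemma dirichlet_at (f : Realizations d → ℝ) (G : Realizations d) :
    ∑ a, ∑ b, ∑ u, ∑ w, (f (swOm a b u w G) - f G) ^ 2 ≤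
      4 * ∑ t ∈ switchChoices n, (f (stepR t G) - f G) ^ 2 := by
  classical
  let X : Fin n × Fin n × Fin n × Fin n → ℝ :=
    fun q => (f (swOm q.1 q.2.1 q.2.2.1 q.2.2.2 G) - f G) ^ 2
  let h : Finset (Fin n) × Finset (Sym2 (Fin n)) × Finset (Sym2 (Fin n)) → ℝ :=
    fun t => (f (stepR t G) - f G) ^ 2
  let φ : Fin n × Fin n × Fin n × Fin n → _ := fun q => phiT q.1 q.2.1 q.2.2.1 q.2.2.2
  let A : Finset (Fin n × Fin n × Fin n × Fin n) :=
    univ.filter (fun q => SW q.1 q.2.1 q.2.2.1 q.2.2.2 G.1)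
  have h0 : ∑ a, ∑ b, ∑ u, ∑ w, (f (swOm a b u w G) - f G) ^ 2 = ∑ q, X q := by
    simp only [X, Fintype.sum_prod_type]
  have h1 : ∑ q, X q = ∑ q ∈ A, h (φ q) := by
    have : ∀ q, X q = if SW q.1 q.2.1 q.2.2.1 q.2.2.2 G.1 then h (φ q) else 0 := by
      intro q
      split_ifs with hq
      · simp only [X, h, φ]
        rw [step_phi G hq]
      · simp only [X]
        simp [swOm, hq]
    simp only [this]
    rw [Finset.sum_ite, Finset.sum_const_zero, add_zero]
  have hmaps : ∀ q ∈ A, φ q ∈ switchChoices n := by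
    intro q hq
    obtain ⟨hab, hau, haw, hbu, hbw, huw, _⟩ := (Finset.mem_filter.mp hq).2
    exact phiT_mem hab hau haw hbu hbw huw
  have h2 : ∑ q ∈ A, h (φ q) = ∑ t ∈ switchChoices n, ∑ q ∈ A.filter (fun q => φ q = t), h (φ q) :=
    (Finset.sum_fiberwise_of_maps_to hmaps _).symm
  have h3 : ∀ t ∈ switchChoices n, ∑ q ∈ A.filter (fun q => φ q = t), h (φ q) ≤ 4 * h t := by
    intro t _
    have hle : (A.filter (fun q => φ q = t)).card ≤ 4 := by
      by_cases hne : (A.filter (fun q => φ q = t)).Nonempty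
      · obtain ⟨q0, hq0⟩ := hne
        have hq0' := Finset.mem_filter.mp hq0
        obtain ⟨hab, hau, haw, hbu, hbw, huw, _⟩ := (Finset.mem_filter.mp hq0'.1).2
        obtain ⟨a, b, u, w⟩ := q0
        have hsub : A.filter (fun q => φ q = t) ⊆
            {(a, b, u, w), (b, a, w, u), (u, w, a, b), (w, u, b, a)} := by
          intro q hq
          have hq' := Finset.mem_filter.mp hq
          obtain ⟨hab', hau', haw', hbu', hbw', huw', _⟩ := (Finset.mem_filter.mp hq'.1).2
          have := phiT_fiber hab hau haw hbu hbw huw hab' hau' haw' hbu' hbw' huw'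
            (hq'.2.trans hq0'.2.symm)
          simp only [Finset.mem_insert, Finset.mem_singleton]
          exact this
        exact (Finset.card_le_card hsub).trans Finset.card_le_four
      · rw [Finset.not_nonempty_iff_eq_empty.mp hne]
        simp
    have hnn : 0 ≤ h t := sq_nonneg _
    calc ∑ q ∈ A.filter (fun q => φ q = t), h (φ q)
        = ∑ q ∈ A.filter (fun q => φ q = t), h t := by
          refine Finset.sum_congr rfl (fun q hq => ?_)
          rw [(Finset.mem_filter.mp hq).2]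
      _ = (A.filter (fun q => φ q = t)).card * h t := by
          rw [Finset.sum_const, nsmul_eq_mul]
      _ ≤ 4 * h t := by
          have : ((A.filter (fun q => φ q = t)).card : ℝ) ≤ 4 := by exact_mod_cast hle
          exact mul_le_mul_of_nonneg_right this hnn
  rw [h0, h1, h2, Finset.mul_sum]
  exact Finset.sum_le_sum h3

end Phi


section Final

/-- `(1 - 1/m)^m ≤ 1/2`. -/
lemma one_sub_inv_pow_le (m : ℕ) (hm : 1 ≤ m) : (1 - 1 / (m : ℝ)) ^ m ≤ 1 / 2 := by
  have hm0 : (0 : ℝ) < m := by exact_mod_cast hm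
  have hm1 : (1 : ℝ) ≤ m := by exact_mod_cast hm
  set x : ℝ := 1 / (m : ℝ) with hx
  have hx0 : 0 < x := by positivity
  have hx1 : x ≤ 1 := by
    rw [hx, div_le_one hm0]; exact hm1
  have h1 : (1 - x) ^ m * (1 + x) ^ m ≤ 1 := by
    rw [← mul_pow]
    refine pow_le_one₀ ?_ ?_
    · exact mul_nonneg (by linarith) (by linarith)
    · nlinarith
  have h2 : 1 + (m : ℝ) * x ≤ (1 + x) ^ m := one_add_mul_le_pow (by linarith) m
  have h3 : (m : ℝ) * x = 1 := by
    rw [hx]; field_simp
  have h4 : (0 : ℝ) ≤ (1 - x) ^ m := pow_nonneg (by linarith) m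
  have h5 : (1 - x) ^ m * 2 ≤ (1 - x) ^ m * (1 + x) ^ m := by
    refine mul_le_mul_of_nonneg_left ?_ h4
    linarith
  linarith

lemma card_real_le (hn : 1 ≤ n) : Fintype.card (Realizations d) ≤ 2 ^ (n ^ 2) := by
  classical
  have h1 : Fintype.card (Realizations d) ≤ Fintype.card (Finset (Sym2 (Fin n))) :=
    Fintype.card_le_of_injective Subtype.val Subtype.val_injective
  rw [Fintype.card_finset, Sym2.card, Fintype.card_fin] at h1
  refine h1.trans (Nat.pow_le_pow_right (by norm_num) ?_)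
  rw [Nat.choose_two_right]
  have : (n + 1) * (n + 1 - 1) / 2 ≤ (n + 1) * n / 2 := by simp
  refine this.trans ?_
  refine (Nat.div_le_of_le_mul ?_)
  nlinarith

lemma choose_four_bound (n : ℕ) : 24 * n.choose 4 ≤ n ^ 4 := by
  have h1 : n.descFactorial 4 = Nat.factorial 4 * n.choose 4 :=
    Nat.descFactorial_eq_factorial_mul_choose n 4
  have h2 : n.descFactorial 4 ≤ n ^ 4 := Nat.descFactorial_le_pow n 4
  have h3 : Nat.factorial 4 = 24 := by decide
  rw [h3] at h1
  omega

theorem main_mixing (hn : 4 ≤ n) (hd : Graphical d) : MixedAt d (n ^ 6) := by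
  classical
  intro G
  set C : ℕ := n.choose 4 with hCdef
  have hC1 : 1 ≤ C := Nat.choose_pos hn
  have hCpos : (0 : ℝ) < (C : ℝ) := by exact_mod_cast hC1
  let Q : Matrix (Realizations d) (Realizations d) ℝ :=
    Matrix.of fun G H => (1 / (6 * (C : ℝ))) * (cnt G H : ℝ)
  have hQ : ∀ G H, Q G H = (1 / (6 * (C : ℝ))) * (cnt G H : ℝ) := fun _ _ => rfl
  have hQ0 : ∀ G H, 0 ≤ Q G H := by
    intro G H
    rw [hQ]
    positivity
  have hQsym : ∀ G H, Q G H = Q H G := by
    intro G H
    rw [hQ, hQ, cnt_symm]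
  have hcardT : ((switchChoices n).card : ℝ) = 6 * (C : ℝ) := by
    rw [card_switchChoices]
    push_cast
    rfl
  have hQrow : ∀ G, ∑ H, Q G H = 1 := by
    intro G
    simp only [hQ]
    rw [← Finset.mul_sum]
    have := cnt_sum G (fun _ => (1 : ℝ))
    simp only [mul_one, Finset.sum_const, nsmul_eq_mul] at this
    rw [this, hcardT]
    field_simp
  have hP : ∀ G H, switchKernel d G H = (if G = H then (1 / 2 : ℝ) else 0) + (1 / 2) * Q G H := by
    intro G H
    rw [switchKernel_apply, hQ, ← hCdef]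
    congr 1
    field_simp
  have hsym : ∀ G H, switchKernel d G H = switchKernel d H G := by
    intro G H
    rw [hP, hP, hQsym G H]
    by_cases h : G = H
    · simp [h]
    · simp [h, Ne.symm h]
  have hrow : ∀ G, ∑ H, switchKernel d G H = 1 := by
    intro G
    simp only [hP, Finset.sum_add_distrib, Finset.sum_ite_eq, Finset.mem_univ, if_true,
      ← Finset.mul_sum, hQrow]
    norm_num
  set m : ℕ := 12 * C with hm
  have hm1 : 1 ≤ m := by omega
  have hm0 : (0 : ℝ) < (m : ℝ) := by exact_mod_cast hm1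
  set γ : ℝ := 1 / (m : ℝ) with hγ
  have hγ1 : γ ≤ 1 := by
    rw [hγ, div_le_one hm0]
    exact_mod_cast hm1
  have hγ0 : 0 ≤ γ := by positivity
  have hgap : ∀ f : Realizations d → ℝ, ∑ G, f G = 0 →
      γ * dot f f ≤ (1 / 4) * ∑ G, ∑ H, Q G H * (f G - f H) ^ 2 := by
    intro f hf
    have h1 := main_gap f hf
    have h2 : ∑ a, ∑ b, ∑ u, ∑ w, Sq a b u w f =
        ∑ G, ∑ a, ∑ b, ∑ u, ∑ w, (f (swOm a b u w G) - f G) ^ 2 := by
      simp only [Sq]
      have e1 : ∀ a b u, ∑ w, ∑ G, (f (swOm a b u w G) - f G) ^ 2 =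
          ∑ G, ∑ w, (f (swOm a b u w G) - f G) ^ 2 := fun _ _ _ => Finset.sum_comm
      simp only [e1]
      have e2 : ∀ a b, ∑ u, ∑ G, ∑ w, (f (swOm a b u w G) - f G) ^ 2 =
          ∑ G, ∑ u, ∑ w, (f (swOm a b u w G) - f G) ^ 2 := fun _ _ => Finset.sum_comm
      simp only [e2]
      have e3 : ∀ a, ∑ b, ∑ G, ∑ u, ∑ w, (f (swOm a b u w G) - f G) ^ 2 =
          ∑ G, ∑ b, ∑ u, ∑ w, (f (swOm a b u w G) - f G) ^ 2 := fun _ => Finset.sum_comm
      simp only [e3]
      exact Finset.sum_comm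
    have h3 : ∑ G, ∑ a, ∑ b, ∑ u, ∑ w, (f (swOm a b u w G) - f G) ^ 2 ≤
        4 * ∑ G, ∑ t ∈ switchChoices n, (f (stepR t G) - f G) ^ 2 := by
      rw [Finset.mul_sum]
      exact Finset.sum_le_sum (fun G _ => dirichlet_at f G)
    have h4 : ∑ G, ∑ H, Q G H * (f G - f H) ^ 2 =
        (1 / (6 * (C : ℝ))) * ∑ G, ∑ t ∈ switchChoices n, (f (stepR t G) - f G) ^ 2 := by
      rw [Finset.mul_sum]
      refine Finset.sum_congr rfl (fun G _ => ?_)
      simp only [hQ]
      have := cnt_sum G (fun H => (f H - f G) ^ 2)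
      rw [← this, Finset.mul_sum]
      refine Finset.sum_congr rfl (fun H _ => ?_)
      have : (f G - f H) ^ 2 = (f H - f G) ^ 2 := by ring
      rw [this]; ring
    rw [h4]
    rw [h2] at h1
    set E := ∑ G, ∑ t ∈ switchChoices n, (f (stepR t G) - f G) ^ 2 with hE
    have h5 : 8 * dot f f ≤ 4 * E := h1.trans h3
    have h6 : γ = (1 / (12 * (C : ℝ))) := by
      rw [hγ, hm]; push_cast; rfl
    rw [h6]
    have h7 : dot f f ≤ E / 2 := by linarith
    have h8 : (1 / (12 * (C : ℝ))) * dot f f ≤ (1 / (12 * (C : ℝ))) * (E / 2) :=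
      mul_le_mul_of_nonneg_left h7 (by positivity)
    calc _ ≤ (1 / (12 * (C : ℝ))) * (E / 2) := h8
      _ = _ := by field_simp; ring
  have hcontr : ∀ f : Realizations d → ℝ, ∑ G, f G = 0 →
      dot ((switchKernel d).mulVec f) ((switchKernel d).mulVec f) ≤ (1 - γ) * dot f f :=
    fun f hf => contr_half Q (switchKernel d) hQ0 hQsym hQrow hP γ f (hgap f hf)
  have htv := tv_bound (switchKernel d) γ hγ1 hsym hrow hcontr (n ^ 6) G
  -- arithmetic
  have hN : (Fintype.card (Realizations d) : ℝ) ≤ 2 ^ (n ^ 2) := by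
    exact_mod_cast card_real_le (d := d) (by omega)
  have h01 : 0 ≤ 1 - γ := by linarith
  have h11 : 1 - γ ≤ 1 := by linarith
  have hmk : m * (n ^ 2 + 2) ≤ n ^ 6 := by
    have h1 := choose_four_bound n
    have h2 : n ^ 2 + 2 ≤ 2 * n ^ 2 := by nlinarith
    calc m * (n ^ 2 + 2) ≤ m * (2 * n ^ 2) := Nat.mul_le_mul_left _ h2
      _ = (24 * C) * n ^ 2 := by rw [hm]; ring
      _ ≤ n ^ 4 * n ^ 2 := Nat.mul_le_mul_right _ h1
      _ = n ^ 6 := by ring
  have hpow : (1 - γ) ^ (n ^ 6) ≤ (1 / 2) ^ (n ^ 2 + 2) := by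
    calc (1 - γ) ^ (n ^ 6) ≤ (1 - γ) ^ (m * (n ^ 2 + 2)) :=
          pow_le_pow_of_le_one h01 h11 hmk
      _ = ((1 - γ) ^ m) ^ (n ^ 2 + 2) := by rw [pow_mul]
      _ ≤ (1 / 2) ^ (n ^ 2 + 2) :=
          pow_le_pow_left₀ (pow_nonneg h01 m) (one_sub_inv_pow_le m hm1) _
  have hfinal : (1 / 4) * (Fintype.card (Realizations d) : ℝ) * (1 - γ) ^ (n ^ 6) ≤ (1 / 4) ^ 2 := by
    have h1 : (Fintype.card (Realizations d) : ℝ) * (1 - γ) ^ (n ^ 6) ≤
        2 ^ (n ^ 2) * (1 / 2) ^ (n ^ 2 + 2) :=
      mul_le_mul hN hpow (pow_nonneg h01 _) (by positivity)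
    have h2 : (2 : ℝ) ^ (n ^ 2) * (1 / 2) ^ (n ^ 2 + 2) = 1 / 4 := by
      rw [pow_add, ← mul_assoc, ← mul_pow]
      norm_num
    nlinarith
  unfold tvDistance uniformDist
  have h0 : 0 ≤ (1 / 2 : ℝ) * ∑ H, |((switchKernel d) ^ (n ^ 6)) G H -
      1 / (Fintype.card (Realizations d) : ℝ)| :=
    mul_nonneg (by norm_num) (Finset.sum_nonneg (fun _ _ => abs_nonneg _))
  exact abs_le_of_sq_le_sq' (htv.trans hfinal) (by norm_num) |>.2

theorem main_tmix (hn : 4 ≤ n) (hd : Graphical d) : mixingTime d ≤ n ^ 6 :=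
  Nat.sInf_le (main_mixing hn hd)

end Final

end Vale.Agent.P335
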